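import Vale.Agent.P181.Q.Spec
import Mathlib.Algebra.Order.BigOperators.Group.Finset
import Mathlib.Order.Fin.Basic

/-!
P181, Theorem Q, row R5a (EXTENSION), R5b (GUEST COLUMNS), R5c (BALANCED ASSIGNMENT).
-/

set_option autoImplicit false

namespace Vale.Agent.P181.Q

open Finset

/-- R5a. -/
theorem extend : ExtendStmt := by
  intro N b S S₀ g m hS hle hsum
  obtain ⟨n, hn⟩ : ∃ n, (S \ S₀).card = n := ⟨_, rfl⟩
  induction n generalizing S₀ g with
  | zero =>
    have hSS : S₀ = S := by
      refine Finset.Subset.antisymm hS ?_
      rw [Finset.card_eq_zero] at hn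
      exact Finset.sdiff_eq_empty_iff_subset.mp hn
    subst hSS
    refine ⟨g, fun _ _ => rfl, ?_⟩
    have hc : ∑ φ, (S₀.filter (fun t => g t = φ)).card = ∑ φ, m φ := by
      rw [hsum]
      exact (Finset.card_eq_sum_card_fiberwise (fun x _ => Finset.mem_univ (g x))).symm
    intro φ
    exact (Finset.sum_eq_sum_iff_of_le (fun i _ => hle i)).mp hc φ (Finset.mem_univ φ)
  | succ n ih =>
    obtain ⟨t₀, ht₀⟩ : (S \ S₀).Nonempty := by
      rw [← Finset.card_pos, hn]; omega
    have ht₀' := Finset.mem_sdiff.mp ht₀
    obtain ⟨φ, hφ⟩ : ∃ φ, (S₀.filter (fun t => g t = φ)).card < m φ := by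
      by_contra hcon
      push Not at hcon
      have h1 : ∑ φ, m φ ≤ ∑ φ, (S₀.filter (fun t => g t = φ)).card :=
        Finset.sum_le_sum (fun φ _ => hcon φ)
      rw [hsum, ← Finset.card_eq_sum_card_fiberwise (fun x _ => Finset.mem_univ (g x))] at h1
      have h2 : S₀ = S := Finset.eq_of_subset_of_card_le hS h1
      rw [h2] at ht₀'
      exact ht₀'.2 ht₀'.1
    have hg : ∀ t ∈ S₀, Function.update g t₀ φ t = g t := by
      intro t ht
      apply Function.update_of_ne
      rintro rfl
      exact ht₀'.2 ht
    have hS' : insert t₀ S₀ ⊆ S := Finset.insert_subset ht₀'.1 hS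
    have hle' : ∀ ψ, ((insert t₀ S₀).filter
        (fun t => Function.update g t₀ φ t = ψ)).card ≤ m ψ := by
      intro ψ
      have h3 : S₀.filter (fun t => Function.update g t₀ φ t = ψ)
          = S₀.filter (fun t => g t = ψ) := by
        apply Finset.filter_congr
        intro t ht
        rw [hg t ht]
      rw [Finset.filter_insert, Function.update_self, h3]
      split_ifs with h4
      · subst h4
        rw [Finset.card_insert_of_notMem]
        · exact hφ
        · intro h5
          exact ht₀'.2 (Finset.mem_filter.mp h5).1
      · exact hle ψ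
    have hn' : (S \ insert t₀ S₀).card = n := by
      have h6 : S \ insert t₀ S₀ = (S \ S₀).erase t₀ := by
        ext x
        simp only [Finset.mem_sdiff, Finset.mem_insert, Finset.mem_erase, not_or]
        tauto
      rw [h6, Finset.card_erase_of_mem ht₀, hn]
      omega
    obtain ⟨f, hf1, hf2⟩ := ih (insert t₀ S₀) (Function.update g t₀ φ) hS' hle' hn'
    refine ⟨f, fun t ht => ?_, hf2⟩
    rw [hf1 t (Finset.mem_insert_of_mem ht), hg t ht]

/-- R5b. -/
theorem guest : GuestStmt := by
  intro a N K S K' ha hK' hS
  have key : ∀ D : Finset (Fin a), ∃ G : Fin a → Finset (Fin N), (∀ h, G h ⊆ S h) ∧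
      (∀ h, (G h).card ≤ K) ∧ (∀ h ∈ D, (G h).card = K' h) ∧
      ∀ h, finRotate a h ≠ h → Disjoint (G h) (G (finRotate a h)) := by
    intro D
    induction D using Finset.induction_on with
    | empty =>
      exact ⟨fun _ => ∅, fun _ => Finset.empty_subset _, fun _ => by simp,
        fun h hh => absurd hh (Finset.notMem_empty h), fun _ _ => by simp⟩
    | insert h₀ D hh₀ ih =>
      obtain ⟨G, hG1, hG2, hG3, hG4⟩ := ih
      have hcard : K' h₀ ≤ (S h₀ \ (G (finRotate a h₀) ∪ G ((finRotate a).symm h₀))).card := by
        have h1 := Finset.le_card_sdiff (G (finRotate a h₀) ∪ G ((finRotate a).symm h₀)) (S h₀)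
        have h2 := Finset.card_union_le (G (finRotate a h₀)) (G ((finRotate a).symm h₀))
        have h3 := hG2 (finRotate a h₀)
        have h4 := hG2 ((finRotate a).symm h₀)
        have h5 := hS h₀
        have h6 := hK' h₀
        omega
      obtain ⟨A, hA1, hA2⟩ := Finset.exists_subset_card_eq hcard
      have hAS : A ⊆ S h₀ := hA1.trans Finset.sdiff_subset
      have hd1 : Disjoint A (G (finRotate a h₀)) := by
        rw [Finset.disjoint_left]
        intro x hx hx'
        have := Finset.mem_sdiff.mp (hA1 hx)
        exact this.2 (Finset.mem_union_left _ hx')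
      have hd2 : Disjoint A (G ((finRotate a).symm h₀)) := by
        rw [Finset.disjoint_left]
        intro x hx hx'
        have := Finset.mem_sdiff.mp (hA1 hx)
        exact this.2 (Finset.mem_union_right _ hx')
      refine ⟨Function.update G h₀ A, ?_, ?_, ?_, ?_⟩
      · intro h
        by_cases hh : h = h₀
        · subst hh; rw [Function.update_self]; exact hAS
        · rw [Function.update_of_ne hh]; exact hG1 h
      · intro h
        by_cases hh : h = h₀
        · subst hh; rw [Function.update_self, hA2]; exact hK' h
        · rw [Function.update_of_ne hh]; exact hG2 h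
      · intro h hh
        by_cases hh' : h = h₀
        · subst hh'; rw [Function.update_self, hA2]
        · rw [Function.update_of_ne hh']
          exact hG3 h ((Finset.mem_insert.mp hh).resolve_left hh')
      · intro h hh
        by_cases hh' : h = h₀
        · subst hh'
          rw [Function.update_self, Function.update_of_ne hh]
          exact hd1
        · rw [Function.update_of_ne hh']
          by_cases hr : finRotate a h = h₀
          · rw [hr, Function.update_self]
            have : h = (finRotate a).symm h₀ := by rw [← hr, Equiv.symm_apply_apply]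
            rw [this]
            exact hd2.symm
          · rw [Function.update_of_ne hr]
            exact hG4 h hh
  obtain ⟨G, hG1, _, hG3, hG4⟩ := key Finset.univ
  exact ⟨G, hG1, fun h => hG3 h (Finset.mem_univ h), hG4⟩

/-- R5c. -/
theorem balance : BalanceStmt := by
  intro N b u L G F hu hL hLF
  have hFne : F.Nonempty := by
    rw [← Finset.card_pos]; omega
  obtain ⟨φ₀, hφ₀⟩ := hFne
  induction G using Finset.induction_on with
  | empty =>
    intro _
    exact ⟨fun _ => φ₀, fun t ht => absurd ht (Finset.notMem_empty t), fun φ => by simp⟩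
  | insert t₀ G ht₀ ih =>
    intro hG
    rw [Finset.card_insert_of_notMem ht₀] at hG
    obtain ⟨g, hg1, hg2⟩ := ih (by omega)
    obtain ⟨φ, hφF, hφ⟩ : ∃ φ ∈ F, (G.filter (fun t => g t = φ)).card < u - 1 := by
      by_contra hcon
      push Not at hcon
      have h1 : ∑ φ ∈ F, (u - 1) ≤ ∑ φ ∈ F, (G.filter (fun t => g t = φ)).card :=
        Finset.sum_le_sum (fun φ hφ => hcon φ hφ)
      rw [← Finset.card_eq_sum_card_fiberwise (fun x hx => hg1 x hx), Finset.sum_const,
        smul_eq_mul] at h1
      have h2 : (u - 1) * L ≤ F.card * (u - 1) := by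
        rw [Nat.mul_comm (u - 1) L]
        exact Nat.mul_le_mul_right _ hLF
      omega
    have hg : ∀ t ∈ G, Function.update g t₀ φ t = g t := by
      intro t ht
      apply Function.update_of_ne
      rintro rfl
      exact ht₀ ht
    refine ⟨Function.update g t₀ φ, ?_, ?_⟩
    · intro t ht
      rcases Finset.mem_insert.mp ht with rfl | ht
      · rw [Function.update_self]; exact hφF
      · rw [hg t ht]; exact hg1 t ht
    · intro ψ
      have h3 : G.filter (fun t => Function.update g t₀ φ t = ψ)
          = G.filter (fun t => g t = ψ) := by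
        apply Finset.filter_congr
        intro t ht
        rw [hg t ht]
      rw [Finset.filter_insert, Function.update_self, h3]
      split_ifs with h4
      · subst h4
        rw [Finset.card_insert_of_notMem]
        · omega
        · intro h5
          exact ht₀ (Finset.mem_filter.mp h5).1
      · exact hg2 ψ

end Vale.Agent.P181.Q
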