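import Vale.Agent.P181.Q.Spec
import Mathlib.Analysis.SpecialFunctions.Log.Basic
import Mathlib.Analysis.Complex.ExponentialBounds
import Mathlib.Algebra.Order.Floor.Ring

/-!
P181, Theorem Q, the constants.
-/

set_option autoImplicit false

namespace Vale.Agent.P181.Q

/-- The last clause of `consts`, with `Z = δ a² / b`. -/
theorem consts_exp (δ : ℝ) (hδ : 0 < δ) (a b u s q : ℕ) (hA2 : (2 : ℝ) ≤ a)
    (hb : 10000 * (a : ℝ) ≤ b) (hu : (u : ℝ) ≤ δ * a / 100)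
    (hs : 0.49 * (δ * b) ≤ (s : ℝ)) (hq1 : (q : ℝ) * a ≤ b) (hq2 : (b : ℝ) ≤ ((q : ℝ) + 1) * a)
    (hlog : (0.69 : ℝ) ≤ Real.log a) (h2b : 2 * (b : ℝ) ≤ a * a)
    (hZ0 : 10000 * (b * Real.log a) ≤ δ * (a : ℝ) ^ 2) :
    (a : ℝ) ^ 2 * ((q + 1 : ℕ) : ℝ) ^ 2 * (2 ^ (10 * u / q + 1) *
      (1 - 1 / (2 * ((q + 1 : ℕ) : ℝ) ^ 2)) ^ s) < 1 := by
  have hA0 : (0 : ℝ) < a := by linarith
  have hB0 : (0 : ℝ) < b := by linarith
  have hq0 : (0 : ℝ) ≤ q := Nat.cast_nonneg q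
  have hQcast : ((q + 1 : ℕ) : ℝ) = (q : ℝ) + 1 := by push_cast; ring
  rw [hQcast]
  have hqA : 0.9 * (b : ℝ) ≤ q * a := by linarith
  have hqpos : (0 : ℝ) < q := by
    by_contra hcon
    have : (q : ℝ) = 0 := le_antisymm (not_lt.mp hcon) hq0
    rw [this] at hqA
    linarith
  have hQA : ((q : ℝ) + 1) * a ≤ 1.01 * b := by linarith
  obtain ⟨Z, hZ⟩ : ∃ Z : ℝ, Z = δ * (a : ℝ) ^ 2 / b := ⟨_, rfl⟩
  have hZlog : 10000 * Real.log a ≤ Z := by
    rw [hZ, le_div_iff₀ hB0]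
    linarith
  have hQleA : (q : ℝ) + 1 ≤ a := by
    have h5 : (q : ℝ) * 2 ≤ a := by
      have h6 : ((q : ℝ) * 2) * a ≤ a * a := by linarith
      exact le_of_mul_le_mul_right h6 hA0
    linarith
  have hμ : (((10 * u / q + 1 : ℕ)) : ℝ) ≤ Z / 9 + 1 := by
    have h3 : ((10 * u / q : ℕ) : ℝ) ≤ ((10 * u : ℕ) : ℝ) / q := Nat.cast_div_le
    have h4 : ((10 * u : ℕ) : ℝ) / q ≤ Z / 9 := by
      push_cast
      rw [hZ, div_div, div_le_div_iff₀ hqpos (by positivity)]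
      have h5 : 10 * (u : ℝ) * (b * 9) ≤ 10 * (δ * a / 100) * (b * 9) := by
        apply mul_le_mul_of_nonneg_right _ (by positivity)
        linarith
      have h6 : δ * a * (0.9 * b) ≤ δ * a * (q * a) :=
        mul_le_mul_of_nonneg_left hqA (by positivity)
      have h7 : 10 * (δ * a / 100) * (b * 9) = δ * a * (0.9 * b) := by ring
      have h8 : δ * a * (q * a) = δ * (a : ℝ) ^ 2 * q := by ring
      linarith
    push_cast
    push_cast at h3 h4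
    linarith
  have hsQ : 0.24 * Z ≤ (s : ℝ) * (1 / (2 * ((q : ℝ) + 1) ^ 2)) := by
    rw [hZ, ← mul_div_assoc, mul_one_div, div_le_div_iff₀ hB0 (by positivity)]
    have h3 : (((q : ℝ) + 1) * a) ^ 2 ≤ (1.01 * b) ^ 2 :=
      pow_le_pow_left₀ (by positivity) hQA 2
    have h4 : 0.24 * (δ * (a : ℝ) ^ 2) * (2 * ((q : ℝ) + 1) ^ 2)
        = 0.48 * δ * (((q : ℝ) + 1) * a) ^ 2 := by ring
    rw [h4]
    have h5 : 0.48 * δ * (((q : ℝ) + 1) * a) ^ 2 ≤ 0.48 * δ * (1.01 * b) ^ 2 :=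
      mul_le_mul_of_nonneg_left h3 (by positivity)
    have h6 : 0.49 * (δ * b) * b ≤ (s : ℝ) * b := mul_le_mul_of_nonneg_right hs hB0.le
    have h7 : 0.48 * δ * (1.01 * (b : ℝ)) ^ 2 = 0.489648 * (δ * (b * b)) := by ring
    have h8 : 0.49 * (δ * b) * (b : ℝ) = 0.49 * (δ * (b * b)) := by ring
    have h9 : 0 < δ * ((b : ℝ) * b) := by positivity
    linarith
  have hy1 : (1 : ℝ) ≤ (q : ℝ) + 1 := by linarith
  have hy2 : (1 : ℝ) ≤ ((q : ℝ) + 1) ^ 2 := one_le_pow₀ hy1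
  have hy0 : 0 ≤ 1 - 1 / (2 * ((q : ℝ) + 1) ^ 2) := by
    rw [sub_nonneg, div_le_one (by positivity)]
    linarith
  have hpow : (1 - 1 / (2 * ((q : ℝ) + 1) ^ 2)) ^ s ≤ Real.exp (-(0.24 * Z)) := by
    have h3 : 1 - 1 / (2 * ((q : ℝ) + 1) ^ 2) ≤ Real.exp (-(1 / (2 * ((q : ℝ) + 1) ^ 2))) :=
      Real.one_sub_le_exp_neg _
    refine le_trans (pow_le_pow_left₀ hy0 h3 s) ?_
    rw [← Real.exp_nat_mul, Real.exp_le_exp]
    linarith
  have h2pow : (2 : ℝ) ^ (10 * u / q + 1) ≤ Real.exp (0.7 * (Z / 9 + 1)) := by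
    have h3 : (2 : ℝ) ≤ Real.exp 0.7 := by
      have := Real.log_two_lt_d9
      rw [← Real.log_le_iff_le_exp (by norm_num)]
      linarith
    have h4 : (2 : ℝ) ^ (10 * u / q + 1) ≤ Real.exp 0.7 ^ (10 * u / q + 1) :=
      pow_le_pow_left₀ (by norm_num) h3 _
    refine le_trans h4 ?_
    rw [← Real.exp_nat_mul, Real.exp_le_exp]
    linarith
  have ha4 : (a : ℝ) ^ 2 * ((q : ℝ) + 1) ^ 2 ≤ Real.exp (4 * Real.log a) := by
    have h3 : ((q : ℝ) + 1) ^ 2 ≤ (a : ℝ) ^ 2 := pow_le_pow_left₀ (by positivity) hQleA 2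
    have h4 : Real.exp (4 * Real.log a) = (a : ℝ) ^ 4 := by
      rw [show (4 : ℝ) * Real.log a = ((4 : ℕ) : ℝ) * Real.log a by norm_num,
        Real.exp_nat_mul, Real.exp_log hA0]
    rw [h4]
    have h5 : (a : ℝ) ^ 2 * ((q : ℝ) + 1) ^ 2 ≤ (a : ℝ) ^ 2 * (a : ℝ) ^ 2 :=
      mul_le_mul_of_nonneg_left h3 (by positivity)
    have h6 : (a : ℝ) ^ 2 * (a : ℝ) ^ 2 = (a : ℝ) ^ 4 := by ring
    linarith
  have hprod : (a : ℝ) ^ 2 * ((q : ℝ) + 1) ^ 2 * (2 ^ (10 * u / q + 1) *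
      (1 - 1 / (2 * ((q : ℝ) + 1) ^ 2)) ^ s) ≤
      Real.exp (4 * Real.log a) * (Real.exp (0.7 * (Z / 9 + 1)) * Real.exp (-(0.24 * Z))) := by
    apply mul_le_mul ha4 _ (by positivity) (Real.exp_pos _).le
    exact mul_le_mul h2pow hpow (by positivity) (Real.exp_pos _).le
  refine lt_of_le_of_lt hprod ?_
  rw [← Real.exp_add, ← Real.exp_add]
  have h0 := Real.exp_lt_exp.mpr (show 4 * Real.log a + (0.7 * (Z / 9 + 1) + -(0.24 * Z)) < 0 by
    linarith)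
  rwa [Real.exp_zero] at h0

/-- The constants of Theorem Q: `u = ⌊δ a / 100⌋`, `P = a / u + 11`, `s = ⌊δ b / 2⌋`. -/
theorem consts (δ : ℝ) (hδ : 0 < δ) (hδ1 : δ ≤ 1) :
    ∃ C : ℝ, 0 < C ∧ ∀ a b : ℕ, 2 ≤ a → C * a ≤ b → C * b * Real.log a ≤ (a : ℝ) ^ 2 →
      ∃ u P s : ℕ, 10 ≤ u ∧ 10 ≤ P ∧ a ≤ u * P ∧ a < u * u ∧ 5 * u < a ∧ 7 * P + 30 ≤ b / a ∧
        (s : ℝ) + 10 * u * ((b / a : ℕ) + 1) ≤ δ * b ∧
        (a : ℝ) ^ 2 * ((b / a + 1 : ℕ) : ℝ) ^ 2 * (2 ^ (10 * u / (b / a) + 1) *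
          (1 - 1 / (2 * ((b / a + 1 : ℕ) : ℝ) ^ 2)) ^ s) < 1 := by
  refine ⟨10000 / δ, by positivity, ?_⟩
  intro a b ha h1 h2
  obtain ⟨C, hC⟩ : ∃ C : ℝ, C = 10000 / δ := ⟨_, rfl⟩
  rw [← hC] at h1 h2
  have hCδ : C * δ = 10000 := by rw [hC]; field_simp
  have hCpos : 0 < C := by rw [hC]; positivity
  have hC1 : 10000 ≤ C := by
    rw [hC, le_div_iff₀ hδ]; linarith
  have hA2 : (2 : ℝ) ≤ a := by exact_mod_cast ha
  have hA0 : (0 : ℝ) < a := by linarith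
  have hlog : (0.69 : ℝ) ≤ Real.log a := by
    have := Real.log_two_gt_d9
    have h3 := Real.log_le_log (by norm_num : (0 : ℝ) < 2) hA2
    linarith
  have hlog0 : 0 ≤ Real.log a := by linarith
  have hB0 : (0 : ℝ) < b := lt_of_lt_of_le (by positivity) h1
  -- lower bound for `a`
  have hA : 0.69 * C ^ 2 ≤ (a : ℝ) := by
    have h3 : C * (C * a) * Real.log a ≤ (a : ℝ) ^ 2 :=
      le_trans (mul_le_mul_of_nonneg_right (mul_le_mul_of_nonneg_left h1 hCpos.le) hlog0) h2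
    have h4 : C ^ 2 * Real.log a * a ≤ a * a := by
      have e1 : C ^ 2 * Real.log a * a = C * (C * a) * Real.log a := by ring
      have e2 : (a : ℝ) * a = (a : ℝ) ^ 2 := by ring
      rw [e1, e2]; exact h3
    have h5 : C ^ 2 * Real.log a ≤ a := le_of_mul_le_mul_right h4 hA0
    have h6 : C ^ 2 * 0.69 ≤ C ^ 2 * Real.log a := mul_le_mul_of_nonneg_left hlog (sq_nonneg C)
    linarith
  have hAδ2 : 69000000 ≤ δ ^ 2 * a := by
    have h3 : δ ^ 2 * (0.69 * C ^ 2) ≤ δ ^ 2 * a := mul_le_mul_of_nonneg_left hA (by positivity)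
    have h4 : δ ^ 2 * (0.69 * C ^ 2) = 0.69 * (C * δ) ^ 2 := by ring
    rw [h4, hCδ] at h3
    norm_num at h3 ⊢
    linarith
  have hAδ : 69000000 ≤ δ * a := by
    have h3 : δ ^ 2 * a ≤ δ * a := by
      have : δ ^ 2 ≤ δ := by nlinarith
      exact mul_le_mul_of_nonneg_right this hA0.le
    linarith
  have hAB : 10000 * (a : ℝ) ≤ b := le_trans (mul_le_mul_of_nonneg_right hC1 hA0.le) h1
  -- `u`
  obtain ⟨u, hu⟩ : ∃ u : ℕ, u = ⌊δ * a / 100⌋₊ := ⟨_, rfl⟩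
  have hu1 : (u : ℝ) ≤ δ * a / 100 := by rw [hu]; exact Nat.floor_le (by positivity)
  have hu2 : δ * a / 100 < (u : ℝ) + 1 := by rw [hu]; exact Nat.lt_floor_add_one _
  have hu3 : δ * a / 200 ≤ (u : ℝ) := by linarith
  have hu10 : 10 ≤ u := by
    have : (10 : ℝ) ≤ u := by linarith
    exact_mod_cast this
  have hu0 : (0 : ℝ) < u := by linarith
  -- `s`
  obtain ⟨s, hs⟩ : ∃ s : ℕ, s = ⌊δ * b / 2⌋₊ := ⟨_, rfl⟩
  have hs1 : (s : ℝ) ≤ δ * b / 2 := by rw [hs]; exact Nat.floor_le (by positivity)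
  have hs2 : δ * b / 2 < (s : ℝ) + 1 := by rw [hs]; exact Nat.lt_floor_add_one _
  have hδAB : δ * (10000 * a) ≤ δ * b := mul_le_mul_of_nonneg_left hAB hδ.le
  have hδB : 100 ≤ δ * b := by linarith
  have hs3 : 0.49 * (δ * b) ≤ (s : ℝ) := by linarith
  -- `q`
  obtain ⟨q, hq⟩ : ∃ q : ℕ, q = b / a := ⟨_, rfl⟩
  have hq1' : q * a ≤ b := by rw [hq]; exact Nat.div_mul_le_self b a
  have hq1 : (q : ℝ) * a ≤ b := by exact_mod_cast hq1'
  have hq2' : b < a * (q + 1) := by rw [hq]; exact Nat.lt_mul_div_succ b (by omega)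
  have hq2 : (b : ℝ) ≤ ((q : ℝ) + 1) * a := by
    have h4 : (b : ℝ) < (a : ℝ) * ((q : ℝ) + 1) := by exact_mod_cast hq2'
    linarith
  rw [← hq]
  refine ⟨u, a / u + 11, s, hu10, le_trans (by norm_num) (Nat.le_add_left 11 _), ?_, ?_, ?_,
    ?_, ?_, ?_⟩
  · have h3 := Nat.div_add_mod a u
    have h4 := Nat.mod_lt a (by omega : 0 < u)
    calc a = u * (a / u) + a % u := h3.symm
      _ ≤ u * (a / u) + u * 11 := by omega
      _ = u * (a / u + 11) := by ring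
  · have h3 : (a : ℝ) < (u : ℝ) * u := by
      have h4 : (δ * a / 200) * (δ * a / 200) ≤ (u : ℝ) * u :=
        mul_self_le_mul_self (by positivity) hu3
      have h5 : (δ * a / 200) * (δ * a / 200) = (δ ^ 2 * a) * (a / 40000) := by ring
      have h6 : 69000000 * ((a : ℝ) / 40000) ≤ (δ ^ 2 * a) * (a / 40000) :=
        mul_le_mul_of_nonneg_right hAδ2 (by positivity)
      linarith
    exact_mod_cast h3
  · have h3 : 5 * (u : ℝ) < a := by
      have h4 : δ * a ≤ 1 * a := mul_le_mul_of_nonneg_right hδ1 hA0.le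
      linarith
    exact_mod_cast h3
  · rw [hq, Nat.le_div_iff_mul_le (by omega : 0 < a)]
    have h3 : ((a / u : ℕ) : ℝ) ≤ 200 / δ := by
      have h4 : ((a / u : ℕ) : ℝ) ≤ (a : ℝ) / u := Nat.cast_div_le
      have h5 : (a : ℝ) / u ≤ 200 / δ := by
        rw [div_le_div_iff₀ hu0 hδ]; linarith
      linarith
    have h4 : (7 * (((a / u : ℕ) : ℝ) + 11) + 30) ≤ C := by
      have h5 : (107 : ℝ) ≤ 107 / δ := by rw [le_div_iff₀ hδ]; linarith
      have h6 : 7 * (200 / δ) + 107 / δ ≤ C := by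
        rw [hC, ← mul_div_assoc, ← add_div]
        apply div_le_div_of_nonneg_right _ hδ.le
        norm_num
      linarith
    have h5 : (7 * (((a / u : ℕ) : ℝ) + 11) + 30) * a ≤ b :=
      le_trans (mul_le_mul_of_nonneg_right h4 hA0.le) h1
    exact_mod_cast h5
  · have h3 : (u : ℝ) * ((q : ℝ) + 1) ≤ δ * a / 100 * ((q : ℝ) + 1) :=
      mul_le_mul_of_nonneg_right hu1 (by positivity)
    have h4 : δ * ((q : ℝ) * a) ≤ δ * b := mul_le_mul_of_nonneg_left hq1 hδ.le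
    have h5 : δ * a / 100 * ((q : ℝ) + 1) = (δ * ((q : ℝ) * a) + δ * a) / 100 := by ring
    have h6 : 10 * (u : ℝ) * ((q : ℝ) + 1) = 10 * ((u : ℝ) * ((q : ℝ) + 1)) := by ring
    rw [h6]
    linarith
  · have h2b : 2 * (b : ℝ) ≤ a * a := by
      have h4 : 2 ≤ C * Real.log a := by
        have : 10000 * 0.69 ≤ C * Real.log a := mul_le_mul hC1 hlog (by norm_num) hCpos.le
        linarith
      have h5 : 2 * (b : ℝ) ≤ C * Real.log a * b := mul_le_mul_of_nonneg_right h4 hB0.le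
      have h6 : C * Real.log a * b = C * b * Real.log a := by ring
      have h7 : (a : ℝ) * a = (a : ℝ) ^ 2 := by ring
      rw [h7]
      linarith
    have hZ0 : 10000 * (b * Real.log a) ≤ δ * (a : ℝ) ^ 2 := by
      have h3 : δ * (C * b * Real.log a) ≤ δ * (a : ℝ) ^ 2 := mul_le_mul_of_nonneg_left h2 hδ.le
      have h4 : δ * (C * b * Real.log a) = (C * δ) * (b * Real.log a) := by ring
      rw [h4, hCδ] at h3
      exact h3
    exact consts_exp δ hδ a b u s q hA2 hAB hu1 hs3 hq1 hq2 hlog h2b hZ0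

end Vale.Agent.P181.Q
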