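import Vale.Agent.P181.Q.Spec2
import Mathlib.Analysis.SpecialFunctions.Log.Basic
import Mathlib.Analysis.SpecialFunctions.Sqrt
import Mathlib.Analysis.Complex.ExponentialBounds
import Mathlib.Algebra.Order.Floor.Ring

/-!
P181, Theorem Q2, the constants.
-/

set_option autoImplicit false

namespace Vale.Agent.P181.Q

/-- First term of the numeric hypothesis of `Label2Stmt`. -/
theorem consts2_term1 (δ : ℝ) (hδ : 0 < δ) (a b u s q P : ℕ) (hA2 : (2 : ℝ) ≤ a)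
    (hb : 10000 * (a : ℝ) ≤ b) (hb2 : (b : ℝ) ≤ (a : ℝ) ^ 2)
    (hu : (u : ℝ) ≤ δ * a / 1000) (huP : (a : ℝ) ≤ u * (P + 2))
    (hP : (4 * (P : ℝ) + 9) * δ ≤ 4093)
    (hs : 0.49 * (δ * b) ≤ (s : ℝ)) (hq1 : (q : ℝ) * a ≤ b)
    (hX : 4 * Real.log a + 4 ≤ 0.000025 * (δ ^ 2 * a)) :
    (a : ℝ) ^ 2 * ((q + 1 : ℕ) : ℝ) ^ 2 * (2 ^ (5 * u / (P + 2) + 1) *
      (1 - 1 / (4 * ((q + 1 : ℕ) : ℝ) * (4 * P + 9))) ^ s) < 1 / 2 := by
  have hA0 : (0 : ℝ) < a := by linarith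
  have hB0 : (0 : ℝ) < b := by linarith
  have hq0 : (0 : ℝ) ≤ q := Nat.cast_nonneg q
  have hP0 : (0 : ℝ) ≤ P := Nat.cast_nonneg P
  have hu0 : (0 : ℝ) ≤ u := Nat.cast_nonneg u
  have hQcast : ((q + 1 : ℕ) : ℝ) = (q : ℝ) + 1 := by push_cast; ring
  rw [hQcast]
  have hQA : ((q : ℝ) + 1) * a ≤ 1.01 * b := by linarith
  obtain ⟨X, hXdef⟩ : ∃ X : ℝ, X = δ ^ 2 * a := ⟨_, rfl⟩
  rw [← hXdef] at hX
  -- exponent of two
  have hμ : (((5 * u / (P + 2) + 1 : ℕ)) : ℝ) ≤ 0.000005 * X + 1 := by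
    have h3 : ((5 * u / (P + 2) : ℕ) : ℝ) ≤ ((5 * u : ℕ) : ℝ) / ((P + 2 : ℕ) : ℝ) :=
      Nat.cast_div_le
    have h4 : ((5 * u : ℕ) : ℝ) / ((P + 2 : ℕ) : ℝ) ≤ 0.000005 * X := by
      push_cast
      rw [hXdef, div_le_iff₀ (by positivity)]
      have h5 : (u : ℝ) * u ≤ δ * a / 1000 * (δ * a / 1000) := mul_self_le_mul_self hu0 hu
      have h6 : (u : ℝ) * a ≤ u * (u * (P + 2)) := mul_le_mul_of_nonneg_left huP hu0
      have h7 : (u : ℝ) * u * (P + 2) ≤ δ * a / 1000 * (δ * a / 1000) * (P + 2) :=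
        mul_le_mul_of_nonneg_right h5 (by positivity)
      have h8 : (5 * (u : ℝ)) * a ≤ (0.000005 * (δ ^ 2 * a) * (P + 2)) * a := by
        have e1 : u * (u * ((P : ℝ) + 2)) = (u : ℝ) * u * (P + 2) := by ring
        have e2 : δ * a / 1000 * (δ * a / 1000) * ((P : ℝ) + 2) =
          0.000001 * (δ ^ 2 * a) * (P + 2) * a := by ring
        rw [e1] at h6
        rw [e2] at h7
        linarith
      exact le_of_mul_le_mul_right h8 hA0
    push_cast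
    push_cast at h3 h4
    linarith
  have hsQ : 0.000029 * X ≤ (s : ℝ) * (1 / (4 * ((q : ℝ) + 1) * (4 * P + 9))) := by
    rw [mul_one_div, le_div_iff₀ (by positivity), hXdef]
    have e1 : 0.000029 * (δ ^ 2 * a) * (4 * ((q : ℝ) + 1) * (4 * P + 9)) =
      0.000116 * δ * ((4 * (P : ℝ) + 9) * δ) * (((q : ℝ) + 1) * a) := by ring
    rw [e1]
    have h3 : 0.000116 * δ * ((4 * (P : ℝ) + 9) * δ) ≤ 0.000116 * δ * 4093 :=
      mul_le_mul_of_nonneg_left hP (by positivity)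
    have h4 : 0.000116 * δ * ((4 * (P : ℝ) + 9) * δ) * (((q : ℝ) + 1) * a) ≤
        0.000116 * δ * 4093 * (1.01 * b) :=
      mul_le_mul h3 hQA (by positivity) (by positivity)
    have h5 : 0.000116 * δ * 4093 * (1.01 * b) = 0.47953588 * (δ * b) := by ring
    have h6 : 0 < δ * (b : ℝ) := by positivity
    linarith
  have hy0 : 0 ≤ 1 - 1 / (4 * ((q : ℝ) + 1) * (4 * P + 9)) := by
    rw [sub_nonneg, div_le_one (by positivity)]
    have : (1 : ℝ) * 1 ≤ 4 * ((q : ℝ) + 1) * (4 * P + 9) :=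
      mul_le_mul (by linarith) (by linarith) (by norm_num) (by positivity)
    linarith
  have hpow : (1 - 1 / (4 * ((q : ℝ) + 1) * (4 * P + 9))) ^ s ≤ Real.exp (-(0.000029 * X)) := by
    have h3 : 1 - 1 / (4 * ((q : ℝ) + 1) * (4 * P + 9)) ≤
        Real.exp (-(1 / (4 * ((q : ℝ) + 1) * (4 * P + 9)))) := Real.one_sub_le_exp_neg _
    refine le_trans (pow_le_pow_left₀ hy0 h3 s) ?_
    rw [← Real.exp_nat_mul, Real.exp_le_exp]
    linarith
  have h2pow : (2 : ℝ) ^ (5 * u / (P + 2) + 1) ≤ Real.exp (0.7 * (0.000005 * X + 1)) := by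
    have h3 : (2 : ℝ) ≤ Real.exp 0.7 := by
      have := Real.log_two_lt_d9
      rw [← Real.log_le_iff_le_exp (by norm_num)]
      linarith
    have h4 : (2 : ℝ) ^ (5 * u / (P + 2) + 1) ≤ Real.exp 0.7 ^ (5 * u / (P + 2) + 1) :=
      pow_le_pow_left₀ (by norm_num) h3 _
    refine le_trans h4 ?_
    rw [← Real.exp_nat_mul, Real.exp_le_exp]
    linarith
  have ha4 : (a : ℝ) ^ 2 * ((q : ℝ) + 1) ^ 2 ≤ 2 * Real.exp (4 * Real.log a) := by
    have h4 : Real.exp (4 * Real.log a) = (a : ℝ) ^ 4 := by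
      rw [show (4 : ℝ) * Real.log a = ((4 : ℕ) : ℝ) * Real.log a by norm_num,
        Real.exp_nat_mul, Real.exp_log hA0]
    rw [h4]
    have h5 : (((q : ℝ) + 1) * a) ^ 2 ≤ (1.01 * (a : ℝ) ^ 2) ^ 2 := by
      apply pow_le_pow_left₀ (by positivity)
      linarith
    have h6 : (1.01 * (a : ℝ) ^ 2) ^ 2 = 1.0201 * (a : ℝ) ^ 4 := by ring
    have h7 : (a : ℝ) ^ 2 * ((q : ℝ) + 1) ^ 2 = (((q : ℝ) + 1) * a) ^ 2 := by ring
    have h8 : 0 < (a : ℝ) ^ 4 := by positivity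
    rw [h7]
    linarith
  have hprod : (a : ℝ) ^ 2 * ((q : ℝ) + 1) ^ 2 * (2 ^ (5 * u / (P + 2) + 1) *
      (1 - 1 / (4 * ((q : ℝ) + 1) * (4 * P + 9))) ^ s) ≤
      2 * Real.exp (4 * Real.log a) *
        (Real.exp (0.7 * (0.000005 * X + 1)) * Real.exp (-(0.000029 * X))) := by
    have e0 : 0 ≤ 2 * Real.exp (4 * Real.log a) :=
      mul_nonneg (by norm_num) (Real.exp_pos _).le
    apply mul_le_mul ha4 _ (mul_nonneg (by positivity) (pow_nonneg hy0 s)) e0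
    exact mul_le_mul h2pow hpow (pow_nonneg hy0 s) (Real.exp_pos _).le
  refine lt_of_le_of_lt hprod ?_
  rw [mul_assoc, ← Real.exp_add, ← Real.exp_add]
  have h0 : Real.exp (4 * Real.log a + (0.7 * (0.000005 * X + 1) + -(0.000029 * X))) ≤
      Real.exp (-2) := by
    rw [Real.exp_le_exp]
    linarith
  have h1 : Real.exp (-2) < 1 / 4 := by
    have h2 : (4 : ℝ) < Real.exp 2 := by
      have h3 := Real.add_one_lt_exp (show (1 : ℝ) ≠ 0 by norm_num)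
      have h4 : Real.exp 2 = Real.exp 1 * Real.exp 1 := by rw [← Real.exp_add]; norm_num
      rw [h4]
      nlinarith
    rw [Real.exp_neg, inv_eq_one_div]
    exact one_div_lt_one_div_of_lt (by norm_num) h2
  linarith

/-- Second term of the numeric hypothesis of `Label2Stmt`. -/
theorem consts2_term2 (δ : ℝ) (hδ : 0 < δ) (a b u q : ℕ) (hA2 : (2 : ℝ) ≤ a)
    (hb : 10000 * (a : ℝ) ≤ b) (hb2 : (b : ℝ) ≤ (a : ℝ) ^ 2)
    (hu' : δ * a / 2000 ≤ (u : ℝ)) (h15 : 15 * u < a)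
    (hq1 : (q : ℝ) * a ≤ b)
    (hX : 4 * Real.log a + 4 ≤ 0.000025 * (δ ^ 2 * a)) :
    (a : ℝ) * ((q + 1 : ℕ) : ℝ) * ((1 + (10 * u / a : ℝ) / ((q + 1 : ℕ) : ℝ)) ^
      ((q + 1) * (a - 15 * u)) / (1 + (10 * u / a : ℝ)) ^ (a - 5 * u)) < 1 / 2 := by
  have hA0 : (0 : ℝ) < a := by linarith
  have hB0 : (0 : ℝ) < b := by linarith
  have hq0 : (0 : ℝ) ≤ q := Nat.cast_nonneg q
  have hu0 : (0 : ℝ) ≤ u := Nat.cast_nonneg u
  have hQcast : ((q + 1 : ℕ) : ℝ) = (q : ℝ) + 1 := by push_cast; ring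
  obtain ⟨X, hXdef⟩ : ∃ X : ℝ, X = δ ^ 2 * a := ⟨_, rfl⟩
  rw [← hXdef] at hX
  obtain ⟨y, hy⟩ : ∃ y : ℝ, y = 10 * u / a := ⟨_, rfl⟩
  rw [← hy]
  have hy0 : 0 ≤ y := by rw [hy]; positivity
  have hya : y * a = 10 * u := by rw [hy]; field_simp
  -- numerator
  have hnum : (1 + y / ((q + 1 : ℕ) : ℝ)) ^ ((q + 1) * (a - 15 * u)) ≤
      Real.exp (y * (a - 15 * u)) := by
    have h3 : 1 + y / ((q + 1 : ℕ) : ℝ) ≤ Real.exp (y / ((q + 1 : ℕ) : ℝ)) := by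
      have := Real.add_one_le_exp (y / ((q + 1 : ℕ) : ℝ))
      linarith
    refine le_trans (pow_le_pow_left₀ (by positivity) h3 _) ?_
    rw [← Real.exp_nat_mul, Real.exp_le_exp]
    have h4 : (((q + 1) * (a - 15 * u) : ℕ) : ℝ) = ((q : ℝ) + 1) * (a - 15 * u) := by
      rw [Nat.cast_mul, Nat.cast_sub (by omega)]
      push_cast
      ring
    rw [h4, hQcast]
    have h5 : ((q : ℝ) + 1) ≠ 0 := by positivity
    have h6 : ((q : ℝ) + 1) * ((a : ℝ) - 15 * u) * (y / ((q : ℝ) + 1)) = y * (a - 15 * u) := by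
      field_simp
    rw [h6]
  -- denominator
  have hden : Real.exp ((y - y ^ 2 / 2) * (a - 5 * u)) ≤ (1 + y) ^ (a - 5 * u) := by
    have h3 : Real.exp (y - y ^ 2 / 2) ≤ 1 + y := by
      have h31 : 0 < 1 + y := by linarith
      rw [← Real.le_log_iff_exp_le h31]
      -- log (1 + y) ≥ y - y^2/2
      have h32 : 2 * y / (y + 2) ≤ Real.log (1 + y) := Real.le_log_one_add_of_nonneg hy0
      refine le_trans ?_ h32
      rw [le_div_iff₀ (by linarith)]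
      nlinarith [mul_nonneg hy0 (mul_nonneg hy0 hy0)]
    have h4 : Real.exp ((y - y ^ 2 / 2) * (a - 5 * u)) = Real.exp (y - y ^ 2 / 2) ^ (a - 5 * u) := by
      rw [← Real.exp_nat_mul, Nat.cast_sub (by omega)]
      push_cast
      ring_nf
    rw [h4]
    exact pow_le_pow_left₀ (Real.exp_pos _).le h3 _
  have hratio : (1 + y / ((q + 1 : ℕ) : ℝ)) ^ ((q + 1) * (a - 15 * u)) / (1 + y) ^ (a - 5 * u) ≤
      Real.exp (-(0.0000125 * X)) := by
    have h3 : (1 + y / ((q + 1 : ℕ) : ℝ)) ^ ((q + 1) * (a - 15 * u)) / (1 + y) ^ (a - 5 * u) ≤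
        Real.exp (y * (a - 15 * u)) / Real.exp ((y - y ^ 2 / 2) * (a - 5 * u)) :=
      div_le_div₀ (Real.exp_pos _).le hnum (Real.exp_pos _) hden
    refine le_trans h3 ?_
    rw [← Real.exp_sub, Real.exp_le_exp]
    -- y (a - 15 u) - (y - y²/2)(a - 5u) = -10 u y + y² (a - 5u)/2 ≤ -10uy + y (y a)/2 = -5 u y
    have h4 : y * (a - 15 * u) - (y - y ^ 2 / 2) * (a - 5 * u) ≤ -(5 * (u * y)) := by
      have e1 : y * (a - 15 * u) - (y - y ^ 2 / 2) * (a - 5 * u) =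
        -(10 * (u * y)) + y * (y * a) / 2 - 5 * (u * y ^ 2) / 2 := by ring
      rw [e1, hya]
      have : 0 ≤ (u : ℝ) * y ^ 2 := by positivity
      linarith
    have h5 : 0.0000125 * X ≤ 5 * (u * y) := by
      have h6 : (u : ℝ) * u ≥ δ * a / 2000 * (δ * a / 2000) := mul_self_le_mul_self (by positivity) hu'
      have h7 : (0.0000125 * X) * a ≤ (5 * (u * y)) * a := by
        have e2 : 5 * ((u : ℝ) * y) * a = 5 * u * (y * a) := by ring
        have e3 : δ * a / 2000 * (δ * a / 2000) = 0.00000025 * (δ ^ 2 * a * a) := by ring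
        rw [e2, hya, hXdef]
        rw [e3] at h6
        linarith
      exact le_of_mul_le_mul_right h7 hA0
    linarith
  have hQa : (a : ℝ) * ((q + 1 : ℕ) : ℝ) ≤ 2 * Real.exp (2 * Real.log a) := by
    have h4 : Real.exp (2 * Real.log a) = (a : ℝ) ^ 2 := by
      rw [show (2 : ℝ) * Real.log a = ((2 : ℕ) : ℝ) * Real.log a by norm_num,
        Real.exp_nat_mul, Real.exp_log hA0]
    rw [h4, hQcast]
    have h8 : 0 < (a : ℝ) ^ 2 := by positivity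
    linarith
  have hprod : (a : ℝ) * ((q + 1 : ℕ) : ℝ) * ((1 + y / ((q + 1 : ℕ) : ℝ)) ^
      ((q + 1) * (a - 15 * u)) / (1 + y) ^ (a - 5 * u)) ≤
      2 * Real.exp (2 * Real.log a) * Real.exp (-(0.0000125 * X)) := by
    apply mul_le_mul hQa hratio (by positivity)
    exact mul_nonneg (by norm_num) (Real.exp_pos _).le
  refine lt_of_le_of_lt hprod ?_
  rw [mul_assoc, ← Real.exp_add]
  have h0 : Real.exp (2 * Real.log a + -(0.0000125 * X)) ≤ Real.exp (-2) := by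
    rw [Real.exp_le_exp]
    linarith
  have h1 : Real.exp (-2) < 1 / 4 := by
    have h2 : (4 : ℝ) < Real.exp 2 := by
      have h3 := Real.add_one_lt_exp (show (1 : ℝ) ≠ 0 by norm_num)
      have h4 : Real.exp 2 = Real.exp 1 * Real.exp 1 := by rw [← Real.exp_add]; norm_num
      rw [h4]
      nlinarith
    rw [Real.exp_neg, inv_eq_one_div]
    exact one_div_lt_one_div_of_lt (by norm_num) h2
  linarith

/-- The constants of Theorem Q2: `u = ⌊δ a / 1000⌋`, `P = a / u + 11`, `μ = 5 u / (P + 2) + 1`,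
`s = ⌊δ b / 2⌋`. -/
theorem consts2 (δ : ℝ) (hδ : 0 < δ) (hδ1 : δ ≤ 1) (a b : ℕ)
    (hCa : 1000000000000 / δ ^ 4 ≤ (a : ℝ)) (hab : 10000 / δ * (a : ℝ) ≤ b) (hb2 : b ≤ a ^ 2) :
      ∃ u P s μ : ℕ, 2 ≤ a ∧ 10 ≤ u ∧ 10 ≤ P ∧ a ≤ u * P ∧ a < u * u ∧ 15 * u < a ∧
        7 * P + 30 ≤ b / a ∧ 0 < μ ∧ 5 * u < (P + 2) * μ ∧
        (s : ℝ) + 30 * u * ((b / a : ℕ) + 1) ≤ δ * b ∧
        (a : ℝ) ^ 2 * ((b / a + 1 : ℕ) : ℝ) ^ 2 * (2 ^ μ *
            (1 - 1 / (4 * ((b / a + 1 : ℕ) : ℝ) * (4 * P + 9))) ^ s) +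
          (a : ℝ) * ((b / a + 1 : ℕ) : ℝ) * ((1 + (10 * u / a : ℝ) / ((b / a + 1 : ℕ) : ℝ)) ^
            ((b / a + 1) * (a - 15 * u)) / (1 + (10 * u / a : ℝ)) ^ (a - 5 * u)) < 1 := by
  have hδ4 : (0 : ℝ) < δ ^ 4 := by positivity
  have hδ41 : δ ^ 4 ≤ 1 := pow_le_one₀ hδ.le hδ1
  have hCaδ : 1000000000000 ≤ δ ^ 4 * a := by
    rw [div_le_iff₀ hδ4] at hCa
    linarith
  have ha12 : (1000000000000 : ℝ) ≤ a := by
    have h3 : δ ^ 4 * a ≤ 1 * a := mul_le_mul_of_nonneg_right hδ41 (Nat.cast_nonneg a)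
    linarith
  have hA2 : (2 : ℝ) ≤ a := by linarith
  have ha : 2 ≤ a := by exact_mod_cast hA2
  have hA0 : (0 : ℝ) < a := by linarith
  have hB2 : (b : ℝ) ≤ (a : ℝ) ^ 2 := by exact_mod_cast hb2
  have hδ2 : δ ^ 2 ≤ 1 := pow_le_one₀ hδ.le hδ1
  have hδ42 : δ ^ 4 ≤ δ ^ 2 := pow_le_pow_of_le_one hδ.le hδ1 (by norm_num)
  have hδ21 : δ ^ 2 ≤ δ := by
    have := pow_le_pow_of_le_one hδ.le hδ1 (show 1 ≤ 2 by norm_num)
    simpa using this
  have hδ2a : 1000000000000 ≤ δ ^ 2 * a :=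
    le_trans hCaδ (mul_le_mul_of_nonneg_right hδ42 hA0.le)
  have hδa : 1000000000000 ≤ δ * a :=
    le_trans hδ2a (mul_le_mul_of_nonneg_right hδ21 hA0.le)
  have hAB : 10000 * (a : ℝ) ≤ b := by
    have h3 : (10000 : ℝ) ≤ 10000 / δ := by rw [le_div_iff₀ hδ]; linarith
    exact le_trans (mul_le_mul_of_nonneg_right h3 hA0.le) hab
  have hB0 : (0 : ℝ) < b := by linarith
  -- the logarithm
  have hX : 4 * Real.log a + 4 ≤ 0.000025 * (δ ^ 2 * a) := by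
    obtain ⟨r, hr⟩ : ∃ r : ℝ, r = Real.sqrt a := ⟨_, rfl⟩
    have hr0 : 0 < r := by rw [hr]; exact Real.sqrt_pos.mpr hA0
    have hrr : r * r = a := by rw [hr]; exact Real.mul_self_sqrt hA0.le
    have h3 : Real.log a = 2 * Real.log r := by
      rw [← hrr, Real.log_mul hr0.ne' hr0.ne']; ring
    have h4 : Real.log r ≤ r - 1 := Real.log_le_sub_one_of_pos hr0
    have h5 : 1000000 ≤ δ ^ 2 * r := by
      by_contra hcon
      push Not at hcon
      have h6 : δ ^ 2 * r * (δ ^ 2 * r) < 1000000 * 1000000 :=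
        mul_self_lt_mul_self (by positivity) hcon
      have h7 : δ ^ 2 * r * (δ ^ 2 * r) = δ ^ 4 * a := by rw [← hrr]; ring
      rw [h7] at h6
      linarith
    have h6 : 1000000 * r ≤ δ ^ 2 * r * r := mul_le_mul_of_nonneg_right h5 hr0.le
    have h7 : δ ^ 2 * r * r = δ ^ 2 * a := by rw [mul_assoc, hrr]
    rw [h7] at h6
    rw [h3]
    linarith
  -- `u`
  obtain ⟨u, hu⟩ : ∃ u : ℕ, u = ⌊δ * a / 1000⌋₊ := ⟨_, rfl⟩
  have hu1 : (u : ℝ) ≤ δ * a / 1000 := by rw [hu]; exact Nat.floor_le (by positivity)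
  have hu2 : δ * a / 1000 < (u : ℝ) + 1 := by rw [hu]; exact Nat.lt_floor_add_one _
  have hu3 : δ * a / 1010 ≤ (u : ℝ) := by linarith
  have hu4 : δ * a / 2000 ≤ (u : ℝ) := by linarith
  have hu10 : 10 ≤ u := by
    have : (10 : ℝ) ≤ u := by linarith
    exact_mod_cast this
  have hu0 : (0 : ℝ) < u := by linarith
  -- `s`
  obtain ⟨s, hs⟩ : ∃ s : ℕ, s = ⌊δ * b / 2⌋₊ := ⟨_, rfl⟩
  have hs1 : (s : ℝ) ≤ δ * b / 2 := by rw [hs]; exact Nat.floor_le (by positivity)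
  have hs2 : δ * b / 2 < (s : ℝ) + 1 := by rw [hs]; exact Nat.lt_floor_add_one _
  have hδAB : δ * (10000 * a) ≤ δ * b := mul_le_mul_of_nonneg_left hAB hδ.le
  have hs3 : 0.49 * (δ * b) ≤ (s : ℝ) := by linarith
  -- `q`
  obtain ⟨q, hq⟩ : ∃ q : ℕ, q = b / a := ⟨_, rfl⟩
  have hq1' : q * a ≤ b := by rw [hq]; exact Nat.div_mul_le_self b a
  have hq1 : (q : ℝ) * a ≤ b := by exact_mod_cast hq1'
  have h15 : 15 * u < a := by
    have h3 : 15 * (u : ℝ) < a := by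
      have h4 : δ * a ≤ 1 * a := mul_le_mul_of_nonneg_right hδ1 hA0.le
      linarith
    exact_mod_cast h3
  -- `P`
  obtain ⟨P, hP⟩ : ∃ P : ℕ, P = a / u + 11 := ⟨_, rfl⟩
  have hPa : a ≤ u * P := by
    have h3 := Nat.div_add_mod a u
    have h4 := Nat.mod_lt a (by omega : 0 < u)
    rw [hP]
    calc a = u * (a / u) + a % u := h3.symm
      _ ≤ u * (a / u) + u * 11 := by omega
      _ = u * (a / u + 11) := by ring
  have hPR : (P : ℝ) ≤ 1010 / δ + 11 := by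
    have h4 : ((a / u : ℕ) : ℝ) ≤ (a : ℝ) / u := Nat.cast_div_le
    have h5 : (a : ℝ) / u ≤ 1010 / δ := by
      rw [div_le_div_iff₀ hu0 hδ]; linarith
    rw [hP]
    push_cast
    linarith
  have hPδ : (P : ℝ) * δ ≤ 1021 := by
    have h3 : (P : ℝ) * δ ≤ (1010 / δ + 11) * δ := mul_le_mul_of_nonneg_right hPR hδ.le
    have h4 : (1010 / δ + 11) * δ = 1010 + 11 * δ := by field_simp
    linarith
  rw [← hq]
  refine ⟨u, P, s, 5 * u / (P + 2) + 1, ha, hu10, ?_, hPa, ?_, h15, ?_, Nat.succ_pos _, ?_, ?_, ?_⟩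
  · rw [hP]; exact le_trans (by norm_num) (Nat.le_add_left 11 _)
  · have h3 : (a : ℝ) < (u : ℝ) * u := by
      have h4 : (δ * a / 2000) * (δ * a / 2000) ≤ (u : ℝ) * u :=
        mul_self_le_mul_self (by positivity) hu4
      have h5 : (δ * a / 2000) * (δ * a / 2000) = (δ ^ 2 * a) * (a / 4000000) := by ring
      have h6 : 1000000000000 * ((a : ℝ) / 4000000) ≤ (δ ^ 2 * a) * (a / 4000000) :=
        mul_le_mul_of_nonneg_right hδ2a (by positivity)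
      linarith
    exact_mod_cast h3
  · rw [hq, Nat.le_div_iff_mul_le (by omega : 0 < a)]
    have h4 : (7 * (P : ℝ) + 30) ≤ 10000 / δ := by
      rw [le_div_iff₀ hδ]
      have : (7 * (P : ℝ) + 30) * δ = 7 * (P * δ) + 30 * δ := by ring
      rw [this]
      linarith
    have h5 : (7 * (P : ℝ) + 30) * a ≤ b :=
      le_trans (mul_le_mul_of_nonneg_right h4 hA0.le) hab
    exact_mod_cast h5
  · have h3 := Nat.lt_mul_div_succ (5 * u) (show 0 < P + 2 by omega)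
    exact h3
  · have h3 : (u : ℝ) * ((q : ℝ) + 1) ≤ δ * a / 1000 * ((q : ℝ) + 1) :=
      mul_le_mul_of_nonneg_right hu1 (by positivity)
    have h4 : δ * ((q : ℝ) * a) ≤ δ * b := mul_le_mul_of_nonneg_left hq1 hδ.le
    have h5 : δ * a / 1000 * ((q : ℝ) + 1) = (δ * ((q : ℝ) * a) + δ * a) / 1000 := by ring
    have h6 : 30 * (u : ℝ) * ((q : ℝ) + 1) = 30 * ((u : ℝ) * ((q : ℝ) + 1)) := by ring
    rw [h6]
    linarith
  · have huP : (a : ℝ) ≤ u * ((P : ℝ) + 2) := by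
      have h3 : (a : ℝ) ≤ (u : ℝ) * P := by exact_mod_cast hPa
      linarith
    have hP4 : (4 * (P : ℝ) + 9) * δ ≤ 4093 := by
      have : (4 * (P : ℝ) + 9) * δ = 4 * (P * δ) + 9 * δ := by ring
      rw [this]
      linarith
    have t1 := consts2_term1 δ hδ a b u s q P hA2 hAB hB2 hu1 huP hP4 hs3 hq1 hX
    have t2 := consts2_term2 δ hδ a b u q hA2 hAB hB2 hu4 h15 hq1 hX
    linarith

end Vale.Agent.P181.Q
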