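import Vale.Agent.P181.Q.Spec
import Mathlib.Algebra.BigOperators.Fin
import Mathlib.Tactic

/-!
P181, Theorem Q, row R3: the design.
-/

set_option autoImplicit false

namespace Vale.Agent.P181.Q

open Finset

namespace Dsg

/-- `⌈h b / a⌉`. -/
def W (a b h : ℕ) : ℕ := (h * b + (a - 1)) / a

variable {a b : ℕ}

lemma W_ge (ha : 0 < a) (h : ℕ) : h * b ≤ a * W a b h := by
  have h1 := Nat.div_add_mod (h * b + (a - 1)) a
  have h2 := Nat.mod_lt (h * b + (a - 1)) ha
  rw [W]
  omega

lemma W_le (h : ℕ) : a * W a b h ≤ h * b + (a - 1) := by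
  rw [W]
  exact Nat.mul_div_le _ _

lemma W_mono : Monotone (W a b) := by
  intro g h hgh
  apply Nat.div_le_div_right
  have := Nat.mul_le_mul_right b hgh
  omega

lemma W_zero (ha : 0 < a) : W a b 0 = 0 := by
  rw [W, zero_mul, zero_add]
  exact Nat.div_eq_of_lt (by omega)

lemma W_self (ha : 0 < a) : W a b a = b := by
  rw [W]
  apply Nat.div_eq_of_lt_le
  · rw [mul_comm]
    omega
  · rw [Nat.succ_mul, mul_comm]
    omega

/-- The number of slots of row `h`. -/
def o (a b h : ℕ) : ℕ := W a b (h + 1) - W a b h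

lemma a_mul_o (h : ℕ) : a * o a b h + a * W a b h = a * W a b (h + 1) := by
  rw [o, ← mul_add, Nat.sub_add_cancel (W_mono (Nat.le_succ h))]

lemma o_ge (ha : 0 < a) (h : ℕ) : b / a ≤ o a b h := by
  by_contra hlt
  push Not at hlt
  have h1 := Nat.mul_le_mul_left a (Nat.succ_le_of_lt hlt)
  have h2 := Nat.mul_div_le b a
  have h3 := a_mul_o (a := a) (b := b) h
  have h4 := W_ge (b := b) ha (h + 1)
  have h5 := W_le (a := a) (b := b) h
  rw [Nat.succ_eq_add_one, mul_add, mul_one] at h1
  rw [add_mul, one_mul] at h4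
  omega

lemma o_le (ha : 0 < a) (h : ℕ) : o a b h ≤ b / a + 1 := by
  by_contra hlt
  push Not at hlt
  have h1 := Nat.mul_le_mul_left a (Nat.succ_le_of_lt hlt)
  have h2 := Nat.div_add_mod b a
  have h2' := Nat.mod_lt b ha
  have h3 := a_mul_o (a := a) (b := b) h
  have h4 := W_ge (b := b) ha h
  have h5 := W_le (a := a) (b := b) (h + 1)
  rw [Nat.succ_eq_add_one, mul_add, mul_add, mul_one] at h1
  rw [add_mul, one_mul] at h5
  omega

lemma sum_o (ha : 0 < a) : ∑ h : Fin a, o a b h = b := by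
  rw [Fin.sum_univ_eq_sum_range (fun h => o a b h) a]
  have h1 : ∀ m, ∑ h ∈ range m, o a b h = W a b m := by
    intro m
    induction m with
    | zero => rw [Finset.sum_range_zero, W_zero ha]
    | succ m ih =>
      rw [Finset.sum_range_succ, ih, o]
      exact Nat.add_sub_cancel' (W_mono (Nat.le_succ m))
  rw [h1, W_self ha]

/-- The total number of guests of row `h`. -/
def K (a b u P h : ℕ) : ℕ := 3 * u * P + 5 * u + (a * W a b (h + 1) - (h + 1) * b)

/-- The total number of guests in the `P` large slots. -/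
def rest (a b u P h : ℕ) : ℕ := K a b u P h - 3 * u - h % u - h / u

/-- The number of guests in the slot `k` of row `h`. -/
def kp (a b u P h k : ℕ) : ℕ :=
  if k = 0 then u + h % u else if k = 1 then 2 * u + h / u else
    if k < P + 2 then rest a b u P h / P + (if k - 2 < rest a b u P h % P then 1 else 0) else 0

variable {u P : ℕ}

lemma K_bound (ha : 0 < a) (h : ℕ) :
    3 * u * P + 5 * u ≤ K a b u P h ∧ K a b u P h ≤ 3 * u * P + 5 * u + (a - 1) := by
  have h1 := W_le (a := a) (b := b) (h + 1)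
  rw [K]
  omega

lemma div_lt (hu : 0 < u) (hauu : a < u * u) {h : ℕ} (hh : h < a) : h / u < u := by
  rw [Nat.div_lt_iff_lt_mul hu]
  omega

lemma rest_bound (ha : 0 < a) (hu : 10 ≤ u) (hauu : a < u * u) (hau : a ≤ u * P) {h : ℕ}
    (hh : h < a) : 3 * u * P ≤ rest a b u P h ∧ rest a b u P h ≤ 4 * u * P + 2 * u ∧
      rest a b u P h + 3 * u + h % u + h / u = K a b u P h := by
  obtain ⟨h1, h2⟩ := K_bound (b := b) (u := u) (P := P) ha h
  have h3 := div_lt (by omega) hauu hh
  have h4 := Nat.mod_lt h (show 0 < u by omega)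
  have h5 : 4 * u * P = 3 * u * P + u * P := by ring
  have z1 := Nat.zero_le (h / u)
  have z2 := Nat.zero_le (h % u)
  rw [rest]
  omega

lemma rest_div (ha : 0 < a) (hu : 10 ≤ u) (hP : 10 ≤ P) (hauu : a < u * u) (hau : a ≤ u * P)
    {h : ℕ} (hh : h < a) : 3 * u ≤ rest a b u P h / P ∧ rest a b u P h / P + 1 ≤ 5 * u := by
  obtain ⟨h1, h2, -⟩ := rest_bound (b := b) ha hu hauu hau hh
  constructor
  · rw [Nat.le_div_iff_mul_le (by omega)]
    exact h1
  · have h3 : rest a b u P h / P < 5 * u := by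
      rw [Nat.div_lt_iff_lt_mul (by omega)]
      have h4 : 5 * u * P = 4 * u * P + u * P := by ring
      have h5 : u * 10 ≤ u * P := Nat.mul_le_mul_left u hP
      omega
    omega

lemma kp_zero (h : ℕ) : kp a b u P h 0 = u + h % u := by
  simp [kp]

lemma kp_one (h : ℕ) : kp a b u P h 1 = 2 * u + h / u := by
  simp [kp]

lemma kp_mid (h j : ℕ) (hj : j < P) : kp a b u P h (j + 2) =
    rest a b u P h / P + (if j < rest a b u P h % P then 1 else 0) := by
  rw [kp, if_neg (by omega), if_neg (by omega), if_pos (by omega)]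
  rfl

lemma kp_big (h k : ℕ) (hk : P + 2 ≤ k) : kp a b u P h k = 0 := by
  rw [kp, if_neg (by omega), if_neg (by omega), if_neg (by omega)]

/-- The slots of row `h` by size. -/
lemma kp_cases (ha : 0 < a) (hu : 10 ≤ u) (hP : 10 ≤ P) (hauu : a < u * u) (hau : a ≤ u * P)
    {h : ℕ} (hh : h < a) (k : ℕ) :
    (k = 0 ∧ kp a b u P h k = u + h % u) ∨ (k = 1 ∧ kp a b u P h k = 2 * u + h / u) ∨
      (2 ≤ k ∧ k < P + 2 ∧ 3 * u ≤ kp a b u P h k ∧ kp a b u P h k ≤ 5 * u) ∨
      (P + 2 ≤ k ∧ kp a b u P h k = 0) := by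
  by_cases h0 : k = 0
  · subst h0
    exact Or.inl ⟨rfl, kp_zero h⟩
  · by_cases h1 : k = 1
    · subst h1
      exact Or.inr (Or.inl ⟨rfl, kp_one h⟩)
    · by_cases h2 : k < P + 2
      · obtain ⟨j, rfl⟩ : ∃ j, k = j + 2 := ⟨k - 2, by omega⟩
        refine Or.inr (Or.inr (Or.inl ⟨by omega, h2, ?_⟩))
        rw [kp_mid h j (by omega)]
        obtain ⟨h3, h4⟩ := rest_div (b := b) ha hu hP hauu hau hh
        split_ifs <;> omega
      · exact Or.inr (Or.inr (Or.inr ⟨by omega, kp_big h k (by omega)⟩))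

lemma sum_kp (ha : 0 < a) (hu : 10 ≤ u) (hP : 10 ≤ P) (hauu : a < u * u) (hau : a ≤ u * P)
    {h : ℕ} (hh : h < a) {m : ℕ} (hm : P + 2 ≤ m) :
    ∑ k ∈ range m, kp a b u P h k = K a b u P h := by
  obtain ⟨r, rfl⟩ : ∃ r, m = (P + 2) + r := ⟨m - (P + 2), by omega⟩
  rw [Finset.sum_range_add]
  have h1 : ∑ x ∈ range r, kp a b u P h (P + 2 + x) = 0 :=
    Finset.sum_eq_zero (fun x _ => kp_big h _ (by omega))
  rw [h1, add_zero, Finset.sum_range_succ', Finset.sum_range_succ']
  have h2 : ∑ k ∈ range P, kp a b u P h (k + 1 + 1) = rest a b u P h := by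
    rw [Finset.sum_congr rfl (fun k hk => kp_mid h k (Finset.mem_range.1 hk)),
      Finset.sum_add_distrib, Finset.sum_const, Finset.card_range, smul_eq_mul,
      ← Finset.card_filter]
    have h3 : (range P).filter (fun x => x < rest a b u P h % P) =
        range (rest a b u P h % P) := by
      ext x
      have := Nat.mod_lt (rest a b u P h) (show 0 < P by omega)
      simp only [Finset.mem_filter, Finset.mem_range]
      omega
    rw [h3, Finset.card_range]
    exact Nat.div_add_mod _ _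
  obtain ⟨-, -, h4⟩ := rest_bound (b := b) ha hu hauu hau hh
  rw [h2, kp_zero]
  have h5 : kp a b u P h (0 + 1) = 2 * u + h / u := kp_one h
  rw [h5]
  omega

lemma K_step (ha : 0 < a) (h : ℕ) : a * o a b (h + 1) + K a b u P h = b + K a b u P (h + 1) := by
  have h1 := a_mul_o (a := a) (b := b) (h + 1)
  have h2 := W_ge (b := b) ha (h + 1)
  have h3 := W_ge (b := b) ha (h + 1 + 1)
  have h4 : (h + 1 + 1) * b = (h + 1) * b + b := by ring
  rw [K, K]
  omega

lemma K_wrap (ha : 0 < a) : a * o a b 0 + K a b u P (a - 1) = b + K a b u P 0 := by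
  have h1 := a_mul_o (a := a) (b := b) 0
  have h2 := W_ge (b := b) ha (0 + 1)
  rw [W_zero ha, mul_zero, add_zero] at h1
  rw [K, K, Nat.sub_add_cancel ha, W_self ha, Nat.sub_self, h1]
  rw [zero_add, one_mul] at *
  omega

end Dsg

open Dsg

theorem design : DesignStmt := by
  intro a b u P ha hu hP hau hauu hPq
  classical
  have ha0 : 0 < a := by omega
  -- the slots
  let e0 : (Σ h : Fin a, Fin (o a b h)) ≃ Fin b :=
    finSigmaFinEquiv.trans (finCongr (sum_o ha0))
  let e : Fin b ≃ Σ h : Fin a, Fin (o a b h) := e0.symm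
  let own : Fin b → Fin a := fun φ => (e φ).1
  let kap : Fin b → ℕ := fun φ => kp a b u P (e φ).1 (e φ).2
  have hkap : ∀ (h : Fin a) (k : Fin (o a b h)), kap (e.symm ⟨h, k⟩) = kp a b u P h k := by
    intro h k
    have h1 : ∀ x : Σ h : Fin a, Fin (o a b h), kap (e.symm x) = kp a b u P x.1 x.2 := by
      intro x
      simp only [kap]
      rw [Equiv.apply_symm_apply]
    exact h1 ⟨h, k⟩
  -- counting
  have hcount : ∀ (h : Fin a) (p : ℕ → Prop) [DecidablePred p],
      (univ.filter (fun φ => own φ = h ∧ p (kap φ))).card =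
        (univ.filter (fun k : Fin (o a b h) => p (kp a b u P h k))).card := by
    intro h p _
    symm
    apply Finset.card_bij (fun k _ => e.symm ⟨h, k⟩)
    · intro k hk
      have h1 := (Finset.mem_filter.1 hk).2
      rw [Finset.mem_filter]
      refine ⟨Finset.mem_univ _, ?_, ?_⟩
      · simp only [own, Equiv.apply_symm_apply]
      · rw [hkap]
        exact h1
    · intro k _ k' _ hkk
      have h1 := e.symm.injective hkk
      simpa using h1
    · intro φ hφ
      rw [Finset.mem_filter] at hφ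
      obtain ⟨-, h1, h2⟩ := hφ
      obtain ⟨⟨h', k⟩, rfl⟩ := e.symm.surjective φ
      have h3 : h' = h := by
        simpa [own] using h1
      subst h3
      refine ⟨k, ?_, rfl⟩
      rw [Finset.mem_filter]
      refine ⟨Finset.mem_univ _, ?_⟩
      rw [hkap] at h2
      exact h2
  have hcard : ∀ h : Fin a, (univ.filter (fun φ => own φ = h)).card = o a b h := by
    intro h
    have h1 := hcount h (fun _ => True)
    simpa using h1
  have hsum : ∀ h : Fin a, ∑ φ ∈ univ.filter (fun φ => own φ = h), kap φ = K a b u P h := by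
    intro h
    have h1 : ∑ φ ∈ univ.filter (fun φ => own φ = h), kap φ =
        ∑ k : Fin (o a b h), kp a b u P h k := by
      symm
      apply Finset.sum_bij (fun k _ => e.symm ⟨h, k⟩)
      · intro k _
        rw [Finset.mem_filter]
        refine ⟨Finset.mem_univ _, ?_⟩
        simp only [own, Equiv.apply_symm_apply]
      · intro k _ k' _ hkk
        have h1 := e.symm.injective hkk
        simpa using h1
      · intro φ hφ
        rw [Finset.mem_filter] at hφ
        obtain ⟨-, h1⟩ := hφ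
        obtain ⟨⟨h', k⟩, rfl⟩ := e.symm.surjective φ
        have h3 : h' = h := by
          simpa [own] using h1
        subst h3
        exact ⟨k, Finset.mem_univ _, rfl⟩
      · intro k _
        exact (hkap h k).symm
    rw [h1, Fin.sum_univ_eq_sum_range (fun k => kp a b u P h k) (o a b h)]
    exact sum_kp ha0 hu hP hauu hau h.2 (hPq.trans (o_ge ha0 _))
  refine ⟨own, kap, ?_, ?_, ?_, ?_, ?_, ?_⟩
  · intro h
    rw [hcard]
    exact ⟨o_ge ha0 _, o_le ha0 _⟩
  · intro h
    rw [hcount h (fun k => k ≠ 0)]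
    have hle : P + 2 ≤ o a b h := hPq.trans (o_ge ha0 _)
    have h1 : (univ.filter (fun k : Fin (o a b h) => kp a b u P h k ≠ 0)) =
        univ.filter (fun k : Fin (o a b h) => (k : ℕ) < P + 2) := by
      ext k
      simp only [Finset.mem_filter, Finset.mem_univ, true_and]
      have z1 := Nat.zero_le ((h : ℕ) / u)
      have z2 := Nat.zero_le ((h : ℕ) % u)
      rcases kp_cases (b := b) ha0 hu hP hauu hau h.2 (k : ℕ) with h1 | h1 | h1 | h1 <;> omega
    rw [h1]
    rw [Fin.card_filter_val_lt]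
    omega
  · intro φ
    rcases kp_cases (b := b) ha0 hu hP hauu hau (e φ).1.2 ((e φ).2 : ℕ) with h1 | h1 | h1 | h1
    · right
      simp only [kap]
      have := Nat.mod_lt ((e φ).1 : ℕ) (show 0 < u by omega)
      have z2 := Nat.zero_le (((e φ).1 : ℕ) % u)
      omega
    · right
      simp only [kap]
      have := Dsg.div_lt (show 0 < u by omega) hauu (e φ).1.2
      have z1 := Nat.zero_le (((e φ).1 : ℕ) / u)
      omega
    · right
      simp only [kap]
      omega
    · left
      exact h1.2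
  · intro h
    rw [hcard, hsum, hsum]
    obtain ⟨m, rfl⟩ : ∃ m, a = m + 1 := ⟨a - 1, by omega⟩
    rw [coe_finRotate]
    by_cases hl : h = Fin.last m
    · rw [if_pos hl, hl]
      have h1 := K_wrap (a := m + 1) (b := b) (u := u) (P := P) ha0
      simpa using h1
    · rw [if_neg hl]
      exact K_step ha0 _
  · intro h
    rw [hsum]
    obtain ⟨-, h2⟩ := K_bound (b := b) (u := u) (P := P) ha0 h
    have h3 : 5 * u * (P + 1) = 3 * u * P + 5 * u + u * P + u * P := by ring
    omega
  · intro g h hgh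
    have z1 := Nat.zero_le ((h : ℕ) / u)
    have z2 := Nat.zero_le ((h : ℕ) % u)
    have z3 := Nat.zero_le ((g : ℕ) / u)
    have z4 := Nat.zero_le ((g : ℕ) % u)
    have hug := Nat.mod_lt (g : ℕ) (show 0 < u by omega)
    have huh := Nat.mod_lt (h : ℕ) (show 0 < u by omega)
    have hdg := Dsg.div_lt (show 0 < u by omega) hauu g.2
    have hdh := Dsg.div_lt (show 0 < u by omega) hauu h.2
    have hog : P + 2 ≤ o a b g := hPq.trans (o_ge ha0 _)
    have key : ∀ k0 : ℕ, (∃ k : Fin (o a b g), kp a b u P g k = k0) →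
        ∃ k : Fin (o a b h), kp a b u P h k = k0 := by
      intro k0 ⟨k, hk⟩
      have h1 := hgh k0
      rw [hcount g (fun x => x = k0), hcount h (fun x => x = k0)] at h1
      have h2 : 0 < (univ.filter (fun k : Fin (o a b g) => kp a b u P g k = k0)).card :=
        Finset.card_pos.2 ⟨k, Finset.mem_filter.2 ⟨Finset.mem_univ _, hk⟩⟩
      rw [h1] at h2
      obtain ⟨k', hk'⟩ := Finset.card_pos.1 h2
      exact ⟨k', (Finset.mem_filter.1 hk').2⟩
    have hmod : (g : ℕ) % u = (h : ℕ) % u := by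
      obtain ⟨k, hk⟩ := key (u + g % u) ⟨⟨0, by omega⟩, kp_zero _⟩
      rcases kp_cases (b := b) ha0 hu hP hauu hau h.2 (k : ℕ) with h1 | h1 | h1 | h1 <;> omega
    have hdiv : (g : ℕ) / u = (h : ℕ) / u := by
      obtain ⟨k, hk⟩ := key (2 * u + g / u) ⟨⟨1, by omega⟩, kp_one _⟩
      rcases kp_cases (b := b) ha0 hu hP hauu hau h.2 (k : ℕ) with h1 | h1 | h1 | h1 <;> omega
    apply Fin.ext
    rw [← Nat.div_add_mod (g : ℕ) u, ← Nat.div_add_mod (h : ℕ) u, hmod, hdiv]

end Vale.Agent.P181.Q
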