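import Vale.Agent.P181.Q.Spec
import Vale.Agent.P181.H179.P6

/-!
P181, Theorem Q, row R4: kernels (random block shifts, exponential moment and union bound).
-/

set_option autoImplicit false

namespace Vale.Agent.P181.Q

open Finset Vale.Agent.P181.H179

/-- `(1/2)^(number of occurrences of the pattern (k, k') on S)`. -/
noncomputable def hbad {w Q N : ℕ} [NeZero Q] (φ ψ : Fin N → Fin w × Fin Q) (S : Finset (Fin N))
    (k k' : Fin Q) (γ γ' : Fin w → Fin Q) : ℝ :=
  ∏ t ∈ S, (if lb φ γ t = k ∧ lb ψ γ' t = k' then 1 / 2 else 1)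

lemma hbad_sum {a w Q N : ℕ} [NeZero Q] (φ : Fin a → Fin N → Fin w × Fin Q)
    (S : Finset (Fin N)) {i j : Fin a} (hij : i ≠ j) (hi : Set.InjOn (φ i) S)
    (hj : Set.InjOn (φ j) S) (k k' : Fin Q) :
    ∑ ω : Fin a → (Fin w → Fin Q), hbad (φ i) (φ j) S k k' (ω i) (ω j) ≤
      Fintype.card (Fin a → (Fin w → Fin Q)) * (1 - 1 / (2 * (Q : ℝ) ^ 2)) ^ S.card := by
  classical
  have hq : (1 : ℝ) ≤ Q := by
    exact_mod_cast Nat.one_le_iff_ne_zero.2 (NeZero.ne Q)
  have hq0 : (0 : ℝ) < Q := by linarith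
  have hqi : 1 / (Q : ℝ) ≤ 1 := by
    rw [div_le_one hq0]
    exact hq
  have hqi0 : 0 ≤ 1 / (Q : ℝ) := by positivity
  have hcardΓ : (Fintype.card (Fin w → Fin Q) : ℝ) = (Q : ℝ) ^ w := by
    simp
  have hpos : (0 : ℝ) < (Q : ℝ) ^ w := by positivity
  set x : ℝ := 1 - (1 / Q) / 2 with hx
  let h : (Fin w → Fin Q) → ℝ := fun γ' =>
    ∏ t ∈ S, (if lb (φ j) γ' t = k' then x else 1)
  -- the inner sum
  have h1 : ∀ γ', ∑ γ, hbad (φ i) (φ j) S k k' γ γ' ≤ (Q : ℝ) ^ w * h γ' := by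
    intro γ'
    have h2 := row_sum' (x := 1 / 2) (by norm_num) (by norm_num) k (φ i)
      (S.filter (fun t => lb (φ j) γ' t = k')) (hi.mono (by
        intro t ht
        exact (Finset.mem_filter.1 ht).1))
    have h3 : h γ' = (1 - (1 - 1 / 2) / (Q : ℝ)) ^
        (S.filter (fun t => lb (φ j) γ' t = k')).card := by
      simp only [h]
      rw [← Finset.prod_filter, Finset.prod_const, hx]
      congr 1
      ring
    rw [h3]
    refine le_trans (le_of_eq ?_) h2
    apply Finset.sum_congr rfl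
    intro γ _
    rw [hbad, Finset.prod_filter]
    apply Finset.prod_congr rfl
    intro t _
    by_cases h4 : lb (φ j) γ' t = k'
    · simp [h4]
    · simp [h4]
  have h2 : ∑ γ', h γ' ≤ (Q : ℝ) ^ w * (1 - 1 / (2 * (Q : ℝ) ^ 2)) ^ S.card := by
    have h3 := row_sum' (x := x) (by rw [hx]; linarith) (by rw [hx]; linarith) k' (φ j) S hj
    have h4 : 1 - (1 - x) / Q = 1 - 1 / (2 * (Q : ℝ) ^ 2) := by
      rw [hx]
      field_simp
      ring
    rw [h4] at h3
    exact h3
  have h3 := sum_update i (fun ω : Fin a → (Fin w → Fin Q) =>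
    hbad (φ i) (φ j) S k k' (ω i) (ω j))
  have h4 := sum_update j (fun ω : Fin a → (Fin w → Fin Q) => h (ω j))
  simp only [Function.update_self, Function.update_of_ne hij.symm] at h3 h4
  rw [hcardΓ] at h3 h4
  have h5 : (Q : ℝ) ^ w * ∑ ω : Fin a → (Fin w → Fin Q),
      hbad (φ i) (φ j) S k k' (ω i) (ω j) ≤
        (Q : ℝ) ^ w * ∑ ω : Fin a → (Fin w → Fin Q), h (ω j) := by
    rw [← h3, Finset.mul_sum]
    exact Finset.sum_le_sum (fun ω _ => h1 (ω j))
  have h6 : (Q : ℝ) ^ w * ∑ ω : Fin a → (Fin w → Fin Q), h (ω j) ≤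
      (Q : ℝ) ^ w * (Fintype.card (Fin a → (Fin w → Fin Q)) *
        (1 - 1 / (2 * (Q : ℝ) ^ 2)) ^ S.card) := by
    rw [← h4]
    refine (Finset.sum_le_sum (fun ω _ => h2)).trans (le_of_eq ?_)
    rw [Finset.sum_const, Finset.card_univ, nsmul_eq_mul]
    ring
  exact le_of_mul_le_mul_left (h5.trans h6) hpos

lemma hbad_eq {w Q N : ℕ} [NeZero Q] (φ ψ : Fin N → Fin w × Fin Q) (S : Finset (Fin N))
    (k k' : Fin Q) (γ γ' : Fin w → Fin Q) : hbad φ ψ S k k' γ γ' =
      (1 / 2) ^ (S.filter (fun t => lb φ γ t = k ∧ lb ψ γ' t = k')).card := by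
  rw [hbad, ← Finset.prod_filter, Finset.prod_const]

/-- Row R4. -/
theorem kernel : KernelStmt := by
  classical
  intro a N Q s w μ C hQ hC hs hb
  haveI : NeZero Q := ⟨by omega⟩
  by_cases ha : a = 0
  · subst ha
    exact ⟨fun i => i.elim0, fun i => i.elim0, fun i => i.elim0⟩
  have hQR : (1 : ℝ) ≤ Q := by exact_mod_cast hQ
  have hQ0 : (0 : ℝ) < Q := by linarith
  have haR : (1 : ℝ) ≤ a := by exact_mod_cast Nat.one_le_iff_ne_zero.2 ha
  by_cases hw : w = 0
  · subst hw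
    have hempty : ∀ i, C i = ∅ := fun i => Finset.card_eq_zero.1 (by rw [hC]; ring)
    refine ⟨fun _ _ => ⟨0, by omega⟩, ?_, ?_⟩
    · intro i k
      rw [hempty]
      rfl
    · intro i j hij k k'
      exfalso
      have h1 := hs i j hij
      rw [hempty, Finset.empty_inter, Finset.card_empty, Nat.le_zero] at h1
      rw [h1, pow_zero, mul_one] at hb
      have h2 : (1 : ℝ) ≤ (a : ℝ) ^ 2 := one_le_pow₀ haR
      have h3 : (1 : ℝ) ≤ (Q : ℝ) ^ 2 := one_le_pow₀ hQR
      have h4 : (1 : ℝ) ≤ (2 : ℝ) ^ μ := one_le_pow₀ (by norm_num)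
      have h5 : (1 : ℝ) ≤ (a : ℝ) ^ 2 * (Q : ℝ) ^ 2 * 2 ^ μ := by
        have h6 : (1 : ℝ) ≤ (a : ℝ) ^ 2 * (Q : ℝ) ^ 2 := one_le_mul_of_one_le_of_one_le h2 h3
        exact one_le_mul_of_one_le_of_one_le h6 h4
      linarith
  let z : Fin w × Fin Q := (⟨0, by omega⟩, ⟨0, by omega⟩)
  have hE : ∀ i, Nonempty ({t // t ∈ C i} ≃ Fin w × Fin Q) := by
    intro i
    refine ⟨Fintype.equivOfCardEq ?_⟩
    rw [Fintype.card_coe, hC, Fintype.card_prod, Fintype.card_fin, Fintype.card_fin, mul_comm]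
  let E : ∀ i, {t // t ∈ C i} ≃ Fin w × Fin Q := fun i => (hE i).some
  let φ : Fin a → Fin N → Fin w × Fin Q := fun i t => if h : t ∈ C i then E i ⟨t, h⟩ else z
  have hφ : ∀ i t (h : t ∈ C i), φ i t = E i ⟨t, h⟩ := fun i t h => dif_pos h
  have hinj : ∀ i, Set.InjOn (φ i) (C i) := by
    intro i s hs t ht hst
    have hs' : s ∈ C i := hs
    have ht' : t ∈ C i := ht
    rw [hφ i s hs', hφ i t ht'] at hst
    exact congrArg Subtype.val ((E i).injective hst)
  -- sizes
  have hsize : ∀ (γ : Fin w → Fin Q) i k,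
      ((C i).filter (fun t => lb (φ i) γ t = k)).card = w := by
    intro γ i k
    have h1 : ((C i).filter (fun t => lb (φ i) γ t = k)).card =
        (univ.filter (fun r : Fin w × Fin Q => r.2 + γ r.1 = k)).card := by
      apply Finset.card_bij (fun t _ => φ i t)
      · intro t ht
        rw [Finset.mem_filter] at ht ⊢
        exact ⟨Finset.mem_univ _, ht.2⟩
      · intro s hs t ht hst
        rw [Finset.mem_filter] at hs ht
        exact hinj i hs.1 ht.1 hst
      · intro r hr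
        rw [Finset.mem_filter] at hr
        refine ⟨((E i).symm r : Fin N), ?_, ?_⟩
        · rw [Finset.mem_filter]
          refine ⟨((E i).symm r).2, ?_⟩
          rw [lb, hφ i _ ((E i).symm r).2]
          simp only [Subtype.coe_eta, Equiv.apply_symm_apply]
          exact hr.2
        · rw [hφ i _ ((E i).symm r).2]
          simp only [Subtype.coe_eta, Equiv.apply_symm_apply]
    rw [h1, Finset.card_filter, Fintype.sum_prod_type]
    have h2 : ∀ β : Fin w, ∑ p : Fin Q, (if p + γ β = k then 1 else 0) = 1 := by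
      intro β
      rw [Finset.sum_eq_single (k - γ β)]
      · rw [sub_add_cancel, if_pos rfl]
      · intro p _ hp
        rw [if_neg]
        intro h'
        exact hp (by rw [← h', add_sub_cancel_right])
      · intro h
        exact absurd (Finset.mem_univ _) h
    simp only [h2, Finset.sum_const, Finset.card_univ, Fintype.card_fin, smul_eq_mul, mul_one]
  -- patterns
  set Pr : Finset (Fin a × Fin a) := univ.filter (fun p => p.1 ≠ p.2) with hPrdef
  let f : (Fin a × Fin a) × (Fin Q × Fin Q) → (Fin a → (Fin w → Fin Q)) → ℝ :=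
    fun p ω => 2 ^ μ * hbad (φ p.1.1) (φ p.1.2) (C p.1.1 ∩ C p.1.2) p.2.1 p.2.2
      (ω p.1.1) (ω p.1.2)
  set x : ℝ := 1 - 1 / (2 * (Q : ℝ) ^ 2) with hx
  have hQ2 : 1 / (2 * (Q : ℝ) ^ 2) ≤ 1 := by
    rw [div_le_one (by positivity)]
    have : (1 : ℝ) ≤ (Q : ℝ) ^ 2 := one_le_pow₀ hQR
    linarith
  have hx0 : 0 ≤ x := by
    rw [hx]
    linarith
  have hx1 : x ≤ 1 := by
    rw [hx]
    have : 0 ≤ 1 / (2 * (Q : ℝ) ^ 2) := by positivity
    linarith
  obtain ⟨ω, hω⟩ := union_bound (Pr ×ˢ (univ : Finset (Fin Q × Fin Q))) f (2 ^ μ * x ^ s) (by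
      intro p _ ω
      apply mul_nonneg (by positivity)
      apply Finset.prod_nonneg
      intro t _
      split_ifs
      · norm_num
      · exact zero_le_one) (by
      intro p hp
      have hne : p.1.1 ≠ p.1.2 := (Finset.mem_filter.1 (Finset.mem_product.1 hp).1).2
      have h1 := hbad_sum φ (C p.1.1 ∩ C p.1.2) hne ((hinj p.1.1).mono (by
        intro t ht
        exact (Finset.mem_inter.1 ht).1)) ((hinj p.1.2).mono (by
        intro t ht
        exact (Finset.mem_inter.1 ht).2)) p.2.1 p.2.2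
      have h2 : x ^ (C p.1.1 ∩ C p.1.2).card ≤ x ^ s :=
        pow_le_pow_of_le_one hx0 hx1 (hs _ _ hne)
      have h3 : (0 : ℝ) ≤ Fintype.card (Fin a → (Fin w → Fin Q)) := Nat.cast_nonneg _
      calc ∑ ω, f p ω = 2 ^ μ * ∑ ω : Fin a → (Fin w → Fin Q),
            hbad (φ p.1.1) (φ p.1.2) (C p.1.1 ∩ C p.1.2) p.2.1 p.2.2 (ω p.1.1) (ω p.1.2) := by
            rw [Finset.mul_sum]
        _ ≤ 2 ^ μ * (Fintype.card (Fin a → (Fin w → Fin Q)) *
            x ^ (C p.1.1 ∩ C p.1.2).card) := mul_le_mul_of_nonneg_left h1 (by positivity)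
        _ ≤ 2 ^ μ * (Fintype.card (Fin a → (Fin w → Fin Q)) * x ^ s) :=
            mul_le_mul_of_nonneg_left (mul_le_mul_of_nonneg_left h2 h3) (by positivity)
        _ = _ := by ring) (by
      refine lt_of_le_of_lt ?_ hb
      apply mul_le_mul_of_nonneg_right _ (by positivity)
      have h1 : (Pr ×ˢ (univ : Finset (Fin Q × Fin Q))).card ≤ a ^ 2 * Q ^ 2 := by
        rw [Finset.card_product, Finset.card_univ, Fintype.card_prod, Fintype.card_fin]
        have h2 : Pr.card ≤ a * a := by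
          refine (Finset.card_le_univ _).trans ?_
          rw [Fintype.card_prod, Fintype.card_fin]
        calc Pr.card * (Q * Q) ≤ (a * a) * (Q * Q) := Nat.mul_le_mul_right _ h2
          _ = _ := by ring
      exact_mod_cast h1)
  refine ⟨fun i t => lb (φ i) (ω i) t, fun i k => hsize (ω i) i k, ?_⟩
  intro i j hij k k'
  by_contra hno
  have h2 := hω ((i, j), (k, k')) (Finset.mem_product.2
    ⟨Finset.mem_filter.2 ⟨Finset.mem_univ _, hij⟩, Finset.mem_univ _⟩)
  have h3 : (1 : ℝ) ≤ f ((i, j), (k, k')) ω := by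
    simp only [f]
    rw [hbad_eq]
    have h4 : ((C i ∩ C j).filter (fun t => lb (φ i) (ω i) t = k ∧
      lb (φ j) (ω j) t = k')).card ≤ μ := by
      push Not at hno
      exact hno.le
    have h5 : ((1 : ℝ) / 2) ^ μ ≤ (1 / 2) ^ ((C i ∩ C j).filter (fun t =>
        lb (φ i) (ω i) t = k ∧ lb (φ j) (ω j) t = k')).card :=
      pow_le_pow_of_le_one (by norm_num) (by norm_num) h4
    have h6 : (2 : ℝ) ^ μ * (1 / 2) ^ μ = 1 := by
      rw [← mul_pow]
      norm_num
    exact h6.symm.le.trans (mul_le_mul_of_nonneg_left h5 (by positivity))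
  linarith

end Vale.Agent.P181.Q
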