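import Vale.Agent.P181.Q.Spec2
import Vale.Agent.P181.H179.P6

/-!
P181, Theorem Q2, kernels: independent columns, `lab i t = L t + o i t mod Q`.
-/

set_option autoImplicit false

namespace Vale.Agent.P181.Q

open Finset Vale.Agent.P181.H179

/-- Sum of a product over independent columns. -/
lemma prod_meas {N : ℕ} {X : Type*} [Fintype X] (g : X → ℝ) (hg : ∀ x, 0 ≤ g x) {m : ℝ}
    (hm : ∑ x, g x ≤ Fintype.card X * m) (S : Finset (Fin N)) :
    ∑ ω : Fin N → X, ∏ t ∈ S, g (ω t) ≤ Fintype.card (Fin N → X) * m ^ S.card := by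
  classical
  have h1 : ∀ ω : Fin N → X, ∏ t ∈ S, g (ω t) = ∏ t, (if t ∈ S then g (ω t) else 1) := by
    intro ω
    rw [Finset.prod_ite_mem, Finset.univ_inter]
  rw [Finset.sum_congr rfl (fun ω _ => h1 ω)]
  have h2 := Finset.prod_univ_sum (fun _ : Fin N => (univ : Finset X))
    (fun t x => if t ∈ S then g x else (1 : ℝ))
  rw [Fintype.piFinset_univ] at h2
  rw [← h2]
  have h3 : (Fintype.card (Fin N → X) : ℝ) * m ^ S.card =
      ∏ t : Fin N, ((Fintype.card X : ℝ) * (if t ∈ S then m else 1)) := by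
    rw [Finset.prod_mul_distrib, Finset.prod_const, Finset.prod_ite_mem, Finset.univ_inter,
      Finset.prod_const]
    simp
  rw [h3]
  apply Finset.prod_le_prod
  · intro t _
    apply Finset.sum_nonneg
    intro x _
    split_ifs
    · exact hg x
    · exact zero_le_one
  · intro t _
    split_ifs
    · exact hm
    · simp

/-- The union bound with individual bounds. -/
lemma union_var {Ω P : Type*} [Fintype Ω] [Nonempty Ω] (T : Finset P) (f : P → Ω → ℝ) (c : P → ℝ)
    (hf : ∀ p ∈ T, ∀ ω, 0 ≤ f p ω) (hs : ∀ p ∈ T, ∑ ω, f p ω ≤ Fintype.card Ω * c p)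
    (hc : ∑ p ∈ T, c p < 1) : ∃ ω, ∀ p ∈ T, f p ω < 1 := by
  by_contra hno
  push Not at hno
  have hpos : (0 : ℝ) < Fintype.card Ω := by
    exact_mod_cast Fintype.card_pos
  have h1 : (Fintype.card Ω : ℝ) ≤ ∑ ω, ∑ p ∈ T, f p ω := by
    have h2 : ∀ ω ∈ (univ : Finset Ω), (1 : ℝ) ≤ ∑ p ∈ T, f p ω := by
      intro ω _
      obtain ⟨p, hp, h3⟩ := hno ω
      exact h3.trans (Finset.single_le_sum (f := fun p => f p ω) (fun p hp => hf p hp ω) hp)
    have h3 := Finset.sum_le_sum h2
    simp only [Finset.sum_const, Finset.card_univ, nsmul_eq_mul, mul_one] at h3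
    exact h3
  rw [Finset.sum_comm] at h1
  have h2 := Finset.sum_le_sum hs
  rw [← Finset.mul_sum] at h2
  have h3 : (Fintype.card Ω : ℝ) * ∑ p ∈ T, c p < Fintype.card Ω := by
    calc _ < (Fintype.card Ω : ℝ) * 1 := mul_lt_mul_of_pos_left hc hpos
      _ = _ := mul_one _
  linarith

section

variable {a Q D : ℕ} [NeZero Q]

/-- The label of row `i` in a column. -/
def lbl (hD : 2 * D + 1 ≤ Q) (x : Fin Q × (Fin a → Fin (2 * D + 1))) (i : Fin a) : Fin Q :=
  x.1 + Fin.castLE hD (x.2 i)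

lemma lbl_one (hD : 2 * D + 1 ≤ Q) (i : Fin a) (k : Fin Q) (y : ℝ) :
    ∑ x : Fin Q × (Fin a → Fin (2 * D + 1)), (if lbl hD x i = k then 1 + y else 1) =
      Fintype.card (Fin Q × (Fin a → Fin (2 * D + 1))) * (1 + y / Q) := by
  have hQ0 : (Q : ℝ) ≠ 0 := by
    exact_mod_cast NeZero.ne Q
  rw [Fintype.sum_prod_type_right]
  have h1 : ∀ o : Fin a → Fin (2 * D + 1),
      ∑ L : Fin Q, (if lbl hD (L, o) i = k then 1 + y else 1) = Q + y := by
    intro o
    have h2 : ∀ L : Fin Q, (if lbl hD (L, o) i = k then 1 + y else 1) =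
        1 + if L = k - Fin.castLE hD (o i) then y else 0 := by
      intro L
      have h3 : lbl hD (L, o) i = k ↔ L = k - Fin.castLE hD (o i) := by
        rw [lbl]
        exact eq_sub_iff_add_eq.symm
      by_cases h4 : L = k - Fin.castLE hD (o i)
      · rw [if_pos (h3.2 h4), if_pos h4]
      · rw [if_neg (fun h5 => h4 (h3.1 h5)), if_neg h4, add_zero]
    rw [Finset.sum_congr rfl (fun L _ => h2 L), Finset.sum_add_distrib, Finset.sum_const,
      Finset.card_univ, Fintype.card_fin, nsmul_eq_mul, mul_one, Finset.sum_ite_eq',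
      if_pos (Finset.mem_univ _)]
  rw [Finset.sum_congr rfl (fun o _ => h1 o), Finset.sum_const, Finset.card_univ, nsmul_eq_mul,
    Fintype.card_prod, Fintype.card_fin]
  push_cast
  field_simp

omit [NeZero Q] in
lemma pairs_ge (hD : 2 * D + 1 ≤ Q) {k k' : Fin Q} (h1 : (k : ℕ) ≤ k' + D)
    (h2 : (k' : ℕ) ≤ k + D) : ((D : ℝ) + 1) ≤
      ∑ u : Fin (2 * D + 1), ∑ v : Fin (2 * D + 1),
        (if k + Fin.castLE hD v = k' + Fin.castLE hD u then (1 : ℝ) else 0) := by
  classical
  rw [← Fintype.sum_prod_type' (fun (u v : Fin (2 * D + 1)) =>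
    (if k + Fin.castLE hD v = k' + Fin.castLE hD u then (1 : ℝ) else 0)), ← Finset.sum_filter,
    Finset.sum_const, nsmul_eq_mul, mul_one]
  have h3 : D + 1 ≤ (univ.filter (fun p : Fin (2 * D + 1) × Fin (2 * D + 1) =>
      k + Fin.castLE hD p.2 = k' + Fin.castLE hD p.1)).card := by
    have h4 : (univ : Finset (Fin (D + 1))).card ≤
        (univ.filter (fun p : Fin (2 * D + 1) × Fin (2 * D + 1) =>
          k + Fin.castLE hD p.2 = k' + Fin.castLE hD p.1)).card := by
      apply Finset.card_le_card_of_injOn (fun x : Fin (D + 1) =>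
        ((⟨x + (k - k'), by have := x.2; omega⟩ : Fin (2 * D + 1)),
          (⟨x + (k' - k), by have := x.2; omega⟩ : Fin (2 * D + 1))))
      · intro x _
        rw [Finset.mem_coe, Finset.mem_filter]
        refine ⟨Finset.mem_univ _, ?_⟩
        apply Fin.ext
        rw [Fin.val_add, Fin.val_add]
        simp only [Fin.val_castLE]
        congr 1
        omega
      · intro x _ x' _ h
        simp only [Prod.mk.injEq, Fin.mk.injEq] at h
        apply Fin.ext
        omega
    rw [Finset.card_univ, Fintype.card_fin] at h4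
    exact h4
  exact_mod_cast h3

lemma lbl_two (hD : 2 * D + 1 ≤ Q) {i j : Fin a} (hij : i ≠ j) {k k' : Fin Q}
    (h1 : (k : ℕ) ≤ k' + D) (h2 : (k' : ℕ) ≤ k + D) :
    ∑ x : Fin Q × (Fin a → Fin (2 * D + 1)),
      (if lbl hD x i = k ∧ lbl hD x j = k' then (1 / 2 : ℝ) else 1) ≤
      Fintype.card (Fin Q × (Fin a → Fin (2 * D + 1))) * (1 - 1 / (4 * (Q : ℝ) * (2 * D + 1))) := by
  classical
  have hQ : (0 : ℝ) < Q := by
    exact_mod_cast Nat.pos_of_ne_zero (NeZero.ne Q)
  have hD0 : (0 : ℝ) < 2 * (D : ℝ) + 1 := by positivity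
  let G : Fin (2 * D + 1) → Fin (2 * D + 1) → ℝ := fun u v =>
    if k + Fin.castLE hD v = k' + Fin.castLE hD u then (1 : ℝ) else 0
  set cO : ℝ := (Fintype.card (Fin a → Fin (2 * D + 1)) : ℝ) with hcO
  have hcO0 : 0 ≤ cO := Nat.cast_nonneg _
  -- averaging over the offsets
  have h3 := sum_update i (fun o : Fin a → Fin (2 * D + 1) => G (o i) (o j))
  have h4 := sum_update j (fun o : Fin a → Fin (2 * D + 1) => ∑ u, G u (o j))
  simp only [Function.update_self, Function.update_of_ne hij.symm] at h3 h4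
  rw [Fintype.card_fin] at h3 h4
  have h5 : ((D : ℝ) + 1) * cO ≤ (2 * D + 1) ^ 2 *
      ∑ o : Fin a → Fin (2 * D + 1), G (o i) (o j) := by
    have h6 : ((2 * D + 1 : ℕ) : ℝ) * (((2 * D + 1 : ℕ) : ℝ) *
        ∑ o : Fin a → Fin (2 * D + 1), G (o i) (o j)) = cO * ∑ v, ∑ u, G u v := by
      rw [← h3, ← h4, Finset.sum_const, Finset.card_univ, nsmul_eq_mul]
    have h7 : (D : ℝ) + 1 ≤ ∑ v, ∑ u, G u v := by
      rw [Finset.sum_comm]
      exact pairs_ge hD h1 h2
    have h8 := mul_le_mul_of_nonneg_left h7 hcO0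
    rw [← h6] at h8
    push_cast at h8
    linarith
  -- the sum over `L`
  have h6 : ∑ o : Fin a → Fin (2 * D + 1), G (o i) (o j) ≤
      ∑ x : Fin Q × (Fin a → Fin (2 * D + 1)),
        (if lbl hD x i = k ∧ lbl hD x j = k' then (1 : ℝ) else 0) := by
    rw [Fintype.sum_prod_type_right]
    apply Finset.sum_le_sum
    intro o _
    simp only [G]
    split_ifs with h7
    · have h8 : lbl hD (k - Fin.castLE hD (o i), o) i = k ∧
          lbl hD (k - Fin.castLE hD (o i), o) j = k' := by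
        constructor
        · rw [lbl, sub_add_cancel]
        · rw [lbl]
          have h9 : k - Fin.castLE hD (o i) + Fin.castLE hD (o j) =
              (k + Fin.castLE hD (o j)) - Fin.castLE hD (o i) := by abel
          simp only
          rw [h9, h7, add_sub_cancel_right]
      refine le_trans ?_ (Finset.single_le_sum (f := fun L : Fin Q =>
        (if lbl hD (L, o) i = k ∧ lbl hD (L, o) j = k' then (1 : ℝ) else 0)) (fun L _ => by
          split_ifs
          · exact zero_le_one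
          · exact le_rfl) (Finset.mem_univ (k - Fin.castLE hD (o i))))
      rw [if_pos h8]
    · apply Finset.sum_nonneg
      intro L _
      split_ifs
      · exact zero_le_one
      · exact le_rfl
  have h7 : ∀ x : Fin Q × (Fin a → Fin (2 * D + 1)),
      (if lbl hD x i = k ∧ lbl hD x j = k' then (1 / 2 : ℝ) else 1) =
        1 - (1 / 2) * (if lbl hD x i = k ∧ lbl hD x j = k' then (1 : ℝ) else 0) := by
    intro x
    split_ifs <;> norm_num
  rw [Finset.sum_congr rfl (fun x _ => h7 x), Finset.sum_sub_distrib, ← Finset.mul_sum,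
    Finset.sum_const, Finset.card_univ, nsmul_eq_mul, mul_one]
  have h8 : (Fintype.card (Fin Q × (Fin a → Fin (2 * D + 1))) : ℝ) = Q * cO := by
    rw [Fintype.card_prod, Fintype.card_fin, Nat.cast_mul]
  rw [h8]
  set W := ∑ o : Fin a → Fin (2 * D + 1), G (o i) (o j) with hW
  have h9 : cO * (1 / (2 * (2 * D + 1))) ≤ W := by
    have h10 : cO * (2 * (D : ℝ) + 1) ≤ 2 * ((2 * D + 1) ^ 2 * W) := by
      have h11 : cO * (2 * (D : ℝ) + 1) ≤ 2 * (((D : ℝ) + 1) * cO) := by nlinarith
      linarith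
    rw [mul_one_div, div_le_iff₀ (by positivity)]
    have h12 : cO * (2 * (D : ℝ) + 1) ≤ (W * (2 * (2 * D + 1))) * (2 * D + 1) := by
      calc cO * (2 * (D : ℝ) + 1) ≤ 2 * ((2 * D + 1) ^ 2 * W) := h10
        _ = _ := by ring
    exact le_of_mul_le_mul_right h12 hD0
  have h10 : (Q : ℝ) * cO * (1 - 1 / (4 * (Q : ℝ) * (2 * D + 1))) =
      Q * cO - (1 / 2) * (cO * (1 / (2 * (2 * D + 1)))) := by
    field_simp
    ring
  rw [h10]
  have h11 := h9.trans h6
  linarith

end

/-- Row R4 for Theorem Q2. -/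
theorem kernel2 : Kernel2Stmt := by
  classical
  intro a N Q D c s w μ C y hDQ hy hC hs hb
  haveI : NeZero Q := ⟨by omega⟩
  have hQR : (1 : ℝ) ≤ Q := by
    exact_mod_cast Nat.one_le_iff_ne_zero.2 (NeZero.ne Q)
  have hQ0 : (0 : ℝ) < Q := by linarith
  let X := Fin Q × (Fin a → Fin (2 * D + 1))
  let T : Finset (((Fin a × Fin a) × (Fin Q × Fin Q)) ⊕ (Fin a × Fin Q)) :=
    ((univ : Finset ((Fin a × Fin a) × (Fin Q × Fin Q))).filter (fun p => p.1.1 ≠ p.1.2 ∧
      (p.2.1 : ℕ) ≤ p.2.2 + D ∧ (p.2.2 : ℕ) ≤ p.2.1 + D)).disjSum univ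
  set x : ℝ := 1 - 1 / (4 * (Q : ℝ) * (2 * D + 1)) with hx
  have hQD : 1 / (4 * (Q : ℝ) * (2 * D + 1)) ≤ 1 := by
    rw [div_le_one (by positivity)]
    have : (0 : ℝ) ≤ D := Nat.cast_nonneg _
    nlinarith
  have hx0 : 0 ≤ x := by
    rw [hx]
    linarith
  have hx1 : x ≤ 1 := by
    rw [hx]
    have : 0 ≤ 1 / (4 * (Q : ℝ) * (2 * D + 1)) := by positivity
    linarith
  let f : (((Fin a × Fin a) × (Fin Q × Fin Q)) ⊕ (Fin a × Fin Q)) → (Fin N → X) → ℝ :=
    fun p ω => match p with
    | Sum.inl p => 2 ^ μ * ∏ t ∈ C p.1.1 ∩ C p.1.2,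
        (if lbl hDQ (ω t) p.1.1 = p.2.1 ∧ lbl hDQ (ω t) p.1.2 = p.2.2 then (1 / 2 : ℝ) else 1)
    | Sum.inr p => (∏ t ∈ C p.1, (if lbl hDQ (ω t) p.1 = p.2 then 1 + y else 1)) / (1 + y) ^ w
  let cc : (((Fin a × Fin a) × (Fin Q × Fin Q)) ⊕ (Fin a × Fin Q)) → ℝ :=
    fun p => match p with
    | Sum.inl _ => 2 ^ μ * x ^ s
    | Sum.inr _ => (1 + y / Q) ^ c / (1 + y) ^ w
  have hy1 : (1 : ℝ) ≤ 1 + y := by linarith
  have hyQ : (1 : ℝ) ≤ 1 + y / Q := by
    have : 0 ≤ y / Q := by positivity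
    linarith
  obtain ⟨ω, hω⟩ := union_var (Ω := Fin N → X) T f cc (by
      rintro (p | p) _ ω
      · apply mul_nonneg (by positivity)
        apply Finset.prod_nonneg
        intro t _
        split_ifs
        · norm_num
        · exact zero_le_one
      · apply div_nonneg _ (by positivity)
        apply Finset.prod_nonneg
        intro t _
        split_ifs
        · linarith
        · exact zero_le_one) (by
      rintro (p | p) hp
      · rw [Finset.inl_mem_disjSum, Finset.mem_filter] at hp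
        obtain ⟨_, hne, h1, h2⟩ := hp
        have h3 := prod_meas (N := N) (fun z : X =>
          if lbl hDQ z p.1.1 = p.2.1 ∧ lbl hDQ z p.1.2 = p.2.2 then (1 / 2 : ℝ) else 1) (by
            intro z
            split_ifs
            · norm_num
            · exact zero_le_one) (lbl_two hDQ hne h1 h2) (C p.1.1 ∩ C p.1.2)
        have h4 : x ^ (C p.1.1 ∩ C p.1.2).card ≤ x ^ s :=
          pow_le_pow_of_le_one hx0 hx1 (hs _ _ hne)
        have h5 : (0 : ℝ) ≤ Fintype.card (Fin N → X) := Nat.cast_nonneg _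
        calc ∑ ω, f (Sum.inl p) ω = 2 ^ μ * ∑ ω : Fin N → X, ∏ t ∈ C p.1.1 ∩ C p.1.2,
              (if lbl hDQ (ω t) p.1.1 = p.2.1 ∧ lbl hDQ (ω t) p.1.2 = p.2.2
                then (1 / 2 : ℝ) else 1) := by
              rw [Finset.mul_sum]
          _ ≤ 2 ^ μ * (Fintype.card (Fin N → X) * x ^ (C p.1.1 ∩ C p.1.2).card) :=
              mul_le_mul_of_nonneg_left h3 (by positivity)
          _ ≤ 2 ^ μ * (Fintype.card (Fin N → X) * x ^ s) :=
              mul_le_mul_of_nonneg_left (mul_le_mul_of_nonneg_left h4 h5) (by positivity)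
          _ = _ := by
              simp only [cc]
              ring
      · have h3 := prod_meas (N := N) (fun z : X =>
          if lbl hDQ z p.1 = p.2 then 1 + y else 1) (by
            intro z
            split_ifs
            · linarith
            · exact zero_le_one) (le_of_eq (lbl_one hDQ p.1 p.2 y)) (C p.1)
        have h4 : (1 + y / Q) ^ (C p.1).card ≤ (1 + y / Q) ^ c :=
          pow_le_pow_right₀ hyQ (hC _)
        have h5 : (0 : ℝ) ≤ Fintype.card (Fin N → X) := Nat.cast_nonneg _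
        have h6 := h3.trans (mul_le_mul_of_nonneg_left h4 h5)
        calc ∑ ω, f (Sum.inr p) ω = (∑ ω : Fin N → X, ∏ t ∈ C p.1,
              (if lbl hDQ (ω t) p.1 = p.2 then 1 + y else 1)) / (1 + y) ^ w := by
              rw [Finset.sum_div]
          _ ≤ (Fintype.card (Fin N → X) * (1 + y / Q) ^ c) / (1 + y) ^ w :=
              div_le_div_of_nonneg_right h6 (by positivity)
          _ = _ := by
              simp only [cc]
              ring) (by
      refine lt_of_le_of_lt ?_ hb
      simp only [T, Finset.sum_disjSum, cc]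
      rw [Finset.sum_const, Finset.sum_const, nsmul_eq_mul, nsmul_eq_mul, Finset.card_univ,
        Fintype.card_prod, Fintype.card_fin, Fintype.card_fin]
      apply add_le_add
      · apply mul_le_mul_of_nonneg_right _ (by positivity)
        have h2 := Finset.card_le_univ ((univ : Finset ((Fin a × Fin a) ×
          (Fin Q × Fin Q))).filter (fun p => p.1.1 ≠ p.1.2 ∧
            (p.2.1 : ℕ) ≤ p.2.2 + D ∧ (p.2.2 : ℕ) ≤ p.2.1 + D))
        rw [Fintype.card_prod, Fintype.card_prod, Fintype.card_prod, Fintype.card_fin,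
          Fintype.card_fin] at h2
        have h3 : ((a * a * (Q * Q) : ℕ) : ℝ) = (a : ℝ) ^ 2 * (Q : ℝ) ^ 2 := by
          push_cast
          ring
        rw [← h3]
        exact_mod_cast h2
      · push_cast
        exact le_rfl)
  refine ⟨fun i t => lbl hDQ (ω t) i, ?_, ?_⟩
  · intro i k
    by_contra hno
    push Not at hno
    have h1 := hω (Sum.inr (i, k)) (Finset.inr_mem_disjSum.2 (Finset.mem_univ _))
    have h2 : (1 : ℝ) ≤ f (Sum.inr (i, k)) ω := by
      simp only [f]
      rw [← Finset.prod_filter, Finset.prod_const, le_div_iff₀ (by positivity), one_mul]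
      exact pow_le_pow_right₀ hy1 hno.le
    linarith
  · intro i j hij k k' hk hk'
    by_contra hno
    push Not at hno
    have h1 := hω (Sum.inl ((i, j), (k, k'))) (Finset.inl_mem_disjSum.2
      (Finset.mem_filter.2 ⟨Finset.mem_univ _, hij, hk, hk'⟩))
    have h2 : (1 : ℝ) ≤ f (Sum.inl ((i, j), (k, k'))) ω := by
      simp only [f]
      rw [← Finset.prod_filter, Finset.prod_const]
      have h5 : ((1 : ℝ) / 2) ^ μ ≤ (1 / 2) ^ ((C i ∩ C j).filter (fun t =>
          lbl hDQ (ω t) i = k ∧ lbl hDQ (ω t) j = k')).card :=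
        pow_le_pow_of_le_one (by norm_num) (by norm_num) hno.le
      have h6 : (2 : ℝ) ^ μ * (1 / 2) ^ μ = 1 := by
        rw [← mul_pow]
        norm_num
      exact h6.symm.le.trans (mul_le_mul_of_nonneg_left h5 (by positivity))
    linarith

end Vale.Agent.P181.Q
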