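import Vale.Agent.P181.Q.Extend

set_option autoImplicit false

namespace Vale.Agent.P181.Q

open Finset

lemma finRotate_ne_self {a : ℕ} (ha : 2 ≤ a) (h : Fin a) : finRotate a h ≠ h := by
  obtain ⟨m, rfl⟩ : ∃ m, a = m + 2 := ⟨a - 2, by omega⟩
  rw [finRotate_apply]
  intro h1
  have h2 : (1 : Fin (m + 2)) = 0 := by
    have h3 : h + 1 = h + 0 := by rw [h1, add_zero]
    exact add_left_cancel h3
  exact one_ne_zero h2

theorem label (hK : KernelStmt) : LabelStmt := by
  classical
  intro a b u P ha hu hP haP hau h5u hq own kap hdes N s C hC hint hnum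
  obtain ⟨d1, d2, d3, d4, d5, -⟩ := hdes
  have hq0 : b / a * a ≤ b := Nat.div_mul_le_self b a
  have hq1 : b < (b / a + 1) * a := by
    have h1 := Nat.div_add_mod b a
    have h2 := Nat.mod_lt b (show 0 < a by omega)
    calc b = a * (b / a) + b % a := h1.symm
      _ < a * (b / a) + a := by omega
      _ = (b / a + 1) * a := by ring
  generalize b / a = q at *
  have hb0 : 0 < b := by
    have h1 : 0 < q * a := Nat.mul_pos (by omega) (by omega)
    omega
  let nx : Equiv.Perm (Fin a) := finRotate a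
  have hnx : ∀ h, nx h ≠ h := finRotate_ne_self ha
  let pr : Fin a → Fin a := fun i => nx.symm i
  have hnp : ∀ i, nx (pr i) = i := fun i => nx.apply_symm_apply i
  have hpn : ∀ i, pr (nx i) = i := fun i => nx.symm_apply_apply i
  have hpr : ∀ i, pr i ≠ i := fun i h => hnx i (by
    conv_rhs => rw [← hnp i]
    rw [h])
  let K : Fin a → ℕ := fun h => ∑ φ ∈ univ.filter (fun φ => own φ = h), kap φ
  have hK5 : ∀ h, K h ≤ 5 * u * (P + 1) := d5
  -- numbers
  have hn1 : 3 * (5 * u * (P + 1)) ≤ 10 * u * (q + 1) := by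
    calc 3 * (5 * u * (P + 1)) = u * (15 * (P + 1)) := by ring
      _ ≤ u * (10 * (q + 1)) := Nat.mul_le_mul_left _ (by omega)
      _ = 10 * u * (q + 1) := by ring
  have hn2 : a + 10 * u * (P + 1) ≤ 5 * u * (q + 1) := by
    calc a + 10 * u * (P + 1) ≤ u * P + 10 * u * (P + 1) := Nat.add_le_add_right haP _
      _ = u * (P + 10 * (P + 1)) := by ring
      _ ≤ u * (5 * (q + 1)) := Nat.mul_le_mul_left _ (by omega)
      _ = 5 * u * (q + 1) := by ring
  have hn3 : 5 * u * (P + 1) ≤ (u - 1) * (q - (P + 2)) := by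
    obtain ⟨v, rfl⟩ : ∃ v, u = v + 1 := ⟨u - 1, by omega⟩
    have h1 : 6 * P + 28 ≤ q - (P + 2) := by omega
    calc 5 * (v + 1) * (P + 1) ≤ v * (6 * P + 28) := by nlinarith
      _ ≤ (v + 1 - 1) * (q - (P + 2)) := by
        rw [Nat.add_sub_cancel]
        exact Nat.mul_le_mul_left _ h1
  have hn4 : (q + 1) * (a - 5 * u) + 5 * u * (q + 1) = (q + 1) * a := by
    obtain ⟨v, rfl⟩ : ∃ v, a = v + 5 * u := ⟨a - 5 * u, by omega⟩
    rw [Nat.add_sub_cancel]
    ring
  have hn5 : (q + 1) * a = q * a + a := by ring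
  -- the guest columns
  obtain ⟨G, hGS, hGK, hGd⟩ := guest a N (5 * u * (P + 1)) (fun h => C h ∩ C (nx h)) K ha hK5
    (fun h => by
      have h1 := hint h (nx h) (hnx h).symm
      have h2 : s + 10 * u * (q + 1) ≤ (C h ∩ C (nx h)).card := h1
      omega)
  have hGl : ∀ h, G h ⊆ C h := fun h t ht => (Finset.mem_inter.1 (hGS h ht)).1
  have hGr : ∀ h, G h ⊆ C (nx h) := fun h t ht => (Finset.mem_inter.1 (hGS h ht)).2
  have hGr' : ∀ i, G (pr i) ⊆ C i := fun i t ht => by
    have h1 := hGr (pr i) ht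
    rwa [hnp] at h1
  have hGdis : ∀ i, Disjoint (G (pr i)) (G i) := fun i => by
    have h1 := hGd (pr i) (by
      change nx (pr i) ≠ pr i
      rw [hnp]
      exact (hpr i).symm)
    have h2 : finRotate a (pr i) = i := hnp i
    rwa [h2] at h1
  -- the labels of the guests
  have hgl : ∀ h, ∃ g : Fin N → Fin b, ∀ φ, ((G h).filter (fun t => g t = φ)).card =
      if own φ = h then kap φ else 0 := by
    intro h
    obtain ⟨g, -, hg⟩ := extend N b (G h) ∅ (fun _ => ⟨0, hb0⟩)
      (fun φ => if own φ = h then kap φ else 0) (Finset.empty_subset _) (fun φ => by simp) (by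
        rw [hGK, ← Finset.sum_filter])
    exact ⟨g, hg⟩
  choose gl hgl using hgl
  -- the labels of the partners
  have hbl : ∀ h, ∃ g : Fin N → Fin b, (∀ t ∈ G h, own (g t) = h ∧ kap (g t) = 0) ∧
      ∀ φ, ((G h).filter (fun t => g t = φ)).card ≤ u - 1 := by
    intro h
    have h1 : q - (P + 2) ≤ (univ.filter (fun φ => own φ = h ∧ kap φ = 0)).card := by
      have h2 := Finset.card_filter_add_card_filter_not (s := univ.filter (fun φ => own φ = h))
        (fun φ => kap φ = 0)
      rw [Finset.filter_filter, Finset.filter_filter] at h2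
      have h3 := d2 h
      have h4 := (d1 h).1
      simp only [ne_eq] at h3
      omega
    obtain ⟨g, hg1, hg2⟩ := balance N b u (q - (P + 2)) (G h)
      (univ.filter (fun φ => own φ = h ∧ kap φ = 0)) (by omega) (by omega) h1
      (by rw [hGK]; exact (hK5 h).trans hn3)
    exact ⟨g, fun t ht => (Finset.mem_filter.1 (hg1 t ht)).2, hg2⟩
  choose bl hbl1 hbl2 using hbl
  -- the kernels
  have hC' : ∀ i, ∃ S ⊆ C i \ (G i ∪ G (pr i)), S.card = (q + 1) * (a - 5 * u) := by
    intro i
    apply Finset.exists_subset_card_eq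
    have h1 := Finset.le_card_sdiff (G i ∪ G (pr i)) (C i)
    have h2 := Finset.card_union_le (G i) (G (pr i))
    have h3 := hK5 i
    have h4 := hK5 (pr i)
    rw [hGK, hGK] at h2
    rw [hC] at h1
    have h5 : 10 * u * (P + 1) = 5 * u * (P + 1) + 5 * u * (P + 1) := by ring
    omega
  choose C' hC'S hC'c using hC'
  have hC'C : ∀ i, C' i ⊆ C i := fun i t ht => (Finset.mem_sdiff.1 (hC'S i ht)).1
  have hC'G : ∀ i, ∀ t ∈ C' i, t ∉ G i ∧ t ∉ G (pr i) := by
    intro i t ht
    have h1 := (Finset.mem_sdiff.1 (hC'S i ht)).2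
    rw [Finset.mem_union, not_or] at h1
    exact h1
  obtain ⟨lab, hl1, hl2⟩ := hK a N (q + 1) s (a - 5 * u) (10 * u / q + 1) C' (by omega) hC'c (by
    intro i j hij
    have h1 := hint i j hij
    have h2 : C i ∩ C j ⊆ (C' i ∩ C' j) ∪ ((C i \ C' i) ∪ (C j \ C' j)) := by
      intro t ht
      rw [Finset.mem_inter] at ht
      simp only [Finset.mem_union, Finset.mem_inter, Finset.mem_sdiff]
      tauto
    have h3 := Finset.card_le_card h2
    have h4 := Finset.card_union_le (C' i ∩ C' j) ((C i \ C' i) ∪ (C j \ C' j))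
    have h5 := Finset.card_union_le (C i \ C' i) (C j \ C' j)
    have h6 := Finset.card_sdiff_of_subset (hC'C i)
    have h7 := Finset.card_sdiff_of_subset (hC'C j)
    rw [hC, hC'c] at h6 h7
    have h8 : 10 * u * (q + 1) = 5 * u * (q + 1) + 5 * u * (q + 1) := by ring
    omega) hnum
  -- the ranks of the forms
  have hrk : ∀ h, ∃ ρ : Fin b → Fin (q + 1), ∀ φ φ', own φ = h → own φ' = h → ρ φ = ρ φ' →
      φ = φ' := by
    intro h
    let e := (univ.filter (fun φ => own φ = h)).equivFin
    refine ⟨fun φ => if hφ : own φ = h then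
      Fin.castLE (d1 h).2 (e ⟨φ, Finset.mem_filter.2 ⟨Finset.mem_univ _, hφ⟩⟩) else 0, ?_⟩
    intro φ φ' hφ hφ' heq
    simp only [dif_pos hφ, dif_pos hφ'] at heq
    have h1 := e.injective (Fin.castLE_injective _ heq)
    exact congrArg Subtype.val h1
  choose rk hrk using hrk
  let S1 : Fin a → Finset (Fin N) := fun i =>
    (C' i).filter (fun t => ∃ φ, own φ = i ∧ rk i φ = lab i t)
  let g : Fin a → Fin N → Fin b := fun i t =>
    if t ∈ G (pr i) then gl (pr i) t else if t ∈ G i then bl i t else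
      if h : ∃ φ, own φ = i ∧ rk i φ = lab i t then h.choose else ⟨0, hb0⟩
  have hg1 : ∀ i, ∀ t ∈ G (pr i), g i t = gl (pr i) t := fun i t ht => if_pos ht
  have hg2 : ∀ i, ∀ t ∈ G i, g i t = bl i t := by
    intro i t ht
    have h1 : t ∉ G (pr i) := fun h => Finset.disjoint_left.1 (hGdis i) h ht
    simp only [g]
    rw [if_neg h1, if_pos ht]
  have hg3 : ∀ i, ∀ t ∈ S1 i, ∀ φ, g i t = φ ↔ own φ = i ∧ rk i φ = lab i t := by
    intro i t ht φ
    obtain ⟨h1, h2⟩ := Finset.mem_filter.1 ht
    obtain ⟨h3, h4⟩ := hC'G i t h1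
    have h5 : g i t = h2.choose := by
      simp only [g]
      rw [if_neg h4, if_neg h3, dif_pos h2]
    have h6 := h2.choose_spec
    rw [h5]
    constructor
    · rintro rfl
      exact h6
    · rintro ⟨h7, h8⟩
      exact hrk i _ _ h6.1 h7 (h6.2.trans h8.symm)
  let S0 : Fin a → Finset (Fin N) := fun i => G (pr i) ∪ (G i ∪ S1 i)
  let m : Fin a → Fin b → ℕ := fun i φ =>
    if i = own φ then a - kap φ else if i = nx (own φ) then kap φ else 0
  have hS0 : ∀ i, S0 i ⊆ C i := by
    intro i t ht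
    simp only [S0, Finset.mem_union] at ht
    rcases ht with ht | ht | ht
    · exact hGr' i ht
    · exact hGl i ht
    · exact hC'C i (Finset.mem_filter.1 ht).1
  have hm : ∀ i φ, ((S0 i).filter (fun t => g i t = φ)).card ≤ m i φ := by
    intro i φ
    have h1 : ((S0 i).filter (fun t => g i t = φ)).card ≤
        ((G (pr i)).filter (fun t => gl (pr i) t = φ)).card +
        (((G i).filter (fun t => bl i t = φ)).card +
          ((S1 i).filter (fun t => g i t = φ)).card) := by
      refine le_trans ?_ ((Finset.card_union_le _ _).trans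
        (Nat.add_le_add_left (Finset.card_union_le _ _) _))
      apply Finset.card_le_card
      intro t ht
      obtain ⟨h2, h3⟩ := Finset.mem_filter.1 ht
      simp only [S0, Finset.mem_union] at h2
      simp only [Finset.mem_union, Finset.mem_filter]
      rcases h2 with h2 | h2 | h2
      · exact Or.inl ⟨h2, by rw [← hg1 i t h2]; exact h3⟩
      · exact Or.inr (Or.inl ⟨h2, by rw [← hg2 i t h2]; exact h3⟩)
      · exact Or.inr (Or.inr ⟨h2, h3⟩)
    rw [hgl] at h1
    have h3 : (own φ ≠ i ∨ kap φ ≠ 0) → ((G i).filter (fun t => bl i t = φ)).card = 0 := by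
      intro h
      rw [Finset.card_eq_zero, Finset.filter_eq_empty_iff]
      intro t ht h4
      have h5 := hbl1 i t ht
      rw [h4] at h5
      rcases h with h | h
      · exact h h5.1
      · exact h h5.2
    have h4 : own φ ≠ i → ((S1 i).filter (fun t => g i t = φ)).card = 0 := by
      intro h
      rw [Finset.card_eq_zero, Finset.filter_eq_empty_iff]
      intro t ht h5
      exact h ((hg3 i t ht φ).1 h5).1
    have h5 : ((S1 i).filter (fun t => g i t = φ)).card ≤ a - 5 * u := by
      rw [← hl1 i (rk i φ)]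
      apply Finset.card_le_card
      intro t ht
      obtain ⟨h6, h7⟩ := Finset.mem_filter.1 ht
      exact Finset.mem_filter.2 ⟨(Finset.mem_filter.1 h6).1, ((hg3 i t h6 φ).1 h7).2.symm⟩
    simp only [m]
    by_cases hi : i = own φ
    · rw [if_pos hi]
      rw [if_neg (by
        intro h
        exact hpr i (h.symm.trans hi.symm))] at h1
      have h6 := hbl2 i φ
      rcases d3 φ with hk | hk
      · omega
      · have h7 := h3 (Or.inr (by omega))
        omega
    · rw [if_neg hi]
      have h6 := h3 (Or.inl (Ne.symm hi))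
      have h7 := h4 (Ne.symm hi)
      by_cases hi2 : i = nx (own φ)
      · rw [if_pos hi2]
        split_ifs at h1 <;> omega
      · rw [if_neg hi2]
        rw [if_neg (by
          intro h
          apply hi2
          rw [h, hnp])] at h1
        omega
  have hsum : ∀ i, ∑ φ, m i φ = (C i).card := by
    intro i
    have h1 : ∀ φ, m i φ = (if own φ = i then a - kap φ else 0) +
        (if own φ = pr i then kap φ else 0) := by
      intro φ
      simp only [m]
      by_cases hi : i = own φ
      · rw [if_pos hi, if_pos hi.symm, if_neg, add_zero]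
        intro h
        exact hpr i (h.symm.trans hi.symm)
      · rw [if_neg hi, if_neg (Ne.symm hi), zero_add]
        by_cases hi2 : i = nx (own φ)
        · rw [if_pos hi2, if_pos (by rw [hi2, hpn])]
        · rw [if_neg hi2, if_neg (by
            intro h
            apply hi2
            rw [h, hnp])]
    rw [Finset.sum_congr rfl (fun φ _ => h1 φ), Finset.sum_add_distrib, ← Finset.sum_filter,
      ← Finset.sum_filter, hC]
    have h2 := d4 (pr i)
    have h3 : finRotate a (pr i) = i := hnp i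
    rw [h3] at h2
    have h4 : ∑ φ ∈ univ.filter (fun φ => own φ = i), (a - kap φ) +
        ∑ φ ∈ univ.filter (fun φ => own φ = i), kap φ =
        a * (univ.filter (fun φ => own φ = i)).card := by
      rw [← Finset.sum_add_distrib, Finset.sum_congr rfl (fun φ _ => (by
        rcases d3 φ with hk | hk <;> omega : a - kap φ + kap φ = a)), Finset.sum_const,
        smul_eq_mul, mul_comm]
    omega
  have hf : ∀ i, ∃ f : Fin N → Fin b, (∀ t ∈ S0 i, f t = g i t) ∧
      ∀ φ, ((C i).filter (fun t => f t = φ)).card = m i φ := fun i =>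
    extend N b (C i) (S0 i) (g i) (m i) (hS0 i) (hm i) (hsum i)
  choose f hf0 hfm using hf
  have hS0G : ∀ i, ∀ t ∈ G (pr i), t ∈ S0 i := fun i t ht => Finset.mem_union_left _ ht
  have hS0B : ∀ i, ∀ t ∈ G i, t ∈ S0 i := fun i t ht =>
    Finset.mem_union_right _ (Finset.mem_union_left _ ht)
  have hS01 : ∀ i, ∀ t ∈ S1 i, t ∈ S0 i := fun i t ht =>
    Finset.mem_union_right _ (Finset.mem_union_right _ ht)
  -- forms of a row
  have hrow : ∀ i, ∀ t ∈ C i, i = own (f i t) ∨ i = nx (own (f i t)) := by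
    intro i t ht
    by_contra hno
    rw [not_or] at hno
    have h1 := hfm i (f i t)
    simp only [m] at h1
    rw [if_neg hno.1, if_neg hno.2, Finset.card_eq_zero, Finset.filter_eq_empty_iff] at h1
    exact h1 ht rfl
  -- guests are in the guest columns
  have hguest : ∀ i, ∀ t ∈ C i, i ≠ own (f i t) → i = nx (own (f i t)) ∧ t ∈ G (own (f i t)) := by
    intro i t ht hi
    have hi2 := (hrow i t ht).resolve_left hi
    refine ⟨hi2, ?_⟩
    have hp : pr i = own (f i t) := by
      conv_lhs => rw [hi2]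
      exact hpn _
    have h1 := hfm i (f i t)
    simp only [m] at h1
    rw [if_neg hi, if_pos hi2] at h1
    have h2 := hgl (pr i) (f i t)
    rw [if_pos hp.symm] at h2
    have h3 : (G (pr i)).filter (fun t' => gl (pr i) t' = f i t) ⊆
        (C i).filter (fun t' => f i t' = f i t) := by
      intro t' ht'
      obtain ⟨h4, h5⟩ := Finset.mem_filter.1 ht'
      refine Finset.mem_filter.2 ⟨hGr' i h4, ?_⟩
      rw [hf0 i t' (hS0G i t' h4), hg1 i t' h4, h5]
    have h4 := Finset.eq_of_subset_of_card_le h3 (by rw [h1, h2])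
    have h5 : t ∈ (C i).filter (fun t' => f i t' = f i t) :=
      Finset.mem_filter.2 ⟨ht, rfl⟩
    rw [← h4] at h5
    rw [← hp]
    exact (Finset.mem_filter.1 h5).1
  refine ⟨f, hrow, hfm, ?_, ?_, ?_⟩
  · intro φ φ' hφ
    refine (hl2 (own φ) (own φ') hφ (rk (own φ) φ) (rk (own φ') φ')).trans ?_
    apply Finset.card_le_card
    intro t ht
    rw [Finset.mem_filter, Finset.mem_inter] at ht
    obtain ⟨⟨h1, h2⟩, h3, h4⟩ := ht
    have h5 : t ∈ S1 (own φ) := Finset.mem_filter.2 ⟨h1, φ, rfl, h3.symm⟩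
    have h6 : t ∈ S1 (own φ') := Finset.mem_filter.2 ⟨h2, φ', rfl, h4.symm⟩
    rw [Finset.mem_filter, Finset.mem_inter]
    refine ⟨⟨hC'C _ h1, hC'C _ h2⟩, ?_, ?_⟩
    · rw [hf0 _ t (hS01 _ t h5)]
      exact (hg3 _ t h5 φ).2 ⟨rfl, h3.symm⟩
    · rw [hf0 _ t (hS01 _ t h6)]
      exact (hg3 _ t h6 φ').2 ⟨rfl, h4.symm⟩
  · intro i t ht hi
    obtain ⟨_, h2⟩ := hguest i t ht hi
    have h3 := hbl1 _ t h2
    have h4 : f (own (f i t)) t = bl (own (f i t)) t := by
      rw [hf0 _ t (hS0B _ t h2), hg2 _ t h2]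
    rw [h4]
    exact ⟨hGl _ h2, h3.1, h3.2⟩
  · intro φ hφ
    have h1 : ((C (own φ)).filter (fun t => f (own φ) t = φ ∧
        ∃ i, t ∈ C i ∧ i ≠ own (f i t) ∧ own (f i t) = own φ)).card ≤
        ((G (own φ)).filter (fun t => bl (own φ) t = φ)).card := by
      apply Finset.card_le_card
      intro t ht
      rw [Finset.mem_filter] at ht
      obtain ⟨_, h2, i, h3, h4, h5⟩ := ht
      obtain ⟨_, h6⟩ := hguest i t h3 h4
      rw [h5] at h6
      refine Finset.mem_filter.2 ⟨h6, ?_⟩
      rw [← hg2 _ t h6, ← hf0 _ t (hS0B _ t h6)]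
      exact h2
    have h2 := hbl2 (own φ) φ
    omega

end Vale.Agent.P181.Q
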