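import Vale.Agent.P181.Q.Rigid2
import Vale.Agent.P181.H530.C2
import Vale.Agent.P181.H179.P7
import Vale.Agent.P181.H54.BulkA

set_option autoImplicit false

open scoped TensorProduct

namespace Vale.Agent.P181.Q

open Vale.Agent.P181 Vale.Agent.P181.H280 Vale.Agent.P181.H179 Vale.Agent.P181.H530 Finset
open MvPolynomial

lemma finRotate_ne {a : ℕ} (ha : 2 ≤ a) (h : Fin a) : finRotate a h ≠ h := by
  obtain ⟨m, rfl⟩ : ∃ m, a = m + 2 := ⟨a - 2, by omega⟩
  rw [finRotate_apply]
  intro h1
  have h2 : (1 : Fin (m + 2)) = 0 := by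
    have h3 : h + 1 = h + 0 := by rw [h1, add_zero]
    exact add_left_cancel h3
  exact absurd h2 (by simp)

/-- The row of a place of the design. -/
def rowF {a b : ℕ} (own : Fin b → Fin a) (kap : Fin b → ℕ) (x : Fin a × Fin b) : Fin a :=
  if (x.1 : ℕ) < a - kap x.2 then own x.2 else finRotate a (own x.2)

section

variable {a b u P : ℕ} {own : Fin b → Fin a} {kap : Fin b → ℕ}

lemma card_lt (c : ℕ) (hc : c ≤ a) :
    (univ.filter (fun s : Fin a => (s : ℕ) < c)).card = c := by
  have h1 : (univ.filter (fun s : Fin a => (s : ℕ) < c)).card =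
      ((Finset.range a).filter (fun s => s < c)).card := by
    apply Finset.card_bij (fun (s : Fin a) _ => (s : ℕ))
    · intro s hs
      rw [Finset.mem_filter] at hs ⊢
      exact ⟨Finset.mem_range.2 s.2, hs.2⟩
    · intro s _ s' _ h
      exact Fin.ext h
    · intro s hs
      rw [Finset.mem_filter] at hs
      exact ⟨⟨s, Finset.mem_range.1 hs.1⟩, Finset.mem_filter.2 ⟨Finset.mem_univ _, hs.2⟩, rfl⟩
  have h2 : (Finset.range a).filter (fun s => s < c) = Finset.range c := by
    ext s
    rw [Finset.mem_filter, Finset.mem_range, Finset.mem_range]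
    omega
  rw [h1, h2, Finset.card_range]

lemma card_ge (c : ℕ) (hc : c ≤ a) :
    (univ.filter (fun s : Fin a => ¬ (s : ℕ) < a - c)).card = c := by
  have h1 := Finset.card_filter_add_card_filter_not (s := (univ : Finset (Fin a)))
    (fun s : Fin a => (s : ℕ) < a - c)
  rw [card_lt (a - c) (by omega), Finset.card_univ, Fintype.card_fin] at h1
  omega

/-- The matrix of the design. -/
lemma card_rowF (ha : 2 ≤ a) (hk : ∀ φ, kap φ < a) (i : Fin a) (φ : Fin b) :
    (univ.filter (fun s : Fin a => rowF own kap (s, φ) = i)).card =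
      if i = own φ then a - kap φ else if i = finRotate a (own φ) then kap φ else 0 := by
  have hne := finRotate_ne ha (own φ)
  have hkφ := hk φ
  split_ifs with h1 h2
  · rw [← card_lt (a := a) (a - kap φ) (by omega)]
    congr 1
    apply Finset.filter_congr
    intro s _
    rw [rowF, h1]
    constructor
    · intro h3
      by_contra h4
      rw [if_neg h4] at h3
      exact hne h3
    · intro h3
      rw [if_pos h3]
  · have h5 := card_ge (a := a) (kap φ) (by omega)
    rw [← h5]
    congr 1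
    apply Finset.filter_congr
    intro s _
    rw [rowF, h2]
    constructor
    · intro h3 h4
      rw [if_pos h4] at h3
      exact hne h3.symm
    · intro h3
      rw [if_neg h3]
  · rw [Finset.card_eq_zero, Finset.filter_eq_empty_iff]
    intro s _ h3
    rw [rowF] at h3
    split_ifs at h3
    · exact h1 h3.symm
    · exact h2 h3.symm

lemma card_rowF_ne (ha : 2 ≤ a) (hk : ∀ φ, kap φ < a) (φ : Fin b) :
    (univ.filter (fun s : Fin a => rowF own kap (s, φ) ≠ own φ)).card = kap φ := by
  have h1 := card_rowF (own := own) ha hk (finRotate a (own φ)) φ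
  rw [if_neg (finRotate_ne ha _), if_pos rfl] at h1
  refine Eq.trans ?_ h1
  congr 1
  apply Finset.filter_congr
  intro s _
  have hne := finRotate_ne ha (own φ)
  rw [rowF]
  split_ifs with h2
  · constructor
    · intro h3
      exact absurd rfl h3
    · intro h3
      exact absurd h3.symm hne
  · exact ⟨fun _ => rfl, fun _ => hne⟩

/-- The row sums of the design. -/
lemma row_card (ha : 2 ≤ a) (hk : ∀ φ, kap φ < a)
    (hs : ∀ h, a * (univ.filter (fun φ => own φ = finRotate a h)).card +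
        ∑ φ ∈ univ.filter (fun φ => own φ = h), kap φ =
      b + ∑ φ ∈ univ.filter (fun φ => own φ = finRotate a h), kap φ) (i : Fin a) :
    (univ.filter (fun x : Fin a × Fin b => rowF own kap x = i)).card = b := by
  obtain ⟨h, rfl⟩ := (finRotate a).surjective i
  rw [Finset.card_filter, Fintype.sum_prod_type_right]
  have h1 : ∀ φ : Fin b, (∑ s : Fin a, if rowF own kap (s, φ) = finRotate a h then 1 else 0) =
      (if own φ = finRotate a h then a - kap φ else 0) + if own φ = h then kap φ else 0 := by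
    intro φ
    rw [← Finset.card_filter, card_rowF ha hk]
    have hne := finRotate_ne ha h
    by_cases h2 : own φ = finRotate a h
    · rw [if_pos h2.symm, if_pos h2, if_neg, add_zero]
      rw [h2]
      exact hne
    · rw [if_neg (fun h3 => h2 h3.symm), if_neg h2, zero_add]
      by_cases h3 : own φ = h
      · rw [if_pos h3, if_pos (by rw [h3])]
      · rw [if_neg h3, if_neg]
        intro h4
        exact h3 ((finRotate a).injective h4).symm
  rw [Finset.sum_congr rfl (fun φ _ => h1 φ), Finset.sum_add_distrib, ← Finset.sum_filter,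
    ← Finset.sum_filter]
  have h2 := hs h
  have h3 : ∑ φ ∈ univ.filter (fun φ => own φ = finRotate a h), (a - kap φ) +
      ∑ φ ∈ univ.filter (fun φ => own φ = finRotate a h), kap φ =
      a * (univ.filter (fun φ => own φ = finRotate a h)).card := by
    rw [← Finset.sum_add_distrib, Finset.sum_congr rfl (g := fun _ => a) (fun φ _ => by
      have := hk φ
      omega), Finset.sum_const, smul_eq_mul, mul_comm]
  omega

end

/-- The numbers of the design. -/
lemma design_numbers2 {a b u P μ : ℕ} {own : Fin b → Fin a} {kap : Fin b → ℕ}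
    (hq : 7 * P + 30 ≤ b / a) (hμ : 5 * u < (P + 2) * μ) (hD : IsDesign a b u P own kap) :
    (∀ φ, kap φ < (2 * P + 4 + 1 - (P + 3)) * μ) ∧
    (∀ h, b / a - (P + 2) ≤ (univ.filter (fun φ => own φ = h ∧ kap φ = 0)).card) ∧
    (∀ h, (univ.filter (fun φ => own φ = h)).card < 2 * (b / a - (P + 2))) := by
  obtain ⟨h1, h2, h3, _, _, _⟩ := hD
  set q := b / a with hqdef
  refine ⟨?_, ?_, ?_⟩
  · intro φ
    have h4 : kap φ ≤ 5 * u := by
      rcases h3 φ with h5 | h5 <;> omega
    have h5 : 2 * P + 4 + 1 - (P + 3) = P + 2 := by omega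
    rw [h5]
    omega
  · intro h
    have h4 := h1 h
    have h5 := h2 h
    have h6 := Finset.card_filter_add_card_filter_not
      (s := univ.filter (fun φ => own φ = h)) (fun φ => kap φ = 0)
    rw [Finset.filter_filter, Finset.filter_filter] at h6
    have h7 : (univ.filter (fun φ => own φ = h ∧ ¬ kap φ = 0)).card = P + 2 := h5
    omega
  · intro h
    have h4 := h1 h
    omega

variable {n : ℕ}

/-- A filling with a rigid labelling is killed by the map of the design. -/
theorem VV_zero_design2 {a b u P μ N : ℕ} {l' : Fin N → ℕ} (ha : 2 ≤ a) (hu : 5 * u < a)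
    (hq : 7 * P + 30 ≤ b / a) (hμ : 5 * u < (P + 2) * μ) {own : Fin b → Fin a} {kap : Fin b → ℕ}
    (hD : IsDesign a b u P own kap) (E : Equiv.Perm (Fin a × Fin b))
    (hE : ∀ x, (E x).1 = rowF own kap x) (l : (Fin a → Fin b → (Fin n → ℂ)) →₀ ℂ)
    (h0 : arrMap a b E (Fin n → ℂ) (elOf l) = 0) (e : Box l' → Fin a) (f : Box l' → Fin b)
    (hcol : ∀ t u v, u ≠ v → e ⟨t, u⟩ ≠ e ⟨t, v⟩)
    (hro : ∀ p, e p = own (f p) ∨ e p = finRotate a (own (f p)))
    (hN : ∀ i φ, (univ.filter (fun p => f p = φ ∧ e p = i)).card =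
      if i = own φ then a - kap φ else if i = finRotate a (own φ) then kap φ else 0)
    (idx : Fin b → ℕ) (hidx : ∀ φ, idx φ < b / a + 1)
    (hinjx : ∀ φ φ', own φ = own φ' → idx φ = idx φ' → φ = φ')
    (hP1 : ∀ φ φ', own φ ≠ own φ' → idx φ ≤ idx φ' + (2 * P + 4) → idx φ' ≤ idx φ + (2 * P + 4) →
      μ ≤ (univ.filter (fun x => f x = φ ∧
      e x = own φ ∧ ∃ y, f y = φ' ∧ e y = own φ' ∧ y.1 = x.1)).card)
    (hP3 : ∀ x, e x ≠ own (f x) → ∃ y : Box l', y.1 = x.1 ∧ e y = own (f x) ∧
      own (f y) = own (f x) ∧ kap (f y) = 0)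
    (hP3' : ∀ φ, kap φ = 0 → (univ.filter (fun y => f y = φ ∧ e y = own φ ∧
      ∃ x : Box l', x.1 = y.1 ∧ e x ≠ own (f x) ∧ own (f x) = own φ)).card < u) :
    VV (fullForm l) l' e = 0 := by
  classical
  have hk : ∀ φ, kap φ < a := by
    intro φ
    rcases hD.2.2.1 φ with h5 | h5 <;> omega
  -- places
  have hfib : ∀ c : Fin b × Fin a, Nonempty ({p : Box l' // (f p, e p) = c} ≃
      {y : Fin b × Fin a // (y.1, rowF own kap (y.2, y.1)) = c}) := by
    rintro ⟨φ, i⟩
    refine ⟨Fintype.equivOfCardEq ?_⟩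
    rw [Fintype.card_subtype, Fintype.card_subtype]
    have h1 : (univ.filter (fun p : Box l' => (f p, e p) = (φ, i))).card =
        (univ.filter (fun p : Box l' => f p = φ ∧ e p = i)).card := by
      congr 1
      apply Finset.filter_congr
      intro p _
      exact Prod.ext_iff
    have h2 : (univ.filter (fun y : Fin b × Fin a => (y.1, rowF own kap (y.2, y.1)) = (φ, i))).card =
        (univ.filter (fun s : Fin a => rowF own kap (s, φ) = i)).card := by
      refine Finset.card_bij' (fun y _ => y.2) (fun s _ => (φ, s)) ?_ ?_ ?_ ?_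
      · intro y hy
        rw [Finset.mem_filter, Prod.mk.injEq] at hy
        rw [Finset.mem_filter]
        refine ⟨Finset.mem_univ _, ?_⟩
        rw [← hy.2.1]
        exact hy.2.2
      · intro s hs
        rw [Finset.mem_filter] at hs
        rw [Finset.mem_filter, Prod.mk.injEq]
        exact ⟨Finset.mem_univ _, rfl, hs.2⟩
      · intro y hy
        rw [Finset.mem_filter, Prod.mk.injEq] at hy
        exact Prod.ext hy.2.1.symm rfl
      · intro s _
        rfl
    rw [h1, h2, hN, card_rowF ha hk]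
  let β : Box l' ≃ Fin b × Fin a := Equiv.ofFiberEquiv (fun c => (hfib c).some)
  have hβ : ∀ p, ((β p).1, rowF own kap ((β p).2, (β p).1)) = (f p, e p) := fun p =>
    Equiv.ofFiberEquiv_map (f := fun p : Box l' => (f p, e p))
      (g := fun y : Fin b × Fin a => (y.1, rowF own kap (y.2, y.1))) _ p
  have hβ1 : ∀ p, (β p).1 = f p := fun p => (Prod.ext_iff.1 (hβ p)).1
  have hβ2 : ∀ p, rowF own kap ((β p).2, (β p).1) = e p := fun p => (Prod.ext_iff.1 (hβ p)).2
  have hPM := VV_rel E l h0 β
  have hslot : ∀ (g : Rg a b) p, (slot E g (β p)).1 =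
      rowF own kap (g.2 (f p) (β p).2, g.1 (f p)) := by
    intro g p
    have h9 : (slot E g (β p)).1 = (E (g.2 (β p).1 (β p).2, g.1 (β p).1)).1 := rfl
    rw [h9, hE, hβ1]
  obtain ⟨hn1, hn2, hn3⟩ := design_numbers2 hq hμ hD
  have hμ0 : 0 < μ := by
    rcases Nat.eq_zero_or_pos μ with h | h
    · rw [h, mul_zero] at hμ
      exact absurd hμ (Nat.not_lt_zero _)
    · exact h
  have hsz : ∀ φ, (univ.filter (fun p : Box l' => f p = φ)).card = a := by
    intro φ
    have h1 : (univ.filter (fun p : Box l' => f p = φ)).card = (univ : Finset (Fin a)).card := by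
      refine Finset.card_bij' (fun p _ => (β p).2) (fun s _ => β.symm (φ, s)) ?_ ?_ ?_ ?_
      · intro p _
        exact Finset.mem_univ _
      · intro s _
        rw [Finset.mem_filter]
        refine ⟨Finset.mem_univ _, ?_⟩
        rw [← hβ1, Equiv.apply_symm_apply]
      · intro p hp
        rw [Finset.mem_filter] at hp
        rw [Equiv.symm_apply_eq]
        exact Prod.ext ((hβ1 p).trans hp.2).symm rfl
      · intro s _
        simp only [Equiv.apply_symm_apply]
    rw [h1, Finset.card_univ, Fintype.card_fin]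
  have hmain : ∀ g : Rg a b, VV (fullForm l) l' (fun p => (slot E g (β p)).1) =
      if (∀ p, (slot E g (β p)).1 = e p) then VV (fullForm l) l' e else 0 := by
    intro g
    by_cases hτ : ∀ p, (slot E g (β p)).1 = e p
    · rw [if_pos hτ]
      simp only [hτ]
    · rw [if_neg hτ]
      by_contra hne
      apply hτ
      refine rigid2 a b u (b / a - (P + 2)) μ (b / a + 1) (2 * P + 4) (P + 3) (Box l') (Fin N)
        (finRotate a) own kap idx e (fun p => p.1) f (finRotate_ne ha) ?_ hro hsz ?_ ?_ hn1 hμ0 hk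
        hn2 hn3 hidx hinjx (by omega) (by omega) (by omega) hD.2.2.2.2.2 hP1 hP3 hP3'
        (fun p => (slot E g (β p)).1) g.1 ?_ ?_ ?_
      · rintro ⟨t, x⟩ ⟨t', y⟩ h1 h2
        simp only at h2
        subst h2
        by_contra h3
        exact hcol t x y (fun h4 => h3 (by rw [h4])) h1
      · intro φ
        have h1 := hN (finRotate a (own φ)) φ
        rw [if_neg (finRotate_ne ha _), if_pos rfl] at h1
        refine Eq.trans ?_ h1
        congr 1
        apply Finset.filter_congr
        intro p _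
        constructor
        · rintro ⟨h2, h3⟩
          refine ⟨h2, ?_⟩
          rcases hro p with h4 | h4
          · exact absurd (by rw [h4, h2]) h3
          · rw [h4, h2]
        · rintro ⟨h2, h3⟩
          refine ⟨h2, ?_⟩
          rw [h3]
          exact finRotate_ne ha _
      · intro φ
        rcases hD.2.2.1 φ with h5 | h5
        · exact Or.inl h5
        · exact Or.inr h5.1
      · intro p
        rw [hslot, rowF]
        split_ifs
        · exact Or.inl rfl
        · exact Or.inr rfl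
      · intro φ
        rw [← card_rowF_ne (own := own) ha hk (g.1 φ)]
        refine Finset.card_bij' (fun p _ => g.2 φ (β p).2)
          (fun s _ => β.symm (φ, (g.2 φ).symm s)) ?_ ?_ ?_ ?_
        · intro p hp
          rw [Finset.mem_filter] at hp ⊢
          refine ⟨Finset.mem_univ _, ?_⟩
          have h1 := hp.2.2
          rw [hslot, hp.2.1] at h1
          exact h1
        · intro s hs
          rw [Finset.mem_filter] at hs ⊢
          have h1 : f (β.symm (φ, (g.2 φ).symm s)) = φ := by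
            rw [← hβ1, Equiv.apply_symm_apply]
          refine ⟨Finset.mem_univ _, h1, ?_⟩
          rw [hslot, h1, Equiv.apply_symm_apply]
          simp only [Equiv.apply_symm_apply]
          exact hs.2
        · intro p hp
          rw [Finset.mem_filter] at hp
          rw [Equiv.symm_apply_eq, Equiv.symm_apply_apply]
          exact Prod.ext ((hβ1 p).trans hp.2.1).symm rfl
        · intro s _
          simp only [Equiv.apply_symm_apply]
      · rintro ⟨t, x⟩ ⟨t', y⟩ h1 h2 h3
        simp only at h1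
        subst h1
        exact hne (VV_anti _ _ t (fun h4 => h2 (by rw [h4])) h3)
  rw [Finset.sum_congr rfl (fun g _ => hmain g), ← Finset.sum_filter, Finset.sum_const,
    nsmul_eq_mul] at hPM
  refine (mul_eq_zero.1 hPM).resolve_left ?_
  intro h00
  rw [Nat.cast_eq_zero, Finset.card_eq_zero] at h00
  have h8 : ((1, fun _ => 1) : Rg a b) ∈ (∅ : Finset (Rg a b)) := by
    rw [← h00]
    refine Finset.mem_filter.2 ⟨Finset.mem_univ _, fun p => ?_⟩
    rw [hslot, ← hβ2 p, ← hβ1]
    rfl
  exact absurd h8 (Finset.notMem_empty _)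

/-- The map of the design is injective on the bulk. -/
theorem inj_design2 (hlabel : Label2Stmt) {a b u P μ s : ℕ} (ha : 2 ≤ a) (hu : 10 ≤ u)
    (hP : 10 ≤ P) (haP : a ≤ u * P) (hau : a < u * u) (h15u : 15 * u < a)
    (hq : 7 * P + 30 ≤ b / a) (hμ : 5 * u < (P + 2) * μ)
    (hpr : (a : ℝ) ^ 2 * ((b / a + 1 : ℕ) : ℝ) ^ 2 * (2 ^ μ *
        (1 - 1 / (4 * ((b / a + 1 : ℕ) : ℝ) * (4 * P + 9))) ^ s) +
      (a : ℝ) * ((b / a + 1 : ℕ) : ℝ) * ((1 + (10 * u / a : ℝ) / ((b / a + 1 : ℕ) : ℝ)) ^
        ((b / a + 1) * (a - 15 * u)) / (1 + (10 * u / a : ℝ)) ^ (a - 5 * u)) < 1)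
    {own : Fin b → Fin a} {kap : Fin b → ℕ} (hD : IsDesign a b u P own kap)
    (E : Equiv.Perm (Fin a × Fin b)) (hE : ∀ x, (E x).1 = rowF own kap x)
    (lam : Fin n → ℕ) {M : ℕ} (hlam : (∀ m, lam m ≤ M) ∨
      (a ≤ n ∧ ∀ m : Fin n, (m : ℕ) < a → s + 30 * u * (b / a + 1) ≤ lam m))
    (hM : M + (s + 30 * u * (b / a + 1)) ≤ 2 * b)
    (x : Sym[ℂ]^a (Sym[ℂ]^b (Fin n → ℂ))) (hx : x ∈ hwSpace lam (plethAct a b n))
    (h0 : arrMap a b E (Fin n → ℂ) x = 0) : x = 0 := by
  classical
  obtain ⟨l, rfl⟩ := exists_elOf x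
  apply elOf_zero_of_fullForm
  by_contra hne
  obtain ⟨M', hM'⟩ : ∃ M', (∀ m, lam m ≤ M') ∧ (M' = M ∨
      (a ≤ n ∧ ∀ m : Fin n, (m : ℕ) < a → s + 30 * u * (b / a + 1) ≤ lam m)) := by
    rcases hlam with h1 | h1
    · exact ⟨M, h1, Or.inl rfl⟩
    · exact ⟨∑ m, lam m, fun m => Finset.single_le_sum (fun _ _ => Nat.zero_le _)
        (Finset.mem_univ m), Or.inr h1⟩
  obtain ⟨N', hN', l', e, hV, hcnt⟩ := H54B.exists_VV_col M' (wt lam) (fullForm l)
    (fullForm_hw lam l hx) hne
    (fun m hm => by rw [wt, dif_neg (by omega)]) (fun m => by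
      rw [wt]
      split_ifs
      · exact hM'.1 _
      · exact Nat.zero_le _)
  have hcol : ∀ t u v, u ≠ v → e ⟨t, u⟩ ≠ e ⟨t, v⟩ := fun t u v huv h =>
    hV (VV_anti _ e t huv h)
  have hrow := VV_card (fullForm_deg l) hV
  let C : Fin a → Finset (Fin N') := fun i => univ.filter (fun t => ∃ s, e ⟨t, s⟩ = i)
  have hmemC : ∀ p : Box l', p.1 ∈ C (e p) := by
    rintro ⟨t, s⟩
    exact Finset.mem_filter.2 ⟨Finset.mem_univ _, s, rfl⟩
  have hrt : ∀ p p' : Box l', e p = e p' → p.1 = p'.1 → p = p' := by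
    rintro ⟨t, x⟩ ⟨t', y⟩ h1 h2
    simp only at h2
    subst h2
    by_contra h3
    exact hcol t x y (fun h4 => h3 (by rw [h4])) h1
  -- boxes of a row and columns of a row
  have hbij : ∀ i (Q : Fin N' → Prop) [DecidablePred Q],
      (univ.filter (fun p : Box l' => e p = i ∧ Q p.1)).card = ((C i).filter Q).card := by
    intro i Q _
    apply Finset.card_bij (fun p _ => p.1)
    · intro p hp
      rw [Finset.mem_filter] at hp
      rw [Finset.mem_filter, Finset.mem_filter]
      exact ⟨⟨Finset.mem_univ _, p.2, hp.2.1⟩, hp.2.2⟩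
    · intro p hp p' hp' h
      rw [Finset.mem_filter] at hp hp'
      exact hrt p p' (hp.2.1.trans hp'.2.1.symm) h
    · intro t ht
      rw [Finset.mem_filter, Finset.mem_filter] at ht
      obtain ⟨⟨_, s, hs⟩, hQ⟩ := ht
      exact ⟨⟨t, s⟩, Finset.mem_filter.2 ⟨Finset.mem_univ _, hs, hQ⟩, rfl⟩
  have hC : ∀ i, (C i).card = b := by
    intro i
    have h1 := hbij i (fun _ => True)
    simp only [and_true, Finset.filter_true] at h1
    rw [← h1]
    exact hrow i
  have hint : ∀ i j, i ≠ j → s + 30 * u * (b / a + 1) ≤ (C i ∩ C j).card := by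
    intro i j _
    rcases hM'.2 with hMM | ⟨han, htall⟩
    · have h1 := Finset.card_union_add_card_inter (C i) (C j)
      have h2 : (C i ∪ C j).card ≤ N' := by
        have h3 := Finset.card_le_univ (C i ∪ C j)
        rwa [Fintype.card_fin] at h3
      rw [hC, hC] at h1
      omega
    · have h1 := hcnt (a - 1)
      have h2 : s + 30 * u * (b / a + 1) ≤ wt lam (a - 1) := by
        rw [wt, dif_pos (show a - 1 < n by omega)]
        exact htall ⟨a - 1, by omega⟩ (by simp only; omega)
      refine h2.trans (h1.symm.le.trans (Finset.card_le_card ?_))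
      intro t ht
      rw [Finset.mem_filter] at ht
      have h3 : Function.Surjective (fun s : Fin (l' t) => e ⟨t, s⟩) := by
        have h4 : Function.Injective (fun s : Fin (l' t) => e ⟨t, s⟩) := by
          intro x y hxy
          by_contra h5
          exact hcol t x y h5 hxy
        have h6 := Fintype.card_le_of_injective _ h4
        rw [Fintype.card_fin, Fintype.card_fin] at h6
        exact ((Fintype.bijective_iff_injective_and_card _).2
          ⟨h4, by rw [Fintype.card_fin, Fintype.card_fin]; omega⟩).2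
      rw [Finset.mem_inter, Finset.mem_filter, Finset.mem_filter]
      exact ⟨⟨Finset.mem_univ _, h3 i⟩, Finset.mem_univ _, h3 j⟩
  obtain ⟨f, idx, hidx, hinjx, hf1, hf2, hf3, hf4, hf5⟩ := hlabel a b u P μ ha hu hP haP hau h15u hq
    own kap hD N' s C hC hint hpr
  apply hV
  refine VV_zero_design2 (μ := μ) ha (by omega) hq hμ hD E hE l h0 e (fun p => f (e p) p.1) hcol
    ?_ ?_ idx hidx hinjx ?_ ?_ ?_
  · intro p
    exact hf1 (e p) p.1 (hmemC p)
  · intro i φ
    rw [← hf2 i φ, ← hbij i (fun t => f i t = φ)]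
    congr 1
    apply Finset.filter_congr
    intro p _
    constructor
    · rintro ⟨h1, h2⟩
      exact ⟨h2, by rw [← h2]; exact h1⟩
    · rintro ⟨h1, h2⟩
      exact ⟨by rw [h1]; exact h2, h1⟩
  · intro φ φ' hne' hi hi'
    refine (hf3 φ φ' hne' hi hi').trans ?_
    have h1 : ((C (own φ) ∩ C (own φ')).filter
        (fun t => f (own φ) t = φ ∧ f (own φ') t = φ')).card =
        ((C (own φ)).filter (fun t => t ∈ C (own φ') ∧ f (own φ) t = φ ∧
          f (own φ') t = φ')).card := by
      congr 1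
      ext t
      simp only [Finset.mem_filter, Finset.mem_inter]
      tauto
    rw [h1, ← hbij (own φ) (fun t => t ∈ C (own φ') ∧ f (own φ) t = φ ∧ f (own φ') t = φ')]
    apply Finset.card_le_card
    intro p hp
    rw [Finset.mem_filter] at hp ⊢
    obtain ⟨_, h2, h3, h4, h5⟩ := hp
    obtain ⟨_, v, hv⟩ := Finset.mem_filter.1 h3
    refine ⟨Finset.mem_univ _, by rw [h2]; exact h4, h2, ⟨p.1, v⟩, ?_, hv, rfl⟩
    rw [hv]
    exact h5
  · intro p hp
    obtain ⟨h1, h2, h3⟩ := hf4 (e p) p.1 (hmemC p) hp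
    obtain ⟨_, v, hv⟩ := Finset.mem_filter.1 h1
    refine ⟨⟨p.1, v⟩, rfl, hv, ?_, ?_⟩
    · rw [hv]
      exact h2
    · rw [hv]
      exact h3
  · intro φ hφ
    refine lt_of_le_of_lt ?_ (hf5 φ hφ)
    rw [← hbij (own φ) (fun t => f (own φ) t = φ ∧
      ∃ i, t ∈ C i ∧ i ≠ own (f i t) ∧ own (f i t) = own φ)]
    apply Finset.card_le_card
    intro p hp
    rw [Finset.mem_filter] at hp ⊢
    obtain ⟨_, h2, h3, y, h4, h5, h6⟩ := hp
    refine ⟨Finset.mem_univ _, h3, by rw [← h3]; exact h2, e y, ?_, ?_, ?_⟩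
    · rw [← h4]
      exact hmemC y
    · rw [← h4]
      exact h5
    · rw [← h4]
      exact h6

/-- The row theorem: from the design to Foulkes' inequality. -/
theorem foulkes_design2 (hlabel : Label2Stmt) (hdesign : DesignStmt) {a b u P μ s : ℕ} (ha : 2 ≤ a)
    (hu : 10 ≤ u) (hP : 10 ≤ P) (haP : a ≤ u * P) (hau : a < u * u) (h15u : 15 * u < a)
    (hq : 7 * P + 30 ≤ b / a) (hμ : 5 * u < (P + 2) * μ)
    (hpr : (a : ℝ) ^ 2 * ((b / a + 1 : ℕ) : ℝ) ^ 2 * (2 ^ μ *
        (1 - 1 / (4 * ((b / a + 1 : ℕ) : ℝ) * (4 * P + 9))) ^ s) +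
      (a : ℝ) * ((b / a + 1 : ℕ) : ℝ) * ((1 + (10 * u / a : ℝ) / ((b / a + 1 : ℕ) : ℝ)) ^
        ((b / a + 1) * (a - 15 * u)) / (1 + (10 * u / a : ℝ)) ^ (a - 5 * u)) < 1) {M : ℕ}
    (hM : M + (s + 30 * u * (b / a + 1)) ≤ 2 * b) :
    ∃ E : Equiv.Perm (Fin a × Fin b), ∀ (n : ℕ) (lam : Fin n → ℕ), ((∀ m, lam m ≤ M) ∨
      (a ≤ n ∧ ∀ m : Fin n, (m : ℕ) < a → s + 30 * u * (b / a + 1) ≤ lam m)) →
      (∀ x ∈ hwSpace lam (plethAct a b n), arrMap a b E (Fin n → ℂ) x = 0 → x = 0) ∧
      plethMult a b n lam ≤ plethMult b a n lam := by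
  obtain ⟨own, kap, hD⟩ := hdesign a b u P ha hu hP haP hau (by omega)
  have hD' : IsDesign a b u P own kap := hD
  have hk : ∀ φ, kap φ < a := by
    intro φ
    rcases hD'.2.2.1 φ with h5 | h5 <;> omega
  obtain ⟨E, hE⟩ := exists_arr (rowF own kap) (row_card ha hk hD'.2.2.2.1)
  have hinj : ∀ (n : ℕ) (lam : Fin n → ℕ), ((∀ m, lam m ≤ M) ∨
      (a ≤ n ∧ ∀ m : Fin n, (m : ℕ) < a → s + 30 * u * (b / a + 1) ≤ lam m)) →
      ∀ x ∈ hwSpace lam (plethAct a b n), arrMap a b E (Fin n → ℂ) x = 0 → x = 0 :=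
    fun n lam hlam x hx h0 => inj_design2 hlabel ha hu hP haP hau h15u hq hμ hpr hD' E hE lam hlam
      hM x hx h0
  refine ⟨E, fun n lam hlam => ⟨hinj n lam hlam, ?_⟩⟩
  exact finrank_le_of_inj (arrMap a b E (Fin n → ℂ)) _ _ (fun x hx => arrMap_hwSpace E lam x hx)
    (hinj n lam hlam)

end Vale.Agent.P181.Q
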