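import Vale.Agent.P181.Q.Spec

set_option autoImplicit false

namespace Vale.Agent.P181.Q

open Finset

section

variable {a b u L μ : ℕ} {B T : Type} [Fintype B] [DecidableEq B] [DecidableEq T]
  {nxt : Equiv.Perm (Fin a)} {own : Fin b → Fin a} {kap : Fin b → ℕ}
  {r : B → Fin a} {t : B → T} {f : B → Fin b}

/-- Owners of forms are moved by a permutation of the rows. -/
lemma owner_perm
    (hrt : ∀ x y, r x = r y → t x = t y → x = y)
    (hkL : ∀ φ, kap φ < L * μ) (hμ : 0 < μ)
    (hL : ∀ h, L ≤ (univ.filter (fun φ => own φ = h ∧ kap φ = 0)).card)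
    (hL2 : ∀ h, (univ.filter (fun φ => own φ = h)).card < 2 * L)
    (hP1 : ∀ φ φ', own φ ≠ own φ' → μ ≤ (univ.filter (fun x => f x = φ ∧ r x = own φ ∧
      ∃ y, f y = φ' ∧ r y = own φ' ∧ t y = t x)).card)
    (ν : B → Fin a) (σ : Equiv.Perm (Fin b))
    (hν2 : ∀ φ, (univ.filter (fun x => f x = φ ∧ ν x ≠ own (σ φ))).card = kap (σ φ))
    (hc : ∀ x y, t x = t y → x ≠ y → ν x ≠ ν y) :
    ∃ W : Equiv.Perm (Fin a), ∀ φ, own (σ φ) = W (own φ) := by
  classical
  -- forms in full slots
  have hA : ∀ φ, kap (σ φ) = 0 → ∀ x, f x = φ → ν x = own (σ φ) := by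
    intro φ h0 x hx
    by_contra hne
    have h1 := hν2 φ
    rw [h0, Finset.card_eq_zero] at h1
    have h2 : x ∈ univ.filter (fun x => f x = φ ∧ ν x ≠ own (σ φ)) :=
      Finset.mem_filter.2 ⟨Finset.mem_univ _, hx, hne⟩
    rw [h1] at h2
    exact absurd h2 (Finset.notMem_empty _)
  have hsame : ∀ φ φ', kap (σ φ) = 0 → kap (σ φ') = 0 → own (σ φ) = own (σ φ') →
      own φ = own φ' := by
    intro φ φ' h0 h0' hm
    by_contra hne
    have h1 := hP1 φ φ' hne
    obtain ⟨x, hx⟩ := Finset.card_pos.1 (lt_of_lt_of_le hμ h1)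
    rw [Finset.mem_filter] at hx
    obtain ⟨_, hfx, hrx, y, hfy, hry, hty⟩ := hx
    have hxy : x ≠ y := by
      rintro rfl
      exact hne (hrx.symm.trans hry)
    apply hc x y hty.symm hxy
    rw [hA φ h0 x hfx, hA φ' h0' y hfy, hm]
  by_cases ha : a = 0
  · subst ha
    exact ⟨1, fun φ => (own φ).elim0⟩
  have hLpos : 0 < L := by
    have := hL2 ⟨0, by omega⟩
    omega
  have hex : ∀ m : Fin a, ∃ φ, own (σ φ) = m ∧ kap (σ φ) = 0 := by
    intro m
    obtain ⟨ψ, hψ⟩ := Finset.card_pos.1 (lt_of_lt_of_le hLpos (hL m))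
    rw [Finset.mem_filter] at hψ
    refine ⟨σ.symm ψ, ?_, ?_⟩
    · rw [Equiv.apply_symm_apply]; exact hψ.2.1
    · rw [Equiv.apply_symm_apply]; exact hψ.2.2
  choose c hc1 hc2 using hex
  let w : Fin a → Fin a := fun m => own (c m)
  have hw : ∀ φ, kap (σ φ) = 0 → own φ = w (own (σ φ)) := fun φ h0 =>
    hsame φ (c (own (σ φ))) h0 (hc2 _) (hc1 _).symm
  have hinj : Function.Injective w := by
    intro m m' hmm
    by_contra hne
    have h1 : (univ.filter (fun ψ => own ψ = m ∧ kap ψ = 0)).card +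
        (univ.filter (fun ψ => own ψ = m' ∧ kap ψ = 0)).card ≤
        (univ.filter (fun φ => own φ = w m)).card := by
      rw [← Finset.card_union_of_disjoint]
      · apply Finset.card_le_card_of_injOn (fun ψ => σ.symm ψ)
        · intro ψ hψ
          rw [Finset.mem_coe, Finset.mem_union, Finset.mem_filter, Finset.mem_filter] at hψ
          rw [Finset.mem_coe, Finset.mem_filter]
          refine ⟨Finset.mem_univ _, ?_⟩
          rcases hψ with ⟨_, h2, h3⟩ | ⟨_, h2, h3⟩
          · rw [hw (σ.symm ψ) (by rw [Equiv.apply_symm_apply]; exact h3), Equiv.apply_symm_apply,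
              h2]
          · rw [hw (σ.symm ψ) (by rw [Equiv.apply_symm_apply]; exact h3), Equiv.apply_symm_apply,
              h2, hmm]
        · intro ψ _ ψ' _ h
          exact σ.symm.injective h
      · rw [Finset.disjoint_filter]
        rintro ψ _ ⟨h2, _⟩ ⟨h3, _⟩
        exact hne (h2.symm.trans h3)
    have h2 := hL m
    have h3 := hL m'
    have h4 := hL2 (w m)
    omega
  have hbij : Function.Bijective w := Finite.injective_iff_bijective.1 hinj
  let W : Equiv.Perm (Fin a) := Equiv.ofBijective w hbij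
  refine ⟨W.symm, ?_⟩
  intro φ
  rw [Equiv.eq_symm_apply]
  change w (own (σ φ)) = own φ
  by_contra hne
  set m := own (σ φ) with hm
  let FS : Finset (Fin b) := univ.filter (fun ψ => own ψ = m ∧ kap ψ = 0)
  let X : Fin b → Finset B := fun ψ => univ.filter (fun x => f x = φ ∧ r x = own φ ∧
      ∃ y, f y = σ.symm ψ ∧ r y = own (σ.symm ψ) ∧ t y = t x)
  have hFS : ∀ ψ ∈ FS, own ψ = m ∧ kap ψ = 0 := fun ψ hψ => (Finset.mem_filter.1 hψ).2
  have hown : ∀ ψ ∈ FS, own (σ.symm ψ) = w m := by
    intro ψ hψ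
    rw [hw (σ.symm ψ) (by rw [Equiv.apply_symm_apply]; exact (hFS ψ hψ).2),
      Equiv.apply_symm_apply, (hFS ψ hψ).1]
  have hdisj : Set.PairwiseDisjoint (FS : Set (Fin b)) X := by
    intro ψ hψ ψ' hψ' hψψ
    rw [Function.onFun, Finset.disjoint_left]
    intro x hx hx'
    rw [Finset.mem_filter] at hx hx'
    obtain ⟨_, _, _, y, hfy, hry, hty⟩ := hx
    obtain ⟨_, _, _, y', hfy', hry', hty'⟩ := hx'
    have hyy : y = y' := by
      apply hrt
      · rw [hry, hry', hown ψ hψ, hown ψ' hψ']
      · rw [hty, hty']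
    apply hψψ
    apply σ.symm.injective
    rw [← hfy, ← hfy', hyy]
  have hsub : FS.biUnion X ⊆ univ.filter (fun x => f x = φ ∧ ν x ≠ own (σ φ)) := by
    intro x hx
    rw [Finset.mem_biUnion] at hx
    obtain ⟨ψ, hψ, hx⟩ := hx
    rw [Finset.mem_filter] at hx ⊢
    obtain ⟨_, hfx, hrx, y, hfy, hry, hty⟩ := hx
    refine ⟨Finset.mem_univ _, hfx, ?_⟩
    have hνy : ν y = m := by
      rw [hA (σ.symm ψ) (by rw [Equiv.apply_symm_apply]; exact (hFS ψ hψ).2) y hfy,
        Equiv.apply_symm_apply, (hFS ψ hψ).1]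
    have hxy : x ≠ y := by
      rintro rfl
      apply hne
      rw [← hown ψ hψ, ← hry, hrx]
    intro hx2
    apply hc x y hty.symm hxy
    rw [hx2, hνy]
  have h1 := Finset.card_le_card hsub
  rw [Finset.card_biUnion hdisj, hν2 φ] at h1
  have h2 : L * μ ≤ ∑ ψ ∈ FS, (X ψ).card := by
    calc L * μ ≤ FS.card * μ := Nat.mul_le_mul_right _ (hL m)
      _ = ∑ _ψ ∈ FS, μ := by rw [Finset.sum_const, smul_eq_mul]
      _ ≤ _ := by
        apply Finset.sum_le_sum
        intro ψ hψ
        apply hP1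
        rw [hown ψ hψ]
        exact fun h => hne h.symm
  have h3 := hkL (σ φ)
  omega

end

theorem rigid : RigidStmt := by
  classical
  intro a b u L μ B T _ _ _ nxt own kap r t f hnxt hrt hro hfa hfk hku hkL hμ hka hL hL2 hid hP1
    hP3 hP3' ν σ hν1 hν2 hc
  obtain ⟨W, hW⟩ := owner_perm hrt hkL hμ hL hL2 hP1 ν σ hν2 hc
  -- partners of the guests
  choose Y hYt hYr hYo hYk using hP3
  let E : Fin a → Finset B := fun h => univ.filter (fun x => own (f x) = h ∧ ν x ≠ W h)
  let Gs : Fin a → Finset B := fun h => univ.filter (fun x => own (f x) = h ∧ r x ≠ h)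
  let K : Fin a → ℕ := fun h => ∑ φ ∈ univ.filter (fun φ => own φ = h), kap φ
  have hGs : ∀ h, (Gs h).card = K h := by
    intro h
    have h1 : Gs h = (univ.filter (fun φ => own φ = h)).biUnion
        (fun φ => univ.filter (fun x => f x = φ ∧ r x ≠ own φ)) := by
      ext x
      simp only [Gs, Finset.mem_filter, Finset.mem_univ, true_and, Finset.mem_biUnion]
      constructor
      · rintro ⟨h2, h3⟩
        exact ⟨f x, h2, rfl, by rw [h2]; exact h3⟩
      · rintro ⟨φ, h2, h3, h4⟩
        subst h3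
        exact ⟨h2, by rw [← h2]; exact h4⟩
    rw [h1, Finset.card_biUnion]
    · exact Finset.sum_congr rfl (fun φ _ => hfk φ)
    · intro φ _ φ' _ hne
      rw [Function.onFun, Finset.disjoint_filter]
      rintro x _ ⟨h2, _⟩ ⟨h3, _⟩
      exact hne (h2.symm.trans h3)
  have hE : ∀ h, (E h).card = K (W h) := by
    intro h
    have h1 : E h = (univ.filter (fun φ => own φ = h)).biUnion
        (fun φ => univ.filter (fun x => f x = φ ∧ ν x ≠ own (σ φ))) := by
      ext x
      simp only [E, Finset.mem_filter, Finset.mem_univ, true_and, Finset.mem_biUnion]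
      constructor
      · rintro ⟨h2, h3⟩
        exact ⟨f x, h2, rfl, by rw [hW, h2]; exact h3⟩
      · rintro ⟨φ, h2, h3, h4⟩
        subst h3
        exact ⟨h2, by rw [← h2, ← hW]; exact h4⟩
    rw [h1, Finset.card_biUnion]
    · rw [Finset.sum_congr rfl (fun φ _ => hν2 φ)]
      apply Finset.sum_nbij' (fun φ => σ φ) (fun ψ => σ.symm ψ)
      · intro φ hφ
        rw [Finset.mem_filter] at hφ ⊢
        exact ⟨Finset.mem_univ _, by rw [hW, hφ.2]⟩
      · intro ψ hψ
        rw [Finset.mem_filter] at hψ ⊢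
        refine ⟨Finset.mem_univ _, ?_⟩
        apply W.injective
        rw [← hW, Equiv.apply_symm_apply, hψ.2]
      · intro φ _
        exact σ.symm_apply_apply φ
      · intro ψ _
        exact σ.apply_symm_apply ψ
      · intro φ _
        rfl
    · intro φ _ φ' _ hne
      rw [Function.onFun, Finset.disjoint_filter]
      rintro x _ ⟨h2, _⟩ ⟨h3, _⟩
      exact hne (h2.symm.trans h3)
  -- the injection
  let j : B → B := fun x => if hx : r x ≠ own (f x) then
    (if ν x = W (own (f x)) then Y x hx else x) else x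
  have hj1 : ∀ x (hx : r x ≠ own (f x)), ν x = W (own (f x)) → j x = Y x hx := by
    intro x hx h1
    simp only [j, dif_pos hx, if_pos h1]
  have hj2 : ∀ x, ν x ≠ W (own (f x)) → j x = x := by
    intro x h1
    by_cases hx : r x ≠ own (f x)
    · simp only [j, dif_pos hx, if_neg h1]
    · simp only [j, dif_neg hx]
  have hmap : ∀ h, ∀ x ∈ Gs h, j x ∈ E h := by
    intro h x hx
    rw [Finset.mem_filter] at hx
    obtain ⟨_, h1, h2⟩ := hx
    have hx' : r x ≠ own (f x) := by rw [h1]; exact h2
    by_cases h3 : ν x = W (own (f x))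
    · rw [hj1 x hx' h3, Finset.mem_filter]
      refine ⟨Finset.mem_univ _, by rw [hYo x hx', h1], ?_⟩
      rw [← h1, ← h3]
      apply hc _ _ (hYt x hx')
      intro h4
      apply hx'
      rw [← hYr x hx', h4]
    · rw [hj2 x h3, Finset.mem_filter]
      exact ⟨Finset.mem_univ _, h1, by rw [← h1]; exact h3⟩
  have hjinj : ∀ h, Set.InjOn j (Gs h) := by
    intro h x hx y hy hxy
    rw [Finset.mem_coe, Finset.mem_filter] at hx hy
    obtain ⟨_, hx1, hx2⟩ := hx
    obtain ⟨_, hy1, hy2⟩ := hy
    have hx' : r x ≠ own (f x) := by rw [hx1]; exact hx2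
    have hy' : r y ≠ own (f y) := by rw [hy1]; exact hy2
    by_cases h3 : ν x = W (own (f x))
    · rw [hj1 x hx' h3] at hxy
      by_cases h4 : ν y = W (own (f y))
      · rw [hj1 y hy' h4] at hxy
        apply hrt
        · rcases hro x with h5 | h5
          · exact absurd h5 hx'
          · rcases hro y with h6 | h6
            · exact absurd h6 hy'
            · rw [h5, h6, hx1, hy1]
        · rw [← hYt x hx', ← hYt y hy', hxy]
      · rw [hj2 y h4] at hxy
        exfalso
        apply hy2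
        rw [← hxy, hYr x hx', hx1]
    · rw [hj2 x h3] at hxy
      by_cases h4 : ν y = W (own (f y))
      · rw [hj1 y hy' h4] at hxy
        exfalso
        apply hx2
        rw [hxy, hYr y hy', hy1]
      · rw [hj2 y h4] at hxy
        exact hxy
  have hle : ∀ h, K h ≤ K (W h) := by
    intro h
    rw [← hGs, ← hE]
    exact Finset.card_le_card_of_injOn j (fun x hx => hmap h x hx) (hjinj h)
  have heq : ∀ h, K h = K (W h) := by
    have h1 : ∑ h, K h = ∑ h, K (W h) := (Equiv.sum_comp W K).symm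
    intro h
    exact (Finset.sum_eq_sum_iff_of_le (fun i _ => hle i)).1 h1 h (Finset.mem_univ _)
  have himg : ∀ h, (Gs h).image j = E h := by
    intro h
    apply Finset.eq_of_subset_of_card_le
    · intro y hy
      rw [Finset.mem_image] at hy
      obtain ⟨x, hx, rfl⟩ := hy
      exact hmap h x hx
    · rw [Finset.card_image_of_injOn (hjinj h), hGs, hE]
      exact (heq h).ge
  -- full forms stay
  have hfull : ∀ φ, kap φ = 0 → ∀ z, f z = φ → ν z = W (own φ) := by
    intro φ hφ
    have hr : ∀ z, f z = φ → r z = own φ := by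
      intro z hz
      by_contra hne
      have h1 := hfk φ
      rw [hφ, Finset.card_eq_zero] at h1
      have h2 : z ∈ univ.filter (fun x => f x = φ ∧ r x ≠ own φ) :=
        Finset.mem_filter.2 ⟨Finset.mem_univ _, hz, hne⟩
      rw [h1] at h2
      exact absurd h2 (Finset.notMem_empty _)
    have hsub : univ.filter (fun x => f x = φ ∧ ν x ≠ own (σ φ)) ⊆
        univ.filter (fun y => f y = φ ∧ r y = own φ ∧
          ∃ x, t x = t y ∧ r x ≠ own (f x) ∧ own (f x) = own φ) := by
      intro z hz
      rw [Finset.mem_filter] at hz ⊢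
      obtain ⟨_, hfz, hνz⟩ := hz
      refine ⟨Finset.mem_univ _, hfz, hr z hfz, ?_⟩
      have hzE : z ∈ E (own φ) := by
        rw [Finset.mem_filter]
        refine ⟨Finset.mem_univ _, by rw [hfz], ?_⟩
        rw [← hW]
        exact hνz
      rw [← himg, Finset.mem_image] at hzE
      obtain ⟨x, hx, hjx⟩ := hzE
      rw [Finset.mem_filter] at hx
      obtain ⟨_, hx1, hx2⟩ := hx
      have hx' : r x ≠ own (f x) := by rw [hx1]; exact hx2
      by_cases h3 : ν x = W (own (f x))
      · rw [hj1 x hx' h3] at hjx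
        exact ⟨x, by rw [← hjx, hYt x hx'], hx', hx1⟩
      · rw [hj2 x h3] at hjx
        exfalso
        apply hx2
        rw [hjx, hr z hfz]
    have h1 := Finset.card_le_card hsub
    rw [hν2 φ] at h1
    have h2 := hP3' φ hφ
    have h3 : kap (σ φ) = 0 := by
      rcases hku (σ φ) with h4 | h4
      · exact h4
      · omega
    intro z hz
    by_contra hne
    have h4 := hν2 φ
    rw [h3, Finset.card_eq_zero] at h4
    have h5 : z ∈ univ.filter (fun x => f x = φ ∧ ν x ≠ own (σ φ)) :=
      Finset.mem_filter.2 ⟨Finset.mem_univ _, hz, by rw [hW]; exact hne⟩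
    rw [h4] at h5
    exact absurd h5 (Finset.notMem_empty _)
  -- guests are excluded
  have hguest : ∀ x, r x ≠ own (f x) → ν x ≠ W (own (f x)) := by
    intro x hx h1
    have h2 := hfull (f (Y x hx)) (hYk x hx) (Y x hx) rfl
    rw [hYo x hx] at h2
    refine hc (Y x hx) x (hYt x hx) ?_ (h2.trans h1.symm)
    intro h4
    apply hx
    rw [← hYr x hx, h4]
  have hEG : ∀ h, Gs h = E h := by
    intro h
    apply Finset.eq_of_subset_of_card_le
    · intro x hx
      rw [Finset.mem_filter] at hx ⊢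
      refine ⟨Finset.mem_univ _, hx.2.1, ?_⟩
      have h1 := hguest x (by rw [hx.2.1]; exact hx.2.2)
      rw [hx.2.1] at h1
      exact h1
    · rw [hE, hGs]
      exact (heq h).ge
  have hiff : ∀ x, ν x ≠ W (own (f x)) ↔ r x ≠ own (f x) := by
    intro x
    have h1 : x ∈ Gs (own (f x)) ↔ x ∈ E (own (f x)) := by rw [hEG]
    simp only [Gs, E, Finset.mem_filter, Finset.mem_univ, true_and] at h1
    exact h1.symm
  have hkk : ∀ φ, kap (σ φ) = kap φ := by
    intro φ
    rw [← hν2 φ, ← hfk φ]
    congr 1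
    apply Finset.filter_congr
    intro x _
    constructor
    · rintro ⟨h1, h2⟩
      refine ⟨h1, ?_⟩
      rw [hW, ← h1] at h2
      rw [← h1]
      exact (hiff x).1 h2
    · rintro ⟨h1, h2⟩
      refine ⟨h1, ?_⟩
      rw [hW, ← h1]
      rw [← h1] at h2
      exact (hiff x).2 h2
  have hWid : ∀ h, W h = h := by
    intro h
    symm
    apply hid
    intro k
    apply Finset.card_nbij' (fun φ => σ φ) (fun ψ => σ.symm ψ)
    · intro φ hφ
      simp only [Finset.coe_filter, Finset.mem_univ, true_and, Set.mem_ofPred_eq] at hφ ⊢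
      exact ⟨by rw [hW, hφ.1], by rw [hkk, hφ.2]⟩
    · intro ψ hψ
      simp only [Finset.coe_filter, Finset.mem_univ, true_and, Set.mem_ofPred_eq] at hψ ⊢
      refine ⟨?_, ?_⟩
      · apply W.injective
        rw [← hW, Equiv.apply_symm_apply, hψ.1]
      · rw [← hkk, Equiv.apply_symm_apply, hψ.2]
    · intro φ _
      exact σ.symm_apply_apply φ
    · intro ψ _
      exact σ.apply_symm_apply ψ
  intro x
  by_cases hx : r x = own (f x)
  · have h1 : ¬ (ν x ≠ W (own (f x))) := fun h => (hiff x).1 h hx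
    rw [not_not, hWid] at h1
    rw [h1, hx]
  · have h1 := (hiff x).2 hx
    rw [hWid] at h1
    rcases hν1 x with h2 | h2
    · rw [hW, hWid] at h2
      exact absurd h2 h1
    · rw [hW, hWid] at h2
      rcases hro x with h3 | h3
      · exact absurd h3 hx
      · rw [h2, h3]

end Vale.Agent.P181.Q
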