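import Vale.Agent.P181.Q.Spec2

set_option autoImplicit false

namespace Vale.Agent.P181.Q

open Finset

section

variable {a b u L μ : ℕ} {B T : Type} [Fintype B] [DecidableEq B] [DecidableEq T]
  {nxt : Equiv.Perm (Fin a)} {own : Fin b → Fin a} {kap : Fin b → ℕ}
  {r : B → Fin a} {t : B → T} {f : B → Fin b}

/-- Owners of forms are moved by a permutation of the rows. -/
lemma owner_perm2 {Q D R : ℕ} {idx : Fin b → ℕ}
    (hrt : ∀ x y, r x = r y → t x = t y → x = y)
    (hkL : ∀ φ, kap φ < (D + 1 - R) * μ) (hμ : 0 < μ)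
    (hL : ∀ h, L ≤ (univ.filter (fun φ => own φ = h ∧ kap φ = 0)).card)
    (hL2 : ∀ h, (univ.filter (fun φ => own φ = h)).card < 2 * L)
    (hidx : ∀ φ, idx φ < Q) (hinjx : ∀ φ φ', own φ = own φ' → idx φ = idx φ' → φ = φ')
    (hQ : Q ≤ L + R) (hRD : R < D) (hDQ : 2 * D + 1 ≤ Q)
    (hP1 : ∀ φ φ', own φ ≠ own φ' → idx φ ≤ idx φ' + D → idx φ' ≤ idx φ + D →
      μ ≤ (univ.filter (fun x => f x = φ ∧ r x = own φ ∧
        ∃ y, f y = φ' ∧ r y = own φ' ∧ t y = t x)).card)
    (ν : B → Fin a) (σ : Equiv.Perm (Fin b))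
    (hν2 : ∀ φ, (univ.filter (fun x => f x = φ ∧ ν x ≠ own (σ φ))).card = kap (σ φ))
    (hc : ∀ x y, t x = t y → x ≠ y → ν x ≠ ν y) :
    ∃ W : Equiv.Perm (Fin a), ∀ φ, own (σ φ) = W (own φ) := by
  classical
  -- forms in full slots
  have hA : ∀ φ, kap (σ φ) = 0 → ∀ x, f x = φ → ν x = own (σ φ) := by
    intro φ h0 x hx
    by_contra hne
    have h1 := hν2 φ
    rw [h0, Finset.card_eq_zero] at h1
    have h2 : x ∈ univ.filter (fun x => f x = φ ∧ ν x ≠ own (σ φ)) :=
      Finset.mem_filter.2 ⟨Finset.mem_univ _, hx, hne⟩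
    rw [h1] at h2
    exact absurd h2 (Finset.notMem_empty _)
  have hclose : ∀ φ φ', kap (σ φ) = 0 → kap (σ φ') = 0 → own (σ φ) = own (σ φ') →
      idx φ ≤ idx φ' + D → idx φ' ≤ idx φ + D → own φ = own φ' := by
    intro φ φ' h0 h0' hm hi hi'
    by_contra hne
    have h1 := hP1 φ φ' hne hi hi'
    obtain ⟨x, hx⟩ := Finset.card_pos.1 (lt_of_lt_of_le hμ h1)
    rw [Finset.mem_filter] at hx
    obtain ⟨_, hfx, hrx, y, hfy, hry, hty⟩ := hx
    have hxy : x ≠ y := by
      rintro rfl
      exact hne (hrx.symm.trans hry)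
    apply hc x y hty.symm hxy
    rw [hA φ h0 x hfx, hA φ' h0' y hfy, hm]
  by_cases ha : a = 0
  · subst ha
    exact ⟨1, fun φ => (own φ).elim0⟩
  have hLpos : 0 < L := by
    have := hL2 ⟨0, by omega⟩
    omega
  -- the forms in the full slots of a row, and their indices
  let FS : Fin a → Finset (Fin b) := fun m => univ.filter (fun φ => own (σ φ) = m ∧ kap (σ φ) = 0)
  have hFS : ∀ m, ∀ φ ∈ FS m, own (σ φ) = m ∧ kap (σ φ) = 0 :=
    fun m φ hφ => (Finset.mem_filter.1 hφ).2
  have hFSc : ∀ m, L ≤ (FS m).card := by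
    intro m
    refine (hL m).trans ?_
    apply Finset.card_le_card_of_injOn (fun ψ => σ.symm ψ)
    · intro ψ hψ
      rw [Finset.mem_coe, Finset.mem_filter] at hψ
      rw [Finset.mem_coe, Finset.mem_filter, Equiv.apply_symm_apply]
      exact ⟨Finset.mem_univ _, hψ.2⟩
    · intro ψ _ ψ' _ h
      exact σ.symm.injective h
  have hIinj : ∀ m, Set.InjOn idx (FS m) := by
    intro m φ hφ φ' hφ' h
    rw [Finset.mem_coe] at hφ hφ'
    have h1 := hFS m φ hφ
    have h2 := hFS m φ' hφ'
    apply hinjx _ _ _ h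
    exact hclose φ φ' h1.2 h2.2 (h1.1.trans h2.1.symm) (by omega) (by omega)
  -- every window of more than R indices contains the index of a form in a full slot
  have hwin : ∀ m (w : Finset ℕ), (∀ k ∈ w, k < Q) →
      w.card ≤ ((FS m).filter (fun φ => idx φ ∈ w)).card + R := by
    intro m w hw
    have h1 : ((FS m).image idx ∪ w).card ≤ Q := by
      have h2 : (FS m).image idx ∪ w ⊆ Finset.range Q := by
        intro k hk
        rw [Finset.mem_union, Finset.mem_image] at hk
        rw [Finset.mem_range]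
        rcases hk with ⟨φ, _, rfl⟩ | hk
        · exact hidx φ
        · exact hw k hk
      have h3 := Finset.card_le_card h2
      rwa [Finset.card_range] at h3
    have h2 := Finset.card_union_add_card_inter ((FS m).image idx) w
    have h3 : ((FS m).image idx ∩ w).card = ((FS m).filter (fun φ => idx φ ∈ w)).card := by
      have h4 : (FS m).image idx ∩ w = ((FS m).filter (fun φ => idx φ ∈ w)).image idx := by
        ext k
        simp only [Finset.mem_inter, Finset.mem_image, Finset.mem_filter]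
        constructor
        · rintro ⟨⟨φ, h5, rfl⟩, h6⟩
          exact ⟨φ, ⟨h5, h6⟩, rfl⟩
        · rintro ⟨φ, ⟨h5, h6⟩, rfl⟩
          exact ⟨⟨φ, h5, rfl⟩, h6⟩
      rw [h4, Finset.card_image_of_injOn]
      exact (hIinj m).mono (by
        intro φ hφ
        rw [Finset.mem_coe] at hφ ⊢
        exact (Finset.mem_filter.1 hφ).1)
    have h5 : ((FS m).image idx).card = (FS m).card := Finset.card_image_of_injOn (hIinj m)
    have h6 := hFSc m
    omega
  -- one owner for each row
  have hone : ∀ m (d : ℕ) φ φ', φ ∈ FS m → φ' ∈ FS m → idx φ ≤ idx φ' → idx φ' ≤ idx φ + d →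
      own φ = own φ' := by
    intro m d
    induction d using Nat.strong_induction_on with
    | _ d ih =>
      intro φ φ' hφ hφ' h1 h2
      have g1 := hFS m φ hφ
      have g2 := hFS m φ' hφ'
      by_cases hd : idx φ' ≤ idx φ + D
      · exact hclose φ φ' g1.2 g2.2 (g1.1.trans g2.1.symm) (by omega) hd
      · have h3 := hwin m (Finset.Ico (idx φ' - D) (idx φ')) (by
          intro k hk
          rw [Finset.mem_Ico] at hk
          have := hidx φ'
          omega)
        rw [Nat.card_Ico] at h3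
        have h4 : 0 < ((FS m).filter (fun φ => idx φ ∈ Finset.Ico (idx φ' - D) (idx φ'))).card := by
          omega
        obtain ⟨ψ, hψ⟩ := Finset.card_pos.1 h4
        rw [Finset.mem_filter, Finset.mem_Ico] at hψ
        obtain ⟨hψ1, hψ2, hψ3⟩ := hψ
        have g3 := hFS m ψ hψ1
        have h5 : own ψ = own φ' :=
          hclose ψ φ' g3.2 g2.2 (g3.1.trans g2.1.symm) (by omega) (by omega)
        rw [← h5]
        exact ih (idx ψ - idx φ) (by omega) φ ψ hφ hψ1 (by omega) (by omega)
  have hone' : ∀ m φ φ', φ ∈ FS m → φ' ∈ FS m → own φ = own φ' := by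
    intro m φ φ' hφ hφ'
    rcases le_total (idx φ) (idx φ') with h | h
    · exact hone m (idx φ' - idx φ) φ φ' hφ hφ' h (by omega)
    · exact (hone m (idx φ - idx φ') φ' φ hφ' hφ h (by omega)).symm
  have hex : ∀ m : Fin a, ∃ φ, φ ∈ FS m := fun m =>
    Finset.card_pos.1 (lt_of_lt_of_le hLpos (hFSc m))
  choose c hc1 using hex
  let w : Fin a → Fin a := fun m => own (c m)
  have hw : ∀ m, ∀ φ ∈ FS m, own φ = w m := fun m φ hφ => hone' m φ (c m) hφ (hc1 m)
  have hinj : Function.Injective w := by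
    intro m m' hmm
    by_contra hne
    have h1 : (FS m).card + (FS m').card ≤ (univ.filter (fun φ => own φ = w m)).card := by
      rw [← Finset.card_union_of_disjoint]
      · apply Finset.card_le_card
        intro φ hφ
        rw [Finset.mem_union] at hφ
        rw [Finset.mem_filter]
        refine ⟨Finset.mem_univ _, ?_⟩
        rcases hφ with h2 | h2
        · exact hw m φ h2
        · rw [hw m' φ h2, hmm]
      · rw [Finset.disjoint_left]
        intro φ h2 h3
        exact hne ((hFS m φ h2).1.symm.trans (hFS m' φ h3).1)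
    have h2 := hFSc m
    have h3 := hFSc m'
    have h4 := hL2 (w m)
    omega
  have hbij : Function.Bijective w := Finite.injective_iff_bijective.1 hinj
  let W : Equiv.Perm (Fin a) := Equiv.ofBijective w hbij
  refine ⟨W.symm, ?_⟩
  intro φ
  rw [Equiv.eq_symm_apply]
  change w (own (σ φ)) = own φ
  by_contra hne
  set m := own (σ φ) with hm
  -- a window of `D + 1` indices around the index of `φ`
  obtain ⟨v, hvc, hvQ, hv1, hv2⟩ : ∃ v : Finset ℕ, v.card = D + 1 ∧ (∀ k ∈ v, k < Q) ∧
      (∀ k ∈ v, k ≤ idx φ + D) ∧ ∀ k ∈ v, idx φ ≤ k + D := by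
    have hφQ := hidx φ
    by_cases h1 : idx φ + D < Q
    · refine ⟨Finset.Icc (idx φ) (idx φ + D), ?_, ?_, ?_, ?_⟩
      · rw [Nat.card_Icc]
        omega
      all_goals
        intro k hk
        rw [Finset.mem_Icc] at hk
        omega
    · refine ⟨Finset.Icc (idx φ - D) (idx φ), ?_, ?_, ?_, ?_⟩
      · rw [Nat.card_Icc]
        omega
      all_goals
        intro k hk
        rw [Finset.mem_Icc] at hk
        omega
  let F2 : Finset (Fin b) := (FS m).filter (fun φ' => idx φ' ∈ v)
  have hF2 : ∀ ψ ∈ F2, ψ ∈ FS m ∧ idx ψ ∈ v := fun ψ hψ => Finset.mem_filter.1 hψ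
  let X : Fin b → Finset B := fun ψ => univ.filter (fun x => f x = φ ∧ r x = own φ ∧
      ∃ y, f y = ψ ∧ r y = own ψ ∧ t y = t x)
  have hdisj : Set.PairwiseDisjoint (F2 : Set (Fin b)) X := by
    intro ψ hψ ψ' hψ' hψψ
    rw [Function.onFun, Finset.disjoint_left]
    intro x hx hx'
    rw [Finset.mem_filter] at hx hx'
    obtain ⟨_, _, _, y, hfy, hry, hty⟩ := hx
    obtain ⟨_, _, _, y', hfy', hry', hty'⟩ := hx'
    have hyy : y = y' := by
      apply hrt
      · rw [hry, hry', hw m ψ (hF2 ψ hψ).1, hw m ψ' (hF2 ψ' hψ').1]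
      · rw [hty, hty']
    apply hψψ
    rw [← hfy, ← hfy', hyy]
  have hsub : F2.biUnion X ⊆ univ.filter (fun x => f x = φ ∧ ν x ≠ own (σ φ)) := by
    intro x hx
    rw [Finset.mem_biUnion] at hx
    obtain ⟨ψ, hψ, hx⟩ := hx
    rw [Finset.mem_filter] at hx ⊢
    obtain ⟨_, hfx, hrx, y, hfy, hry, hty⟩ := hx
    refine ⟨Finset.mem_univ _, hfx, ?_⟩
    have g1 := hFS m ψ (hF2 ψ hψ).1
    have hνy : ν y = m := by
      rw [hA ψ g1.2 y hfy, g1.1]
    have hxy : x ≠ y := by
      rintro rfl
      apply hne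
      rw [← hw m ψ (hF2 ψ hψ).1, ← hry, hrx]
    intro hx2
    apply hc x y hty.symm hxy
    rw [hx2, hνy]
  have h1 := Finset.card_le_card hsub
  rw [Finset.card_biUnion hdisj, hν2 φ] at h1
  have h0 : D + 1 - R ≤ F2.card := by
    have h5 := hwin m v hvQ
    rw [hvc] at h5
    change D + 1 ≤ F2.card + R at h5
    omega
  have h2 : (D + 1 - R) * μ ≤ ∑ ψ ∈ F2, (X ψ).card := by
    calc (D + 1 - R) * μ ≤ F2.card * μ := Nat.mul_le_mul_right _ h0
      _ = ∑ _ψ ∈ F2, μ := by rw [Finset.sum_const, smul_eq_mul]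
      _ ≤ _ := by
        apply Finset.sum_le_sum
        intro ψ hψ
        have g1 := hF2 ψ hψ
        apply hP1
        · rw [hw m ψ g1.1]
          exact fun h => hne h.symm
        · exact hv2 _ g1.2
        · exact hv1 _ g1.2
  have h3 := hkL (σ φ)
  omega

end

theorem rigid2 : Rigid2Stmt := by
  classical
  intro a b u L μ Q D R B T _ _ _ nxt own kap idx r t f hnxt hrt hro hfa hfk hku hkL hμ hka hL hL2
    hidx hinjx hQ hRD hDQ hid hP1 hP3 hP3' ν σ hν1 hν2 hc
  obtain ⟨W, hW⟩ := owner_perm2 hrt hkL hμ hL hL2 hidx hinjx hQ hRD hDQ hP1 ν σ hν2 hc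
  -- partners of the guests
  choose Y hYt hYr hYo hYk using hP3
  let E : Fin a → Finset B := fun h => univ.filter (fun x => own (f x) = h ∧ ν x ≠ W h)
  let Gs : Fin a → Finset B := fun h => univ.filter (fun x => own (f x) = h ∧ r x ≠ h)
  let K : Fin a → ℕ := fun h => ∑ φ ∈ univ.filter (fun φ => own φ = h), kap φ
  have hGs : ∀ h, (Gs h).card = K h := by
    intro h
    have h1 : Gs h = (univ.filter (fun φ => own φ = h)).biUnion
        (fun φ => univ.filter (fun x => f x = φ ∧ r x ≠ own φ)) := by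
      ext x
      simp only [Gs, Finset.mem_filter, Finset.mem_univ, true_and, Finset.mem_biUnion]
      constructor
      · rintro ⟨h2, h3⟩
        exact ⟨f x, h2, rfl, by rw [h2]; exact h3⟩
      · rintro ⟨φ, h2, h3, h4⟩
        subst h3
        exact ⟨h2, by rw [← h2]; exact h4⟩
    rw [h1, Finset.card_biUnion]
    · exact Finset.sum_congr rfl (fun φ _ => hfk φ)
    · intro φ _ φ' _ hne
      rw [Function.onFun, Finset.disjoint_filter]
      rintro x _ ⟨h2, _⟩ ⟨h3, _⟩
      exact hne (h2.symm.trans h3)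
  have hE : ∀ h, (E h).card = K (W h) := by
    intro h
    have h1 : E h = (univ.filter (fun φ => own φ = h)).biUnion
        (fun φ => univ.filter (fun x => f x = φ ∧ ν x ≠ own (σ φ))) := by
      ext x
      simp only [E, Finset.mem_filter, Finset.mem_univ, true_and, Finset.mem_biUnion]
      constructor
      · rintro ⟨h2, h3⟩
        exact ⟨f x, h2, rfl, by rw [hW, h2]; exact h3⟩
      · rintro ⟨φ, h2, h3, h4⟩
        subst h3
        exact ⟨h2, by rw [← h2, ← hW]; exact h4⟩
    rw [h1, Finset.card_biUnion]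
    · rw [Finset.sum_congr rfl (fun φ _ => hν2 φ)]
      apply Finset.sum_nbij' (fun φ => σ φ) (fun ψ => σ.symm ψ)
      · intro φ hφ
        rw [Finset.mem_filter] at hφ ⊢
        exact ⟨Finset.mem_univ _, by rw [hW, hφ.2]⟩
      · intro ψ hψ
        rw [Finset.mem_filter] at hψ ⊢
        refine ⟨Finset.mem_univ _, ?_⟩
        apply W.injective
        rw [← hW, Equiv.apply_symm_apply, hψ.2]
      · intro φ _
        exact σ.symm_apply_apply φ
      · intro ψ _
        exact σ.apply_symm_apply ψ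
      · intro φ _
        rfl
    · intro φ _ φ' _ hne
      rw [Function.onFun, Finset.disjoint_filter]
      rintro x _ ⟨h2, _⟩ ⟨h3, _⟩
      exact hne (h2.symm.trans h3)
  -- the injection
  let j : B → B := fun x => if hx : r x ≠ own (f x) then
    (if ν x = W (own (f x)) then Y x hx else x) else x
  have hj1 : ∀ x (hx : r x ≠ own (f x)), ν x = W (own (f x)) → j x = Y x hx := by
    intro x hx h1
    simp only [j, dif_pos hx, if_pos h1]
  have hj2 : ∀ x, ν x ≠ W (own (f x)) → j x = x := by
    intro x h1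
    by_cases hx : r x ≠ own (f x)
    · simp only [j, dif_pos hx, if_neg h1]
    · simp only [j, dif_neg hx]
  have hmap : ∀ h, ∀ x ∈ Gs h, j x ∈ E h := by
    intro h x hx
    rw [Finset.mem_filter] at hx
    obtain ⟨_, h1, h2⟩ := hx
    have hx' : r x ≠ own (f x) := by rw [h1]; exact h2
    by_cases h3 : ν x = W (own (f x))
    · rw [hj1 x hx' h3, Finset.mem_filter]
      refine ⟨Finset.mem_univ _, by rw [hYo x hx', h1], ?_⟩
      rw [← h1, ← h3]
      apply hc _ _ (hYt x hx')
      intro h4
      apply hx'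
      rw [← hYr x hx', h4]
    · rw [hj2 x h3, Finset.mem_filter]
      exact ⟨Finset.mem_univ _, h1, by rw [← h1]; exact h3⟩
  have hjinj : ∀ h, Set.InjOn j (Gs h) := by
    intro h x hx y hy hxy
    rw [Finset.mem_coe, Finset.mem_filter] at hx hy
    obtain ⟨_, hx1, hx2⟩ := hx
    obtain ⟨_, hy1, hy2⟩ := hy
    have hx' : r x ≠ own (f x) := by rw [hx1]; exact hx2
    have hy' : r y ≠ own (f y) := by rw [hy1]; exact hy2
    by_cases h3 : ν x = W (own (f x))
    · rw [hj1 x hx' h3] at hxy
      by_cases h4 : ν y = W (own (f y))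
      · rw [hj1 y hy' h4] at hxy
        apply hrt
        · rcases hro x with h5 | h5
          · exact absurd h5 hx'
          · rcases hro y with h6 | h6
            · exact absurd h6 hy'
            · rw [h5, h6, hx1, hy1]
        · rw [← hYt x hx', ← hYt y hy', hxy]
      · rw [hj2 y h4] at hxy
        exfalso
        apply hy2
        rw [← hxy, hYr x hx', hx1]
    · rw [hj2 x h3] at hxy
      by_cases h4 : ν y = W (own (f y))
      · rw [hj1 y hy' h4] at hxy
        exfalso
        apply hx2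
        rw [hxy, hYr y hy', hy1]
      · rw [hj2 y h4] at hxy
        exact hxy
  have hle : ∀ h, K h ≤ K (W h) := by
    intro h
    rw [← hGs, ← hE]
    exact Finset.card_le_card_of_injOn j (fun x hx => hmap h x hx) (hjinj h)
  have heq : ∀ h, K h = K (W h) := by
    have h1 : ∑ h, K h = ∑ h, K (W h) := (Equiv.sum_comp W K).symm
    intro h
    exact (Finset.sum_eq_sum_iff_of_le (fun i _ => hle i)).1 h1 h (Finset.mem_univ _)
  have himg : ∀ h, (Gs h).image j = E h := by
    intro h
    apply Finset.eq_of_subset_of_card_le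
    · intro y hy
      rw [Finset.mem_image] at hy
      obtain ⟨x, hx, rfl⟩ := hy
      exact hmap h x hx
    · rw [Finset.card_image_of_injOn (hjinj h), hGs, hE]
      exact (heq h).ge
  -- full forms stay
  have hfull : ∀ φ, kap φ = 0 → ∀ z, f z = φ → ν z = W (own φ) := by
    intro φ hφ
    have hr : ∀ z, f z = φ → r z = own φ := by
      intro z hz
      by_contra hne
      have h1 := hfk φ
      rw [hφ, Finset.card_eq_zero] at h1
      have h2 : z ∈ univ.filter (fun x => f x = φ ∧ r x ≠ own φ) :=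
        Finset.mem_filter.2 ⟨Finset.mem_univ _, hz, hne⟩
      rw [h1] at h2
      exact absurd h2 (Finset.notMem_empty _)
    have hsub : univ.filter (fun x => f x = φ ∧ ν x ≠ own (σ φ)) ⊆
        univ.filter (fun y => f y = φ ∧ r y = own φ ∧
          ∃ x, t x = t y ∧ r x ≠ own (f x) ∧ own (f x) = own φ) := by
      intro z hz
      rw [Finset.mem_filter] at hz ⊢
      obtain ⟨_, hfz, hνz⟩ := hz
      refine ⟨Finset.mem_univ _, hfz, hr z hfz, ?_⟩
      have hzE : z ∈ E (own φ) := by
        rw [Finset.mem_filter]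
        refine ⟨Finset.mem_univ _, by rw [hfz], ?_⟩
        rw [← hW]
        exact hνz
      rw [← himg, Finset.mem_image] at hzE
      obtain ⟨x, hx, hjx⟩ := hzE
      rw [Finset.mem_filter] at hx
      obtain ⟨_, hx1, hx2⟩ := hx
      have hx' : r x ≠ own (f x) := by rw [hx1]; exact hx2
      by_cases h3 : ν x = W (own (f x))
      · rw [hj1 x hx' h3] at hjx
        exact ⟨x, by rw [← hjx, hYt x hx'], hx', hx1⟩
      · rw [hj2 x h3] at hjx
        exfalso
        apply hx2
        rw [hjx, hr z hfz]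
    have h1 := Finset.card_le_card hsub
    rw [hν2 φ] at h1
    have h2 := hP3' φ hφ
    have h3 : kap (σ φ) = 0 := by
      rcases hku (σ φ) with h4 | h4
      · exact h4
      · omega
    intro z hz
    by_contra hne
    have h4 := hν2 φ
    rw [h3, Finset.card_eq_zero] at h4
    have h5 : z ∈ univ.filter (fun x => f x = φ ∧ ν x ≠ own (σ φ)) :=
      Finset.mem_filter.2 ⟨Finset.mem_univ _, hz, by rw [hW]; exact hne⟩
    rw [h4] at h5
    exact absurd h5 (Finset.notMem_empty _)
  -- guests are excluded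
  have hguest : ∀ x, r x ≠ own (f x) → ν x ≠ W (own (f x)) := by
    intro x hx h1
    have h2 := hfull (f (Y x hx)) (hYk x hx) (Y x hx) rfl
    rw [hYo x hx] at h2
    refine hc (Y x hx) x (hYt x hx) ?_ (h2.trans h1.symm)
    intro h4
    apply hx
    rw [← hYr x hx, h4]
  have hEG : ∀ h, Gs h = E h := by
    intro h
    apply Finset.eq_of_subset_of_card_le
    · intro x hx
      rw [Finset.mem_filter] at hx ⊢
      refine ⟨Finset.mem_univ _, hx.2.1, ?_⟩
      have h1 := hguest x (by rw [hx.2.1]; exact hx.2.2)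
      rw [hx.2.1] at h1
      exact h1
    · rw [hE, hGs]
      exact (heq h).ge
  have hiff : ∀ x, ν x ≠ W (own (f x)) ↔ r x ≠ own (f x) := by
    intro x
    have h1 : x ∈ Gs (own (f x)) ↔ x ∈ E (own (f x)) := by rw [hEG]
    simp only [Gs, E, Finset.mem_filter, Finset.mem_univ, true_and] at h1
    exact h1.symm
  have hkk : ∀ φ, kap (σ φ) = kap φ := by
    intro φ
    rw [← hν2 φ, ← hfk φ]
    congr 1
    apply Finset.filter_congr
    intro x _
    constructor
    · rintro ⟨h1, h2⟩
      refine ⟨h1, ?_⟩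
      rw [hW, ← h1] at h2
      rw [← h1]
      exact (hiff x).1 h2
    · rintro ⟨h1, h2⟩
      refine ⟨h1, ?_⟩
      rw [hW, ← h1]
      rw [← h1] at h2
      exact (hiff x).2 h2
  have hWid : ∀ h, W h = h := by
    intro h
    symm
    apply hid
    intro k
    apply Finset.card_nbij' (fun φ => σ φ) (fun ψ => σ.symm ψ)
    · intro φ hφ
      simp only [Finset.coe_filter, Finset.mem_univ, true_and, Set.mem_ofPred_eq] at hφ ⊢
      exact ⟨by rw [hW, hφ.1], by rw [hkk, hφ.2]⟩
    · intro ψ hψ
      simp only [Finset.coe_filter, Finset.mem_univ, true_and, Set.mem_ofPred_eq] at hψ ⊢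
      refine ⟨?_, ?_⟩
      · apply W.injective
        rw [← hW, Equiv.apply_symm_apply, hψ.1]
      · rw [← hkk, Equiv.apply_symm_apply, hψ.2]
    · intro φ _
      exact σ.symm_apply_apply φ
    · intro ψ _
      exact σ.apply_symm_apply ψ
  intro x
  by_cases hx : r x = own (f x)
  · have h1 : ¬ (ν x ≠ W (own (f x))) := fun h => (hiff x).1 h hx
    rw [not_not, hWid] at h1
    rw [h1, hx]
  · have h1 := (hiff x).2 hx
    rw [hWid] at h1
    rcases hν1 x with h2 | h2
    · rw [hW, hWid] at h2
      exact absurd h2 h1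
    · rw [hW, hWid] at h2
      rcases hro x with h3 | h3
      · exact absurd h3 hx
      · rw [h2, h3]

end Vale.Agent.P181.Q
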