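import Mathlib.Tactic
import Mathlib.Data.Fintype.BigOperators
import Mathlib.Analysis.SpecialFunctions.Log.Basic
import Mathlib.Logic.Equiv.Fin.Rotate

/-!
P181, Theorem Q (helper304 #17697): literal statements of the rows R2, R3, R4, R5.
-/

set_option autoImplicit false

namespace Vale.Agent.P181.Q

open Finset

/-- R2 (RIGIDITY). Boxes `B`, old rows `r`, columns `t`, forms `f`; slots = `Fin b` with owner `own`
and number of guests `kap`; guests sit in the row `nxt (own φ)`. A conflict free regrouping `ν` of the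
type of the design is trivial. -/
def RigidStmt : Prop :=
  ∀ (a b u L μ : ℕ) (B T : Type) [Fintype B] [DecidableEq B] [DecidableEq T]
    (nxt : Equiv.Perm (Fin a)) (own : Fin b → Fin a) (kap : Fin b → ℕ)
    (r : B → Fin a) (t : B → T) (f : B → Fin b),
    (∀ h, nxt h ≠ h) →
    (∀ x y, r x = r y → t x = t y → x = y) →
    -- sizes of the forms
    (∀ x, r x = own (f x) ∨ r x = nxt (own (f x))) →
    (∀ φ, (univ.filter (fun x => f x = φ)).card = a) →
    (∀ φ, (univ.filter (fun x => f x = φ ∧ r x ≠ own φ)).card = kap φ) →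
    -- numbers
    (∀ φ, kap φ = 0 ∨ u ≤ kap φ) → (∀ φ, kap φ < L * μ) → 0 < μ → (∀ φ, kap φ < a) →
    (∀ h, L ≤ (univ.filter (fun φ => own φ = h ∧ kap φ = 0)).card) →
    (∀ h, (univ.filter (fun φ => own φ = h)).card < 2 * L) →
    (∀ g h : Fin a, (∀ k, (univ.filter (fun φ => own φ = g ∧ kap φ = k)).card =
      (univ.filter (fun φ => own φ = h ∧ kap φ = k)).card) → g = h) →
    -- (P1)
    (∀ φ φ', own φ ≠ own φ' → μ ≤ (univ.filter (fun x => f x = φ ∧ r x = own φ ∧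
      ∃ y, f y = φ' ∧ r y = own φ' ∧ t y = t x)).card) →
    -- (P3)
    (∀ x, r x ≠ own (f x) → ∃ y, t y = t x ∧ r y = own (f x) ∧ own (f y) = own (f x) ∧
      kap (f y) = 0) →
    (∀ φ, kap φ = 0 → (univ.filter (fun y => f y = φ ∧ r y = own φ ∧
      ∃ x, t x = t y ∧ r x ≠ own (f x) ∧ own (f x) = own φ)).card < u) →
    -- the regrouping
    ∀ (ν : B → Fin a) (σ : Equiv.Perm (Fin b)),
      (∀ x, ν x = own (σ (f x)) ∨ ν x = nxt (own (σ (f x)))) →
      (∀ φ, (univ.filter (fun x => f x = φ ∧ ν x ≠ own (σ φ))).card = kap (σ φ)) →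
      (∀ x y, t x = t y → x ≠ y → ν x ≠ ν y) → ∀ x, ν x = r x

/-- R3 (DESIGN). The cyclic matrix `N`: row `h` owns `o_h ∈ {q, q+1}` slots, `P + 2` of them with
guests from the row `h + 1`. -/
def DesignStmt : Prop :=
  ∀ (a b u P : ℕ), 2 ≤ a → 10 ≤ u → 10 ≤ P → a ≤ u * P → a < u * u → P + 2 ≤ b / a →
    ∃ (own : Fin b → Fin a) (kap : Fin b → ℕ),
      (∀ h, b / a ≤ (univ.filter (fun φ => own φ = h)).card ∧
        (univ.filter (fun φ => own φ = h)).card ≤ b / a + 1) ∧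
      (∀ h, (univ.filter (fun φ => own φ = h ∧ kap φ ≠ 0)).card = P + 2) ∧
      (∀ φ, kap φ = 0 ∨ (u ≤ kap φ ∧ kap φ ≤ 5 * u)) ∧
      (∀ h, a * (univ.filter (fun φ => own φ = finRotate a h)).card +
          ∑ φ ∈ univ.filter (fun φ => own φ = h), kap φ =
        b + ∑ φ ∈ univ.filter (fun φ => own φ = finRotate a h), kap φ) ∧
      (∀ h, ∑ φ ∈ univ.filter (fun φ => own φ = h), kap φ ≤ 5 * u * (P + 1)) ∧
      (∀ g h : Fin a, (∀ k, (univ.filter (fun φ => own φ = g ∧ kap φ = k)).card =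
        (univ.filter (fun φ => own φ = h ∧ kap φ = k)).card) → g = h)

/-- R4 (KERNELS). Random block shifts: all classes of different rows have `≥ μ` common columns. -/
def KernelStmt : Prop :=
  ∀ (a N Q s w μ : ℕ) (C : Fin a → Finset (Fin N)), 1 ≤ Q →
    (∀ i, (C i).card = Q * w) → (∀ i j, i ≠ j → s ≤ (C i ∩ C j).card) →
    (a : ℝ) ^ 2 * (Q : ℝ) ^ 2 * (2 ^ μ * (1 - 1 / (2 * (Q : ℝ) ^ 2)) ^ s) < 1 →
    ∃ lab : Fin a → Fin N → Fin Q,
      (∀ i k, ((C i).filter (fun t => lab i t = k)).card = w) ∧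
      ∀ i j, i ≠ j → ∀ k k', μ ≤ ((C i ∩ C j).filter (fun t => lab i t = k ∧ lab j t = k')).card

/-- R5a (EXTENSION). A partial labelling with class sizes `≤ m φ`, `∑ m φ = #S`, extends to a
labelling with class sizes exactly `m φ`. -/
def ExtendStmt : Prop :=
  ∀ (N b : ℕ) (S S₀ : Finset (Fin N)) (g : Fin N → Fin b) (m : Fin b → ℕ), S₀ ⊆ S →
    (∀ φ, (S₀.filter (fun t => g t = φ)).card ≤ m φ) → ∑ φ, m φ = S.card →
    ∃ f : Fin N → Fin b, (∀ t ∈ S₀, f t = g t) ∧ ∀ φ, (S.filter (fun t => f t = φ)).card = m φ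

/-- R5b (GUEST COLUMNS). -/
def GuestStmt : Prop :=
  ∀ (a N K : ℕ) (S : Fin a → Finset (Fin N)) (K' : Fin a → ℕ), 2 ≤ a → (∀ h, K' h ≤ K) →
    (∀ h, 3 * K ≤ (S h).card) → ∃ G : Fin a → Finset (Fin N), (∀ h, G h ⊆ S h) ∧
      (∀ h, (G h).card = K' h) ∧ ∀ h, finRotate a h ≠ h → Disjoint (G h) (G (finRotate a h))

/-- R5c (BALANCED ASSIGNMENT): a set of at most `(u - 1) L` columns is distributed to the elements of
a set `F` of at least `L` slots, at most `u - 1` for each. -/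
def BalanceStmt : Prop :=
  ∀ (N b u L : ℕ) (G : Finset (Fin N)) (F : Finset (Fin b)), 1 ≤ u → 1 ≤ L → L ≤ F.card →
    G.card ≤ (u - 1) * L → ∃ g : Fin N → Fin b, (∀ t ∈ G, g t ∈ F) ∧
      ∀ φ, (G.filter (fun t => g t = φ)).card ≤ u - 1

/-- The conclusion of `DesignStmt` (same clauses, same order). -/
def IsDesign (a b u P : ℕ) (own : Fin b → Fin a) (kap : Fin b → ℕ) : Prop :=
  (∀ h, b / a ≤ (univ.filter (fun φ => own φ = h)).card ∧
    (univ.filter (fun φ => own φ = h)).card ≤ b / a + 1) ∧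
  (∀ h, (univ.filter (fun φ => own φ = h ∧ kap φ ≠ 0)).card = P + 2) ∧
  (∀ φ, kap φ = 0 ∨ (u ≤ kap φ ∧ kap φ ≤ 5 * u)) ∧
  (∀ h, a * (univ.filter (fun φ => own φ = finRotate a h)).card +
      ∑ φ ∈ univ.filter (fun φ => own φ = h), kap φ =
    b + ∑ φ ∈ univ.filter (fun φ => own φ = finRotate a h), kap φ) ∧
  (∀ h, ∑ φ ∈ univ.filter (fun φ => own φ = h), kap φ ≤ 5 * u * (P + 1)) ∧
  (∀ g h : Fin a, (∀ k, (univ.filter (fun φ => own φ = g ∧ kap φ = k)).card =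
    (univ.filter (fun φ => own φ = h ∧ kap φ = k)).card) → g = h)

/-- R5 (LABELLING), CORRECTED 15:45: the design is fixed BEFORE the columns. The complete labelling
of the boxes of `a` rows with column sets `C i`; here `L = b / a - (P + 2)` and
`μ = 10 * u / (b / a) + 1`. -/
def LabelStmt : Prop :=
  ∀ (a b u P : ℕ), 2 ≤ a → 10 ≤ u → 10 ≤ P → a ≤ u * P → a < u * u → 5 * u < a →
    7 * P + 30 ≤ b / a → ∀ (own : Fin b → Fin a) (kap : Fin b → ℕ), IsDesign a b u P own kap →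
    ∀ (N s : ℕ) (C : Fin a → Finset (Fin N)),
    (∀ i, (C i).card = b) → (∀ i j, i ≠ j → s + 10 * u * (b / a + 1) ≤ (C i ∩ C j).card) →
    (a : ℝ) ^ 2 * ((b / a + 1 : ℕ) : ℝ) ^ 2 * (2 ^ (10 * u / (b / a) + 1) *
      (1 - 1 / (2 * ((b / a + 1 : ℕ) : ℝ) ^ 2)) ^ s) < 1 →
    ∃ f : Fin a → Fin N → Fin b,
      (∀ i, ∀ t ∈ C i, i = own (f i t) ∨ i = finRotate a (own (f i t))) ∧
      (∀ i φ, ((C i).filter (fun t => f i t = φ)).card =
        if i = own φ then a - kap φ else if i = finRotate a (own φ) then kap φ else 0) ∧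
      (∀ φ φ', own φ ≠ own φ' → 10 * u / (b / a) + 1 ≤ ((C (own φ) ∩ C (own φ')).filter
        (fun t => f (own φ) t = φ ∧ f (own φ') t = φ')).card) ∧
      (∀ i, ∀ t ∈ C i, i ≠ own (f i t) → t ∈ C (own (f i t)) ∧
        own (f (own (f i t)) t) = own (f i t) ∧ kap (f (own (f i t)) t) = 0) ∧
      (∀ φ, kap φ = 0 → ((C (own φ)).filter (fun t => f (own φ) t = φ ∧
        ∃ i, t ∈ C i ∧ i ≠ own (f i t) ∧ own (f i t) = own φ)).card < u)

end Vale.Agent.P181.Q
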