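import Vale.Agent.P181.Q.Spec

/-!
P181, Theorem Q2 (all `b ≥ C a`): indexed forms, conflicts only for indices at distance `≤ D`.
-/

set_option autoImplicit false

namespace Vale.Agent.P181.Q

open Finset

/-- RIGIDITY with indices: `idx φ < Q` numbers the forms of an owner; only forms of different owners
with indices at distance `≤ D` are required to have `≥ μ` common columns. -/
def Rigid2Stmt : Prop :=
  ∀ (a b u L μ Q D R : ℕ) (B T : Type) [Fintype B] [DecidableEq B] [DecidableEq T]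
    (nxt : Equiv.Perm (Fin a)) (own : Fin b → Fin a) (kap : Fin b → ℕ) (idx : Fin b → ℕ)
    (r : B → Fin a) (t : B → T) (f : B → Fin b),
    (∀ h, nxt h ≠ h) →
    (∀ x y, r x = r y → t x = t y → x = y) →
    (∀ x, r x = own (f x) ∨ r x = nxt (own (f x))) →
    (∀ φ, (univ.filter (fun x => f x = φ)).card = a) →
    (∀ φ, (univ.filter (fun x => f x = φ ∧ r x ≠ own φ)).card = kap φ) →
    -- numbers
    (∀ φ, kap φ = 0 ∨ u ≤ kap φ) → (∀ φ, kap φ < (D + 1 - R) * μ) → 0 < μ → (∀ φ, kap φ < a) →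
    (∀ h, L ≤ (univ.filter (fun φ => own φ = h ∧ kap φ = 0)).card) →
    (∀ h, (univ.filter (fun φ => own φ = h)).card < 2 * L) →
    (∀ φ, idx φ < Q) → (∀ φ φ', own φ = own φ' → idx φ = idx φ' → φ = φ') →
    Q ≤ L + R → R < D → 2 * D + 1 ≤ Q →
    (∀ g h : Fin a, (∀ k, (univ.filter (fun φ => own φ = g ∧ kap φ = k)).card =
      (univ.filter (fun φ => own φ = h ∧ kap φ = k)).card) → g = h) →
    -- (P1)
    (∀ φ φ', own φ ≠ own φ' → idx φ ≤ idx φ' + D → idx φ' ≤ idx φ + D →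
      μ ≤ (univ.filter (fun x => f x = φ ∧ r x = own φ ∧
        ∃ y, f y = φ' ∧ r y = own φ' ∧ t y = t x)).card) →
    -- (P3)
    (∀ x, r x ≠ own (f x) → ∃ y, t y = t x ∧ r y = own (f x) ∧ own (f y) = own (f x) ∧
      kap (f y) = 0) →
    (∀ φ, kap φ = 0 → (univ.filter (fun y => f y = φ ∧ r y = own φ ∧
      ∃ x, t x = t y ∧ r x ≠ own (f x) ∧ own (f x) = own φ)).card < u) →
    -- the regrouping
    ∀ (ν : B → Fin a) (σ : Equiv.Perm (Fin b)),
      (∀ x, ν x = own (σ (f x)) ∨ ν x = nxt (own (σ (f x)))) →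
      (∀ φ, (univ.filter (fun x => f x = φ ∧ ν x ≠ own (σ φ))).card = kap (σ φ)) →
      (∀ x y, t x = t y → x ≠ y → ν x ≠ ν y) → ∀ x, ν x = r x

/-- KERNELS, product measure over the columns: `lab i t = L t + o i t mod Q`, `L t` uniform in
`Fin Q`, `o i t` uniform in `{0, …, 2 D}`, everything independent. Lower tail of the common columns
by Markov with `x = 1/2`, upper tail of the class sizes by Markov with `1 + y`. -/
def Kernel2Stmt : Prop :=
  ∀ (a N Q D c s w μ : ℕ) (C : Fin a → Finset (Fin N)) (y : ℝ), 2 * D + 1 ≤ Q → 0 < y →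
    (∀ i, (C i).card ≤ c) → (∀ i j, i ≠ j → s ≤ (C i ∩ C j).card) →
    (a : ℝ) ^ 2 * (Q : ℝ) ^ 2 * (2 ^ μ * (1 - 1 / (4 * (Q : ℝ) * (2 * D + 1))) ^ s) +
      (a : ℝ) * Q * ((1 + y / Q) ^ c / (1 + y) ^ w) < 1 →
    ∃ lab : Fin a → Fin N → Fin Q,
      (∀ i k, ((C i).filter (fun t => lab i t = k)).card ≤ w) ∧
      ∀ i j, i ≠ j → ∀ k k' : Fin Q, (k : ℕ) ≤ k' + D → (k' : ℕ) ≤ k + D →
        μ ≤ ((C i ∩ C j).filter (fun t => lab i t = k ∧ lab j t = k')).card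

/-- LABELLING with indices. `Q = b / a + 1`, `D = 2 P + 4`, kernel classes of size at most
`a - 5 u` inside `C' i ⊆ C i` of size `Q (a - 15 u)`. -/
def Label2Stmt : Prop :=
  ∀ (a b u P μ : ℕ), 2 ≤ a → 10 ≤ u → 10 ≤ P → a ≤ u * P → a < u * u → 15 * u < a →
    7 * P + 30 ≤ b / a → ∀ (own : Fin b → Fin a) (kap : Fin b → ℕ), IsDesign a b u P own kap →
    ∀ (N s : ℕ) (C : Fin a → Finset (Fin N)),
    (∀ i, (C i).card = b) → (∀ i j, i ≠ j → s + 30 * u * (b / a + 1) ≤ (C i ∩ C j).card) →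
    (a : ℝ) ^ 2 * ((b / a + 1 : ℕ) : ℝ) ^ 2 * (2 ^ μ *
        (1 - 1 / (4 * ((b / a + 1 : ℕ) : ℝ) * (4 * P + 9))) ^ s) +
      (a : ℝ) * ((b / a + 1 : ℕ) : ℝ) * ((1 + (10 * u / a : ℝ) / ((b / a + 1 : ℕ) : ℝ)) ^
        ((b / a + 1) * (a - 15 * u)) / (1 + (10 * u / a : ℝ)) ^ (a - 5 * u)) < 1 →
    ∃ (f : Fin a → Fin N → Fin b) (idx : Fin b → ℕ),
      (∀ φ, idx φ < b / a + 1) ∧ (∀ φ φ', own φ = own φ' → idx φ = idx φ' → φ = φ') ∧
      (∀ i, ∀ t ∈ C i, i = own (f i t) ∨ i = finRotate a (own (f i t))) ∧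
      (∀ i φ, ((C i).filter (fun t => f i t = φ)).card =
        if i = own φ then a - kap φ else if i = finRotate a (own φ) then kap φ else 0) ∧
      (∀ φ φ', own φ ≠ own φ' → idx φ ≤ idx φ' + (2 * P + 4) → idx φ' ≤ idx φ + (2 * P + 4) →
        μ ≤ ((C (own φ) ∩ C (own φ')).filter
          (fun t => f (own φ) t = φ ∧ f (own φ') t = φ')).card) ∧
      (∀ i, ∀ t ∈ C i, i ≠ own (f i t) → t ∈ C (own (f i t)) ∧
        own (f (own (f i t)) t) = own (f i t) ∧ kap (f (own (f i t)) t) = 0) ∧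
      (∀ φ, kap φ = 0 → ((C (own φ)).filter (fun t => f (own φ) t = φ ∧
        ∃ i, t ∈ C i ∧ i ≠ own (f i t) ∧ own (f i t) = own φ)).card < u)

end Vale.Agent.P181.Q
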