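import Vale.Agent.P181.H54.BulkA
import Vale.Agent.P181.H179.P5

/-!
P181, Theorem Q: fillings in which any two rows share many columns, from `λ_1` small or from `λ_a`
large.
-/

set_option autoImplicit false

open scoped TensorProduct

namespace Vale.Agent.P181.Q

open Vale.Agent.P181 Vale.Agent.P181.H280 Vale.Agent.P181.H179 Finset MvPolynomial

/-- A nonzero highest weight form does not vanish on some filling in which any two rows share at
least `X` columns, if `λ_1 + X ≤ 2 b` or if `λ_a ≥ X`. -/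
theorem exists_filling {a b n X : ℕ} (ha : 1 ≤ a) (lam : Fin n → ℕ)
    (hX : (∃ M, (∀ i, lam i ≤ M) ∧ M + X ≤ 2 * b) ∨
      (a ≤ n ∧ ∀ i : Fin n, (i : ℕ) < a → X ≤ lam i))
    (l : (Fin a → Fin b → (Fin n → ℂ)) →₀ ℂ) (hx : elOf l ∈ hwSpace lam (plethAct a b n))
    (hne : fullForm l ≠ 0) :
    ∃ (N : ℕ) (l' : Fin N → ℕ) (e : Box l' → Fin a), VV (fullForm l) l' e ≠ 0 ∧
      (∀ t u v, u ≠ v → e ⟨t, u⟩ ≠ e ⟨t, v⟩) ∧
      (∀ i, (univ.filter (fun t => ∃ s, e ⟨t, s⟩ = i)).card = b) ∧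
      ∀ i j, i ≠ j → X ≤ (univ.filter (fun t => ∃ s, e ⟨t, s⟩ = i) ∩
        univ.filter (fun t => ∃ s, e ⟨t, s⟩ = j)).card := by
  classical
  -- any bound for the weight
  obtain ⟨M0, hM0, hM1⟩ : ∃ M0, (∀ i, lam i ≤ M0) ∧
      ((M0 + X ≤ 2 * b) ∨ (a ≤ n ∧ ∀ i : Fin n, (i : ℕ) < a → X ≤ lam i)) := by
    rcases hX with ⟨M, h1, h2⟩ | h
    · exact ⟨M, h1, Or.inl h2⟩
    · exact ⟨∑ i, lam i, fun i => Finset.single_le_sum (fun j _ => Nat.zero_le _)
        (Finset.mem_univ i), Or.inr h⟩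
  obtain ⟨N', hN', l', e, hV, hcc⟩ := H54B.exists_VV_col M0 (wt lam) (fullForm l)
    (fullForm_hw lam l hx) hne (fun m hm => by rw [wt, dif_neg (by omega)]) (fun m => by
      rw [wt]
      split_ifs
      · exact hM0 _
      · exact Nat.zero_le _)
  have hcol : ∀ t u v, u ≠ v → e ⟨t, u⟩ ≠ e ⟨t, v⟩ := fun t u v huv h =>
    hV (VV_anti _ e t huv h)
  have hrow := VV_card (fullForm_deg l) hV
  have hC : ∀ i, (univ.filter (fun t => ∃ s, e ⟨t, s⟩ = i)).card = b := by
    intro i
    rw [← hrow i]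
    symm
    apply Finset.card_bij (fun p _ => p.1)
    · intro p hp
      rw [Finset.mem_filter] at hp ⊢
      exact ⟨Finset.mem_univ _, p.2, hp.2⟩
    · rintro ⟨t, x⟩ hp ⟨t', y⟩ hp' h
      rw [Finset.mem_filter] at hp hp'
      simp only at h
      subst h
      by_contra h3
      exact hcol t x y (fun h4 => h3 (by rw [h4])) (hp.2.trans hp'.2.symm)
    · intro t ht
      rw [Finset.mem_filter] at ht
      obtain ⟨_, s, hs⟩ := ht
      exact ⟨⟨t, s⟩, Finset.mem_filter.2 ⟨Finset.mem_univ _, hs⟩, rfl⟩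
  refine ⟨N', l', e, hV, hcol, hC, ?_⟩
  intro i j _
  rcases hM1 with h1 | ⟨han, h1⟩
  · have h2 := Finset.card_union_add_card_inter (univ.filter (fun t => ∃ s, e ⟨t, s⟩ = i))
      (univ.filter (fun t => ∃ s, e ⟨t, s⟩ = j))
    have h3 : (univ.filter (fun t => ∃ s, e ⟨t, s⟩ = i) ∪
        univ.filter (fun t => ∃ s, e ⟨t, s⟩ = j)).card ≤ N' := by
      have h4 := Finset.card_le_univ (univ.filter (fun t => ∃ s, e ⟨t, s⟩ = i) ∪
        univ.filter (fun t => ∃ s, e ⟨t, s⟩ = j))
      rwa [Fintype.card_fin] at h4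
    rw [hC, hC] at h2
    omega
  · have h2 := hcc (a - 1)
    rw [wt, dif_pos (by omega : a - 1 < n)] at h2
    have h3 : X ≤ lam ⟨a - 1, by omega⟩ := h1 _ (by simp only; omega)
    rw [← h2] at h3
    refine h3.trans (Finset.card_le_card ?_)
    -- a column of length `≥ a` contains every row
    intro t ht
    rw [Finset.mem_filter] at ht
    have hinj : Function.Injective (fun s : Fin (l' t) => e ⟨t, s⟩) := by
      intro u v huv
      by_contra h4
      exact hcol t u v h4 huv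
    have hsurj : Function.Surjective (fun s : Fin (l' t) => e ⟨t, s⟩) := by
      have h4 := Fintype.card_le_of_injective _ hinj
      rw [Fintype.card_fin, Fintype.card_fin] at h4
      have h5 : l' t = a := by
        have := ht.2
        omega
      exact ((Fintype.bijective_iff_injective_and_card _).2 ⟨hinj, by
        rw [Fintype.card_fin, Fintype.card_fin, h5]⟩).2
    rw [Finset.mem_inter, Finset.mem_filter, Finset.mem_filter]
    exact ⟨⟨Finset.mem_univ _, hsurj i⟩, Finset.mem_univ _, hsurj j⟩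

end Vale.Agent.P181.Q
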