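import Vale.Agent.P181.Q.Main2
import Vale.Agent.P181.Q.Const2
import Vale.Agent.P181.Q.Kernel2
import Vale.Agent.P181.Q.Label2
import Vale.Agent.P181.Q.Design
import Vale.Agent.P181.Bdl.B2
import Vale.Agent.P181.H536.HW
import Vale.Agent.P181.H179.Window

set_option autoImplicit false

open scoped TensorProduct

namespace Vale.Agent.P181.Q

open Vale.Agent.P181 Vale.Agent.P181.H280 Vale.Agent.P181.H179 Vale.Agent.P181.H530

/-- The weights of the bulk: all entries at most `(2 - δ) b`, or the first `a` entries at least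
`δ b`. -/
def Bulk (δ : ℝ) (a b n : ℕ) (lam : Fin n → ℕ) : Prop :=
  (∀ i, (lam i : ℝ) ≤ (2 - δ) * b) ∨ (a ≤ n ∧ ∀ i : Fin n, (i : ℕ) < a → δ * b ≤ (lam i : ℝ))

/-- Many rows of comparable lengths: the core. -/
theorem core {δ : ℝ} (hδ : 0 < δ) (hδ1 : δ ≤ 1) {a b : ℕ}
    (hCa : 1000000000000 / δ ^ 4 ≤ (a : ℝ)) (hab : 10000 / δ * (a : ℝ) ≤ b) (hb2 : b ≤ a ^ 2)
    (n : ℕ) :
    ∃ Ψ : Pleth a b n →ₗ[ℂ] Pleth b a n, IsEquivariant Ψ ∧
      ∀ lam : Fin n → ℕ, Bulk δ a b n lam →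
        InjOnHW Ψ lam ∧ plethMult a b n lam ≤ plethMult b a n lam := by
  obtain ⟨u, P, s, μ, ha, hu, hP, haP, hau, h15, h7, _, h5, hsb, hnum⟩ :=
    consts2 δ hδ hδ1 a b hCa hab hb2
  have hX : ((s + 30 * u * (b / a + 1) : ℕ) : ℝ) ≤ δ * b := by
    push_cast
    exact hsb
  have hb0 : (0 : ℝ) ≤ b := Nat.cast_nonneg b
  have hXb : s + 30 * u * (b / a + 1) ≤ 2 * b := by
    have h1 : ((s + 30 * u * (b / a + 1) : ℕ) : ℝ) ≤ ((2 * b : ℕ) : ℝ) := by
      refine hX.trans ?_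
      push_cast
      nlinarith
    exact_mod_cast h1
  obtain ⟨E, hE⟩ := foulkes_design2 (label2 kernel2) design (M := 2 * b -
    (s + 30 * u * (b / a + 1))) ha hu hP haP hau h15 h7 h5 hnum (by omega)
  refine ⟨arrMap a b E (Fin n → ℂ),
    fun g x => LinearMap.congr_fun (arrMap_equivariant a b E (Matrix.toLin' g)) x,
    fun lam hlam => ?_⟩
  have h1 := hE n lam ?_
  · exact ⟨fun x hx h0 => h1.1 x hx h0, h1.2⟩
  · rcases hlam with h2 | ⟨han, h2⟩
    · left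
      intro m
      have h3 := h2 m
      have h4 : (lam m : ℝ) + ((s + 30 * u * (b / a + 1) : ℕ) : ℝ) ≤ ((2 * b : ℕ) : ℝ) := by
        rw [Nat.cast_mul, Nat.cast_ofNat]
        linarith
      have h5 : lam m + (s + 30 * u * (b / a + 1)) ≤ 2 * b := by exact_mod_cast h4
      omega
    · right
      refine ⟨han, fun m hm => ?_⟩
      exact_mod_cast hX.trans (h2 m hm)

/-- All pairs `(a, b)` with `b ≥ (a - 1)^2`, or `b ≥ 10^4 a / δ` and `a ≥ 10^12 / δ^4`. -/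
def Wide (δ : ℝ) (a b : ℕ) : Prop :=
  (a - 1) ^ 2 ≤ b ∨ (1000000000000 / δ ^ 4 ≤ (a : ℝ) ∧ 10000 / δ * (a : ℝ) ≤ b)

theorem wide_of {δ : ℝ} (hδ : 0 < δ) (hδ1 : δ ≤ 1) {a b : ℕ}
    (h : 1000000000000 / δ ^ 4 * (a : ℝ) ≤ b) : Wide δ a b := by
  have hδ4 : (0 : ℝ) < δ ^ 4 := by positivity
  have ha0 : (0 : ℝ) ≤ a := Nat.cast_nonneg a
  by_cases hCa : 1000000000000 / δ ^ 4 ≤ (a : ℝ)
  · right
    refine ⟨hCa, le_trans (mul_le_mul_of_nonneg_right ?_ ha0) h⟩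
    rw [div_le_div_iff₀ hδ hδ4]
    have h3 : δ ^ 4 ≤ δ := by
      have := pow_le_pow_of_le_one hδ.le hδ1 (show 1 ≤ 4 by norm_num)
      simpa using this
    linarith
  · left
    push Not at hCa
    have h1 : (a : ℝ) * a ≤ b := le_trans (mul_le_mul_of_nonneg_right hCa.le ha0) h
    have h2 : a * a ≤ b := by exact_mod_cast h1
    refine le_trans ?_ h2
    rw [pow_two]
    exact Nat.mul_le_mul (Nat.sub_le _ _) (Nat.sub_le _ _)

/-- **All pairs.** -/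
theorem all_pairs {δ : ℝ} (hδ : 0 < δ) (hδ1 : δ ≤ 1) {a b : ℕ} (h : Wide δ a b) (n : ℕ) :
    ∃ Ψ : Pleth a b n →ₗ[ℂ] Pleth b a n, IsEquivariant Ψ ∧
      ∀ lam : Fin n → ℕ, Bulk δ a b n lam →
        InjOnHW Ψ lam ∧ plethMult a b n lam ≤ plethMult b a n lam := by
  by_cases hb2 : (a - 1) ^ 2 ≤ b
  · refine ⟨foulkesHowe a b (Fin n → ℂ),
      fun g x => LinearMap.congr_fun (foulkesHowe_equivariant a b (Matrix.toLin' g)) x,
      fun lam _ => ?_⟩
    have hinj : ∀ x ∈ hwSpace lam (plethAct a b n), foulkesHowe a b (Fin n → ℂ) x = 0 → x = 0 :=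
      fun x _ h0 => foulkesHowe_injective (V := Fin n → ℂ) hb2
        (h0.trans (map_zero (foulkesHowe a b (Fin n → ℂ))).symm)
    exact ⟨fun x hx h0 => hinj x hx h0, finrank_le_of_inj (foulkesHowe a b (Fin n → ℂ)) _ _
      (fun x hx => H536.foulkesHowe_hwSpace lam x hx) hinj⟩
  · rcases h with h | ⟨h1, h2⟩
    · exact absurd h hb2
    · refine core hδ hδ1 h1 h2 ?_ n
      push Not at hb2
      refine hb2.le.trans ?_
      exact Nat.pow_le_pow_left (Nat.sub_le _ _) 2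

/-- The prolonged form. -/
theorem all_pairs_prop {δ : ℝ} (hδ : 0 < δ) (hδ1 : δ ≤ 1) {a b : ℕ} (h : Wide δ a b) (n k : ℕ)
    (lam : Fin (n + 1) → ℕ) (hlam : ∀ i, i ≠ 0 → lam i ≤ b)
    (h0 : (lam 0 : ℝ) ≤ (2 - δ) * b + a * k ∨ (a ≤ n + 1 ∧ a * k + δ * b ≤ (lam 0 : ℝ) ∧
      ∀ i : Fin (n + 1), i ≠ 0 → (i : ℕ) < a → δ * b ≤ (lam i : ℝ))) :
    plethMult a (b + k) (n + 1) lam ≤ plethMult (b + k) a (n + 1) lam := by
  apply reduction a b k lam hlam
  intro c hc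
  have hcR : (lam 0 : ℝ) = c + a * k := by exact_mod_cast hc
  have hb0 : (0 : ℝ) ≤ b := Nat.cast_nonneg b
  obtain ⟨Ψ, _, hΨ⟩ := all_pairs hδ hδ1 h (n + 1)
  refine (hΨ _ ?_).2
  rcases h0 with h0 | ⟨han, h0, h1⟩
  · left
    intro m
    by_cases hm : m = 0
    · subst hm
      rw [Function.update_self]
      linarith
    · rw [Function.update_of_ne hm]
      have h2 : (lam m : ℝ) ≤ b := by exact_mod_cast hlam m hm
      nlinarith
  · right
    refine ⟨han, fun m hma => ?_⟩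
    by_cases hm : m = 0
    · subst hm
      rw [Function.update_self]
      linarith
    · rw [Function.update_of_ne hm]
      exact h1 m hm hma

end Vale.Agent.P181.Q
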